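import Vale.Agent.P218.H333.TruncFam
import Vale.Agent.P218.H313.CayFam

/-! A family of self-shrinkers gives a family of tube functions. -/

open MeasureTheory Set Filter Topology Metric
open scoped ENNReal NNReal RealInnerProductSpace

set_option linter.unusedSectionVars false

namespace Vale.Agent.P218.H333

open Vale.Agent.P218.H63
open Vale.Agent.P218.H313 (grad tr jac TubeD contDiff_grad_one grad_mul norm_grad grad_unique
  inner_grad abs_tr_le trL)

variable {E : Type*} [NormedAddCommGroup E] [InnerProductSpace ℝ E] [FiniteDimensional ℝ E]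
variable {P : Type*} [NormedAddCommGroup P] [NormedSpace ℝ P]
variable {w : P → E → ℝ} {r δ C K : ℝ} {q : ℕ} {α : ℝ}

/-- the trivial bound of the Jacobi operator -/
lemma abs_jac_le {W ζ : E → ℝ} {c L D0 D1 D2 : ℝ} (hW : TubeD W c L) {x : E}
    (h0 : |ζ x| ≤ D0) (h1 : ‖grad ζ x‖ ≤ D1) (h2 : ‖fderiv ℝ (grad ζ) x‖ ≤ D2) :
    |jac W ζ x| ≤ (Module.finrank ℝ E + L ^ 2) * D2 + ‖x‖ * D1
      + (Module.finrank ℝ E * L ^ 2 + 1) * D0 := by
  have hL := hW.K_nonneg
  set N : ℝ := (Module.finrank ℝ E : ℝ) with hN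
  have hN0 : 0 ≤ N := Nat.cast_nonneg _
  have a1 : |tr (fderiv ℝ (grad ζ) x)| ≤ N * D2 := (abs_tr_le _).trans (by gcongr)
  have a2 : |⟪fderiv ℝ (grad ζ) x (grad W x), grad W x⟫| ≤ L ^ 2 * D2 := by
    refine (abs_real_inner_le_norm _ _).trans ?_
    have e1 := (fderiv ℝ (grad ζ) x).le_opNorm (grad W x)
    have e2 := hW.b1 x
    have e3 : 0 ≤ D2 := (norm_nonneg _).trans h2
    calc ‖fderiv ℝ (grad ζ) x (grad W x)‖ * ‖grad W x‖
        ≤ (‖fderiv ℝ (grad ζ) x‖ * ‖grad W x‖) * ‖grad W x‖ := by gcongr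
      _ ≤ (D2 * L) * L := by gcongr
      _ = _ := by ring
  have a3 : |1 / 2 * ⟪x, grad ζ x⟫| ≤ ‖x‖ * D1 := by
    rw [abs_mul, abs_of_pos (by norm_num : (0 : ℝ) < 1 / 2)]
    have e1 := abs_real_inner_le_norm x (grad ζ x)
    have e2 : ‖x‖ * ‖grad ζ x‖ ≤ ‖x‖ * D1 := by gcongr
    have e3 := abs_nonneg ⟪x, grad ζ x⟫
    linarith
  have a4 : |(tr ((fderiv ℝ (grad W) x).comp (fderiv ℝ (grad W) x)) + 1 / 2) * ζ x|
      ≤ (N * L ^ 2 + 1) * D0 := by
    rw [abs_mul]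
    have e1 := hW.q_le x
    have e2 : |tr ((fderiv ℝ (grad W) x).comp (fderiv ℝ (grad W) x)) + 1 / 2| ≤ N * L ^ 2 + 1 := by
      refine (abs_add_le _ _).trans ?_
      rw [abs_of_pos (by norm_num : (0 : ℝ) < 1 / 2)]
      linarith
    gcongr
  unfold jac
  have b1 := abs_add_le (tr (fderiv ℝ (grad ζ) x) - ⟪fderiv ℝ (grad ζ) x (grad W x), grad W x⟫
    - 1 / 2 * ⟪x, grad ζ x⟫)
    ((tr ((fderiv ℝ (grad W) x).comp (fderiv ℝ (grad W) x)) + 1 / 2) * ζ x)
  have b2 := abs_sub (tr (fderiv ℝ (grad ζ) x) - ⟪fderiv ℝ (grad ζ) x (grad W x), grad W x⟫)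
    (1 / 2 * ⟪x, grad ζ x⟫)
  have b3 := abs_sub (tr (fderiv ℝ (grad ζ) x)) ⟪fderiv ℝ (grad ζ) x (grad W x), grad W x⟫
  linarith

/-- the Jacobi operator depends only on germs -/
lemma jac_congr {W W' ζ ζ' : E → ℝ} {x : E} (hW : W =ᶠ[𝓝 x] W') (hζ : ζ =ᶠ[𝓝 x] ζ') :
    jac W ζ x = jac W' ζ' x := by
  have h1 := grad_congr hW
  have h2 := grad_congr hζ
  unfold jac
  rw [h1.eq_of_nhds, h1.fderiv_eq, h2.eq_of_nhds, h2.fderiv_eq, hζ.eq_of_nhds]

/-- the arithmetic of the far region -/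
lemma far_arith {N L D0 D1 D2 X β v α : ℝ} (hN : 0 ≤ N) (hD0 : 0 ≤ D0) (hD1 : 0 ≤ D1)
    (hD2 : 0 ≤ D2) (hX : 0 ≤ X) (hβ : 0 ≤ β) (hα : 0 < α) (hv : α ≤ v) :
    (N + L ^ 2) * (D2 * (1 + X) ^ 2 * β) + X * (D1 * (1 + X) * β)
      + (N * L ^ 2 + 1) * (D0 * (1 + X) * β)
      ≤ (((N + L ^ 2) * D2 + D1 + (N * L ^ 2 + 1) * D0) / α) * (1 + X) ^ 2 * β * v := by
  have hv0 : 0 < v := hα.trans_le hv
  set J := (N + L ^ 2) * D2 + D1 + (N * L ^ 2 + 1) * D0 with hJ
  have hJ0 : 0 ≤ J := by positivity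
  have h1 : (N + L ^ 2) * (D2 * (1 + X) ^ 2 * β) + X * (D1 * (1 + X) * β)
      + (N * L ^ 2 + 1) * (D0 * (1 + X) * β) ≤ J * ((1 + X) ^ 2 * β) := by
    have e : J * ((1 + X) ^ 2 * β) - ((N + L ^ 2) * (D2 * (1 + X) ^ 2 * β)
      + X * (D1 * (1 + X) * β) + (N * L ^ 2 + 1) * (D0 * (1 + X) * β))
      = D1 * (1 + X) * β + (N * L ^ 2 + 1) * D0 * X * (1 + X) * β := by rw [hJ]; ring
    have : 0 ≤ D1 * (1 + X) * β + (N * L ^ 2 + 1) * D0 * X * (1 + X) * β := by positivity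
    linarith
  refine h1.trans ?_
  have h2 : J / α * (1 + X) ^ 2 * β * v = J * ((1 + X) ^ 2 * β) * (v / α) := by
    field_simp
  rw [h2]
  refine le_mul_of_one_le_right (by positivity) ?_
  rwa [one_le_div hα]

/-- the almost Jacobi identity for the truncated family -/
lemma jac_dV (h : IsShrinkerFamily w r δ C q) (hK0 : 0 ≤ K) (hCK : C ≤ K) (hα : 0 < α)
    (hαδ : 2 * α < δ) (hKα : α * K ≤ 1 / 4) {L D1 D2 : ℝ} (hD1 : 0 ≤ D1) (hD2 : 0 ≤ D2) {a : P}
    (ha : ‖a‖ < r) (ht : TubeD (fun x => Theta α hα (w a x)) α L) (b : P) (x : E)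
    (hbd : |dV w α hα a b x| ≤ K * (1 + ‖x‖) * ‖b‖ ∧
      ‖grad (dV w α hα a b) x‖ ≤ D1 * (1 + ‖x‖) * ‖b‖ ∧
      ‖fderiv ℝ (grad (dV w α hα a b)) x‖ ≤ D2 * (1 + ‖x‖) ^ 2 * ‖b‖) :
    |jac (fun x => Theta α hα (w a x)) (dV w α hα a b) x|
      ≤ (Module.finrank ℝ E * (6 * K * K + 5 * K ^ 3 * K)
        + ((Module.finrank ℝ E + L ^ 2) * D2 + D1 + (Module.finrank ℝ E * L ^ 2 + 1) * K) / α)
        * (1 + ‖x‖) ^ 2 * ‖b‖ * |Theta α hα (w a x)| := by
  have hb0 := norm_nonneg b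
  have hx0 := norm_nonneg x
  have hN0 : (0 : ℝ) ≤ Module.finrank ℝ E := Nat.cast_nonneg _
  have hwa : ContDiff ℝ 3 (w a) := (h.tube a ha).smooth
  have p1 : 0 ≤ ((Module.finrank ℝ E + L ^ 2) * D2 + D1
      + (Module.finrank ℝ E * L ^ 2 + 1) * K) / α * (1 + ‖x‖) ^ 2 * ‖b‖
      * |Theta α hα (w a x)| := by positivity
  have p2 : 0 ≤ Module.finrank ℝ E * (6 * K * K + 5 * K ^ 3 * K) * (1 + ‖x‖) ^ 2 * ‖b‖
      * |Theta α hα (w a x)| := by positivity
  rw [add_mul, add_mul, add_mul]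
  rcases lt_or_ge (|Theta α hα (w a x)|) α with hx | hx
  · have hx' : |w a x| < α := theta_small hα hx
    have e1 : (fun x => Theta α hα (w a x)) =ᶠ[𝓝 x] w a := by
      have : {y | |w a y| < α} ∈ 𝓝 x :=
        (isOpen_lt hwa.continuous.abs continuous_const).mem_nhds hx'
      filter_upwards [this] with y hy using Theta_eq hα (le_of_lt hy)
    have e2 := dV_eventually_eq hwa.continuous hα b hx'
    have hxδ : |w a x| < δ := by linarith
    have e3 : Theta α hα (w a x) = w a x := e1.eq_of_nhds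
    rw [e3] at p1 p2 ⊢
    rw [jac_congr e1 e2]
    have key := h.jac_small hK0 hCK ha b hxδ
      ((mul_le_mul_of_nonneg_right hx'.le hK0).trans hKα)
    refine (key.trans ?_).trans (le_add_of_nonneg_right p1)
    have v0 : |velocity w a b x| ≤ K * (1 + ‖x‖) ^ 2 * ‖b‖ := by
      refine (h.vel_le a ha b x hxδ).trans ?_
      have : 1 + ‖x‖ ≤ (1 + ‖x‖) ^ 2 := by nlinarith
      gcongr
    have v2 : ‖fderiv ℝ (grad (velocity w a b)) x‖ ≤ K * (1 + ‖x‖) ^ 2 * ‖b‖ :=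
      (h.hess_le a ha b x hxδ).trans (by gcongr)
    calc Module.finrank ℝ E * |w a x| * (6 * K * ‖fderiv ℝ (grad (velocity w a b)) x‖
          + 5 * K ^ 3 * |velocity w a b x|)
        ≤ Module.finrank ℝ E * |w a x| * (6 * K * (K * (1 + ‖x‖) ^ 2 * ‖b‖)
          + 5 * K ^ 3 * (K * (1 + ‖x‖) ^ 2 * ‖b‖)) := by gcongr
      _ = _ := by ring
  · obtain ⟨b0, b1, b2⟩ := hbd
    have key := abs_jac_le ht b0 b1 b2
    refine (key.trans ?_).trans (le_add_of_nonneg_left p2)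
    exact far_arith hN0 hK0 hD1 hD2 hx0 hb0 hα hx

/-- Derivative bounds give the finite increments of `PFam`. -/
theorem pfam_of_bounds {V : P → E → ℝ} {V' : P → P →ₗ[ℝ] (E → ℝ)} {L D1 D2 D3 J : ℝ} {k : ℕ}
    (hr : 0 < r) (hk : 1 ≤ k) (hcdV : ContDiff ℝ 2 fun p : P × E => V p.1 p.2)
    (hdcd : ∀ b, ContDiff ℝ 2 fun p : P × E => V' p.1 b p.2)
    (hvel : ∀ a b, velocity V a b = V' a b) (hL0 : 0 ≤ L) (hK0 : 0 ≤ K) (hD1 : 0 ≤ D1)
    (hD2 : 0 ≤ D2) (hD3 : 0 ≤ D3) (hJ0 : 0 ≤ J)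
    (htube : ∀ a, ‖a‖ < r → TubeD (V a) α L)
    (hbd : ∀ a, ‖a‖ < r → ∀ b x, |V' a b x| ≤ K * (1 + ‖x‖) * ‖b‖ ∧
      ‖grad (V' a b) x‖ ≤ D1 * (1 + ‖x‖) * ‖b‖ ∧
      ‖fderiv ℝ (grad (V' a b)) x‖ ≤ D2 * (1 + ‖x‖) ^ 2 * ‖b‖)
    (hac : ∀ a, ‖a‖ < r → ∀ b b' x, |fderiv ℝ (fun a' => V' a' b x) a b'|
      ≤ D3 * (1 + ‖x‖) ^ k * ‖b‖ * ‖b'‖)
    (hjac : ∀ a, ‖a‖ < r → ∀ b x, |jac (V a) (V' a b) x|
      ≤ J * (1 + ‖x‖) ^ 2 * ‖b‖ * |V a x|) :
    PFam V V' (r / 2) α (L + K + D1 + D2 + D3 + J) k := by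
  -- derivatives in the parameter
  have hr2 : ∀ a : P, ‖a‖ ≤ r / 2 → ‖a‖ < r := fun a ha => by linarith
  have hx1 : ∀ x : E, 1 ≤ 1 + ‖x‖ := fun x => by have := norm_nonneg x; linarith
  have hpow : ∀ x : E, 1 + ‖x‖ ≤ (1 + ‖x‖) ^ k := fun x => by
    calc 1 + ‖x‖ = (1 + ‖x‖) ^ 1 := (pow_one _).symm
      _ ≤ _ := pow_le_pow_right₀ (hx1 x) hk
  have hVd : ∀ (x : E) (a : P), DifferentiableAt ℝ (fun a => V a x) a := fun x a =>
    (hcdV.comp (contDiff_id.prodMk contDiff_const)).differentiable (by norm_num) a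
  have hVf : ∀ (x : E) (a b : P), fderiv ℝ (fun a => V a x) a b = V' a b x := by
    intro x a b
    exact congrFun (hvel a b) x
  have hgcd : ContDiff ℝ 1 fun p : P × E => grad (V p.1) p.2 :=
    cd_grad hcdV (by norm_num) (by norm_num)
  have hgd : ∀ (x : E) (a : P), DifferentiableAt ℝ (fun a => grad (V a) x) a := fun x a =>
    (hgcd.comp (contDiff_id.prodMk contDiff_const)).differentiable (by norm_num) a
  have hgf : ∀ (x : E) (a b : P), fderiv ℝ (fun a => grad (V a) x) a b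
      = grad (V' a b) x := by
    intro x a b
    have := grad_vel hcdV b (a, x)
    simp only at this
    rw [hvel] at this
    rw [this]; rfl
  have hdd : ∀ (b : P) (x : E) (a : P), DifferentiableAt ℝ (fun a => V' a b x) a :=
    fun b x a => ((hdcd b).comp (contDiff_id.prodMk contDiff_const)).differentiable (by norm_num) a
  have hconv : Convex ℝ {a : P | ‖a‖ ≤ r / 2} := by
    have : {a : P | ‖a‖ ≤ r / 2} = closedBall 0 (r / 2) := by ext; simp
    rw [this]; exact convex_closedBall _ _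
  have hdlip : ∀ a a', ‖a‖ ≤ r / 2 → ‖a'‖ ≤ r / 2 → ∀ b x,
      |V' a b x - V' a' b x| ≤ D3 * (1 + ‖x‖) ^ k * ‖a - a'‖ * ‖b‖ := by
    intro a a' ha ha' b x
    have := hconv.norm_image_sub_le_of_norm_fderiv_le (𝕜 := ℝ)
      (f := fun a => V' a b x) (C := D3 * (1 + ‖x‖) ^ k * ‖b‖)
      (fun z _ => hdd b x z) (fun z hz => by
        refine ContinuousLinearMap.opNorm_le_bound _ (by positivity) fun b' => ?_
        rw [Real.norm_eq_abs]
        exact hac z (hr2 z hz) b b' x) ha' ha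
    rw [Real.norm_eq_abs] at this
    refine this.trans (le_of_eq (by ring))
  refine
    { rpos := by linarith
      Knn := by positivity
      tube := fun a ha => (htube a (hr2 a ha)).mono (by linarith)
      lip := fun a a' ha ha' x => ?_
      lipg := fun a a' ha ha' x => ?_
      taylor := fun a a' ha ha' x => ?_
      dlip := fun a a' ha ha' b x => ?_
      dsm := fun a ha b => (hdcd b).comp (contDiff_const.prodMk contDiff_id)
      db0 := fun a ha b x => ?_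
      db1 := fun a ha b x => ?_
      db2 := fun a ha b x => ?_
      jacb := fun a ha b x => ?_
      gcont := hgcd.continuous
      qcont := ?_ }
  · have := hconv.norm_image_sub_le_of_norm_fderiv_le (𝕜 := ℝ)
      (f := fun a => V a x) (C := K * (1 + ‖x‖)) (fun z _ => hVd x z) (fun z hz => by
        refine ContinuousLinearMap.opNorm_le_bound _ (by positivity) fun b' => ?_
        rw [Real.norm_eq_abs, hVf]
        exact (hbd z (hr2 z hz) b' x).1) ha' ha
    rw [Real.norm_eq_abs] at this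
    refine this.trans ?_
    have := hpow x
    gcongr
    linarith
  · have := hconv.norm_image_sub_le_of_norm_fderiv_le (𝕜 := ℝ)
      (f := fun a => grad (V a) x) (C := D1 * (1 + ‖x‖)) (fun z _ => hgd x z) (fun z hz => by
        refine ContinuousLinearMap.opNorm_le_bound _ (by positivity) fun b' => ?_
        rw [hgf]
        exact (hbd z (hr2 z hz) b' x).2.1) ha' ha
    refine this.trans ?_
    have := hpow x
    gcongr
    linarith
  · have hs : Convex ℝ ({a : P | ‖a‖ ≤ r / 2} ∩ closedBall a ‖a' - a‖) :=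
      hconv.inter (convex_closedBall _ _)
    have := hs.norm_image_sub_le_of_norm_fderiv_le' (𝕜 := ℝ) (f := fun a => V a x)
      (C := D3 * (1 + ‖x‖) ^ k * ‖a' - a‖) (φ := fderiv ℝ (fun a => V a x) a) (x := a)
      (y := a') (fun z _ => hVd x z) (fun z hz => by
        refine ContinuousLinearMap.opNorm_le_bound _ (by positivity) fun b' => ?_
        rw [sub_apply, hVf, hVf, Real.norm_eq_abs]
        refine (hdlip z a hz.1 ha b' x).trans ?_
        have h1 : ‖z - a‖ ≤ ‖a' - a‖ := by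
          have := hz.2
          rwa [mem_closedBall, dist_eq_norm] at this
        gcongr) ⟨ha, mem_closedBall_self (norm_nonneg _)⟩
        ⟨ha', by rw [mem_closedBall, dist_eq_norm]⟩
    rw [hVf, Real.norm_eq_abs] at this
    refine this.trans ?_
    rw [pow_two ‖a' - a‖, ← mul_assoc]
    gcongr
    linarith
  · refine (hdlip a a' ha ha' b x).trans ?_
    gcongr
    linarith
  · refine (hbd a (hr2 a ha) b x).1.trans ?_
    gcongr
    linarith
  · refine (hbd a (hr2 a ha) b x).2.1.trans ?_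
    gcongr
    linarith
  · refine (hbd a (hr2 a ha) b x).2.2.trans ?_
    gcongr
    linarith
  · refine (hjac a (hr2 a ha) b x).trans ?_
    gcongr
    linarith
  · have h1 := continuous_hess hcdV
    exact (trL E).continuous.comp (h1.clm_comp h1)

/-- **A family of self-shrinkers gives a family of tube functions.** -/
theorem IsShrinkerFamily.exists_pfam (h : IsShrinkerFamily w r δ C q) :
    ∃ (α : ℝ) (hα : 0 < α) (K' : ℝ), α < δ ∧
      PFam (fun a x => Theta α hα (w a x)) (dV w α hα) (r / 2) α K' (q + 2) := by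
  have hr := h.pos
  set K := max C 0 with hK
  have hCK : C ≤ K := le_max_left _ _
  have hK0 : 0 ≤ K := le_max_right _ _
  have hδ : 0 < δ := (h.tube 0 (by simpa using hr)).pos
  set α : ℝ := min (δ / 4) (1 / (4 * (K + 1))) with hαd
  have hK1 : 0 < K + 1 := by linarith
  have hα : 0 < α := lt_min (by linarith) (by positivity)
  have hα4 : α ≤ δ / 4 := min_le_left _ _
  have hαδ : 2 * α < δ := by linarith
  have hKα : α * K ≤ 1 / 4 := by
    have h1 : α ≤ 1 / (4 * (K + 1)) := min_le_right _ _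
    calc α * K ≤ 1 / (4 * (K + 1)) * (K + 1) := mul_le_mul h1 (by linarith) hK0 (by positivity)
      _ = 1 / 4 := by field_simp
  obtain ⟨M, hM0, hM1, hM2⟩ := exists_bmp_bounds hα
  have htube : ∀ a, ‖a‖ < r → TubeD (fun x => Theta α hα (w a x)) α _ := fun a ha =>
    tubeD_theta ⟨(h.tube a ha).pos, (h.tube a ha).smooth, (h.tube a ha).mem_iff,
      (h.tube a ha).norm_grad, fun x hx => ((h.tube a ha).hess_le x hx).trans hCK,
      (h.tube a ha).shrinker⟩ hK0 hα hαδ hM0 hM1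
  have hL0 := (htube 0 (by simpa using hr)).K_nonneg
  refine ⟨α, hα, _, by linarith, pfam_of_bounds hr (by omega) (cd_theta h.smooth hα)
    (cd_dV h.smooth hα) (velocity_theta h.smooth hα) hL0 hK0 (D1 := (1 + M) * K)
    (D2 := (1 + 3 * M + M * K) * K) (D3 := M * K ^ 2 + K) (by positivity) (by positivity)
    (by positivity) ?_ htube
    (fun a ha b x => dV_bounds h hK0 hCK hα hαδ hM0 hM1 hM2 ha b x)
    (fun a ha b b' x => dV_acc h hK0 hCK hα hαδ hM0 hM1 ha b b' x)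
    (fun a ha b x => jac_dV h hK0 hCK hα hαδ hKα (by positivity) (by positivity) ha (htube a ha)
      b x (dV_bounds h hK0 hCK hα hαδ hM0 hM1 hM2 ha b x))⟩
  positivity

end Vale.Agent.P218.H333
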