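import Vale.Agent.P218.H333.Drift
import Vale.Agent.P218.H333.PInst

/-! A family of tube functions together with all rotations. -/

open MeasureTheory Set Filter Topology Metric
open scoped ENNReal NNReal RealInnerProductSpace

set_option linter.unusedSectionVars false
set_option linter.unusedVariables false

namespace Vale.Agent.P218.H333

open Vale.Agent.P214 (IntegralVarifold proj divAlong IsTestField)
open Vale.Agent.P218.H313

section basic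

variable {E : Type*} [NormedAddCommGroup E] [InnerProductSpace ℝ E] [FiniteDimensional ℝ E]

/-- the Jacobi operator is invariant under rotations -/
lemma jac_comp_isometry {W ζ : E → ℝ} (hW : ContDiff ℝ 2 W) (hζ : ContDiff ℝ 2 ζ)
    (Q : E ≃ₗᵢ[ℝ] E) (x : E) :
    jac (fun y => W (Q y)) (fun y => ζ (Q y)) x = jac W ζ (Q x) := by
  unfold jac
  rw [tr_sq_comp_isometry hW, fderiv_grad_comp_isometry hζ, tr_conj,
    grad_comp_isometry (hζ.of_le (by norm_num)), grad_comp_isometry (hW.of_le (by norm_num))]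
  have e1 : ((Q.symm.toContinuousLinearEquiv : E →L[ℝ] E).comp
      ((fderiv ℝ (grad ζ) (Q x)).comp (Q.toContinuousLinearEquiv : E →L[ℝ] E)))
      (Q.symm (grad W (Q x))) = Q.symm (fderiv ℝ (grad ζ) (Q x) (grad W (Q x))) := by
    simp
  rw [e1, LinearIsometryEquiv.inner_map_map]
  have e2 : ⟪x, Q.symm (grad ζ (Q x))⟫ = ⟪Q x, grad ζ (Q x)⟫ := by
    rw [← LinearIsometryEquiv.inner_map_map Q x, Q.apply_symm_apply]
  rw [e2]

lemma norm_hess_comp_isometry {ζ : E → ℝ} (hζ : ContDiff ℝ 2 ζ) (Q : E ≃ₗᵢ[ℝ] E) (x : E) :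
    ‖fderiv ℝ (grad fun y => ζ (Q y)) x‖ ≤ ‖fderiv ℝ (grad ζ) (Q x)‖ := by
  rw [fderiv_grad_comp_isometry hζ]
  refine ContinuousLinearMap.opNorm_le_bound _ (norm_nonneg _) fun v => ?_
  have e1 : ((Q.symm.toContinuousLinearEquiv : E →L[ℝ] E).comp
      ((fderiv ℝ (grad ζ) (Q x)).comp (Q.toContinuousLinearEquiv : E →L[ℝ] E))) v
      = Q.symm (fderiv ℝ (grad ζ) (Q x) (Q v)) := by simp
  rw [e1, LinearIsometryEquiv.norm_map]
  refine (ContinuousLinearMap.le_opNorm _ _).trans ?_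
  rw [LinearIsometryEquiv.norm_map]

lemma norm_grad_comp_isometry {ζ : E → ℝ} (hζ : ContDiff ℝ 1 ζ) (Q : E ≃ₗᵢ[ℝ] E) (x : E) :
    ‖grad (fun y => ζ (Q y)) x‖ = ‖grad ζ (Q x)‖ := by
  rw [grad_comp_isometry hζ, LinearIsometryEquiv.norm_map]

/-- the gradient of a composition with a linear map -/
lemma grad_comp_clm {W : E → ℝ} (hW : ContDiff ℝ 1 W) [CompleteSpace E] (L : E →L[ℝ] E) (x : E) :
    grad (fun y => W (L y)) x = ContinuousLinearMap.adjoint L (grad W (L x)) := by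
  refine grad_unique fun v => ?_
  rw [ContinuousLinearMap.adjoint_inner_left, inner_grad]
  have h1 := (hW.differentiable (by norm_num) (L x)).hasFDerivAt.comp x L.hasFDerivAt
  have h2 : fderiv ℝ (fun y => W (L y)) x = (fderiv ℝ W (L x)).comp L := h1.fderiv
  rw [h2]; rfl

/-- Lipschitz bound on a ball from a linear growth bound of the gradient -/
lemma lip_of_grad {f : E → ℝ} (hf : ContDiff ℝ 1 f) {B X : ℝ} (hB : 0 ≤ B)
    (hg : ∀ x, ‖grad f x‖ ≤ B * (1 + ‖x‖)) {y y' : E} (hy : ‖y‖ ≤ X) (hy' : ‖y'‖ ≤ X) :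
    |f y' - f y| ≤ B * (1 + X) * ‖y' - y‖ := by
  have := (convex_closedBall (0 : E) X).norm_image_sub_le_of_norm_fderiv_le (𝕜 := ℝ) (f := f)
    (C := B * (1 + X)) (x := y) (y := y') (fun z _ => hf.differentiable (by norm_num) z)
    (fun z hz => by
      rw [← norm_grad]
      refine (hg z).trans ?_
      have := mem_closedBall_zero_iff.1 hz
      gcongr) (mem_closedBall_zero_iff.2 hy) (mem_closedBall_zero_iff.2 hy')
  rwa [Real.norm_eq_abs] at this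

lemma continuous_cay (M' : Submodule ℝ (E →L[ℝ] E)) (hM' : M' ≤ skew E) :
    Continuous fun A : M' => cay (A : E →L[ℝ] E) := by
  have hl : LipschitzWith 2 fun A : M' => cay (A : E →L[ℝ] E) := by
    refine LipschitzWith.of_dist_le_mul fun A B => ?_
    rw [dist_eq_norm, dist_eq_norm]
    refine ContinuousLinearMap.opNorm_le_bound _ (by positivity) fun x => ?_
    exact norm_cay_sub_le (hM' A.2) (hM' B.2) x
  exact hl.continuous

/-- uniformity on a compact set -/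
lemma unif_of_cont {P : Type*} [NormedAddCommGroup P] {J : P × E → ℝ} (hJ : Continuous J)
    {S : Set E} (hS : IsCompact S) (hout : ∀ p, ∀ x ∉ S, J (p, x) = J (0, x)) {ε : ℝ}
    (hε : 0 < ε) : ∃ η > 0, ∀ p : P, ‖p‖ ≤ η → ∀ x, |J (p, x) - J (0, x)| ≤ ε := by
  have h1 : ∀ᶠ p : P in 𝓝 0, ∀ x ∈ S, |J (p, x) - J (0, x)| < ε := by
    refine hS.eventually_forall_of_forall_eventually fun x _ => ?_
    have hc : Continuous fun z : P × E => |J (z.1, z.2) - J (0, z.2)| := by fun_prop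
    have h2 := hc.continuousAt (x := (0, x))
    refine h2.eventually_lt continuousAt_const ?_
    simpa using hε
  obtain ⟨η, hη, h2⟩ := Metric.eventually_nhds_iff.1 h1
  refine ⟨η / 2, half_pos hη, fun p hp x => ?_⟩
  by_cases hx : x ∈ S
  · exact (h2 (by rw [dist_zero_right]; linarith) x hx).le
  · rw [hout p x hx, sub_self, abs_zero]; exact hε.le

end basic

section prod

variable {E : Type*} [NormedAddCommGroup E] [InnerProductSpace ℝ E] [FiniteDimensional ℝ E]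
variable {P : Type*} [NormedAddCommGroup P] [NormedSpace ℝ P]
variable {V : P → E → ℝ} {V' : P → P →ₗ[ℝ] (E → ℝ)} {r c K : ℝ} {q : ℕ}
variable {M' : Submodule ℝ (E →L[ℝ] E)}

/-- the family together with the rotations -/
noncomputable def cV (V : P → E → ℝ) (M' : Submodule ℝ (E →L[ℝ] E)) (p : P × M') (x : E) : ℝ :=
  V p.1 (cay (p.2 : E →L[ℝ] E) x)

/-- its derivative -/
noncomputable def cV' (V : P → E → ℝ) (V' : P → P →ₗ[ℝ] (E → ℝ))
    (M' : Submodule ℝ (E →L[ℝ] E)) (p : P × M') : P × M' →ₗ[ℝ] (E → ℝ) where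
  toFun b := fun x => V' p.1 b.1 (cay (p.2 : E →L[ℝ] E) x)
    + ⟪grad (V p.1) (cay (p.2 : E →L[ℝ] E) x), dcay (p.2 : E →L[ℝ] E) b.2 x⟫
  map_add' := by
    intro b b'
    ext x
    simp only [Prod.fst_add, Prod.snd_add, map_add, Submodule.coe_add, dcay_add, add_apply,
      inner_add_right, Pi.add_apply]
    ring
  map_smul' := by
    intro k b
    ext x
    simp only [Prod.smul_fst, Prod.smul_snd, map_smul, Submodule.coe_smul, dcay_smul, smul_apply,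
      real_inner_smul_right, Pi.smul_apply, RingHom.id_apply, smul_eq_mul]
    ring

lemma cV'_apply (p b : P × M') (x : E) : cV' V V' M' p b x
    = V' p.1 b.1 (cay (p.2 : E →L[ℝ] E) x)
      + ⟪grad (V p.1) (cay (p.2 : E →L[ℝ] E) x), dcay (p.2 : E →L[ℝ] E) b.2 x⟫ := rfl

lemma norm_fst_le' (p : P × M') : ‖p.1‖ ≤ ‖p‖ := norm_fst_le p

lemma norm_snd_le' (p : P × M') : ‖(p.2 : E →L[ℝ] E)‖ ≤ ‖p‖ := norm_snd_le p

variable (hP : PFam V V' r c K q) (hM' : M' ≤ skew E)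

include hP hM'

lemma cV_lip (p p' : P × M') (hp : ‖p‖ ≤ r) (hp' : ‖p'‖ ≤ r) (x : E) :
    |cV V M' p x - cV V M' p' x| ≤ 3 * K * (1 + ‖x‖) ^ (q + 2) * ‖p - p'‖ := by
  have hK := hP.Knn
  have hx0 := norm_nonneg x
  have hx1 : 1 ≤ 1 + ‖x‖ := by linarith
  have h1 := hP.lip p.1 p'.1 ((norm_fst_le' p).trans hp) ((norm_fst_le' p').trans hp')
    (cay (p.2 : E →L[ℝ] E) x)
  rw [norm_cay (hM' p.2.2)] at h1
  have h2 := (hP.tube p'.1 ((norm_fst_le' p').trans hp')).lip0 (cay (p.2 : E →L[ℝ] E) x)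
    (cay (p'.2 : E →L[ℝ] E) x)
  have h3 := norm_cay_sub_le (hM' p.2.2) (hM' p'.2.2) x
  have h4 : ‖p.1 - p'.1‖ ≤ ‖p - p'‖ := norm_fst_le (p - p')
  have h5 : ‖(p.2 : E →L[ℝ] E) - (p'.2 : E →L[ℝ] E)‖ ≤ ‖p - p'‖ := norm_snd_le (p - p')
  have hp1 : (1 + ‖x‖) ^ q ≤ (1 + ‖x‖) ^ (q + 2) := pow_le_pow_right₀ hx1 (by omega)
  have hp2 : ‖x‖ ≤ (1 + ‖x‖) ^ (q + 2) := by
    have := pow_le_pow_right₀ hx1 (show 1 ≤ q + 2 by omega)
    rw [pow_one] at this; linarith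
  have t1 : K * (1 + ‖x‖) ^ q * ‖p.1 - p'.1‖ ≤ K * (1 + ‖x‖) ^ (q + 2) * ‖p - p'‖ := by gcongr
  have t2 : K * ‖cay (p.2 : E →L[ℝ] E) x - cay (p'.2 : E →L[ℝ] E) x‖
      ≤ K * (2 * ‖p - p'‖ * (1 + ‖x‖) ^ (q + 2)) := by
    refine mul_le_mul_of_nonneg_left (h3.trans ?_) hK
    gcongr
  have e : cV V M' p x - cV V M' p' x
      = (V p.1 (cay (p.2 : E →L[ℝ] E) x) - V p'.1 (cay (p.2 : E →L[ℝ] E) x))
        + (V p'.1 (cay (p.2 : E →L[ℝ] E) x) - V p'.1 (cay (p'.2 : E →L[ℝ] E) x)) := by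
    unfold cV; ring
  rw [e]
  refine (abs_add_le _ _).trans ?_
  linarith

lemma cV_lipg (p p' : P × M') (hp : ‖p‖ ≤ r) (hp' : ‖p'‖ ≤ r) (x : E) :
    ‖grad (cV V M' p) x - grad (cV V M' p') x‖ ≤ 3 * K * (1 + ‖x‖) ^ (q + 2) * ‖p - p'‖ := by
  have hK := hP.Knn
  have hx0 := norm_nonneg x
  have hx1 : 1 ≤ 1 + ‖x‖ := by linarith
  have ht := hP.tube p.1 ((norm_fst_le' p).trans hp)
  have ht' := hP.tube p'.1 ((norm_fst_le' p').trans hp')
  obtain ⟨Q, hQ⟩ := exists_cayE (hM' p.2.2)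
  have e1 : cV V M' p = fun y => V p.1 (Q y) := by ext y; unfold cV; rw [hQ]
  have e2 : (fun y => V p'.1 (cay (p.2 : E →L[ℝ] E) y)) = fun y => V p'.1 (Q y) := by
    ext y; rw [hQ]
  have h1 : ‖grad (cV V M' p) x - grad (fun y => V p'.1 (cay (p.2 : E →L[ℝ] E) y)) x‖
      ≤ K * (1 + ‖x‖) ^ q * ‖p.1 - p'.1‖ := by
    rw [e1, e2, grad_comp_isometry (ht.smooth.of_le (by norm_num)),
      grad_comp_isometry (ht'.smooth.of_le (by norm_num)), ← map_sub,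
      LinearIsometryEquiv.norm_map]
    have := hP.lipg p.1 p'.1 ((norm_fst_le' p).trans hp) ((norm_fst_le' p').trans hp') (Q x)
    rwa [LinearIsometryEquiv.norm_map] at this
  have h2 := norm_grad_cay_sub_le ht' (hM' p.2.2) (hM' p'.2.2) x
  have h4 : ‖p.1 - p'.1‖ ≤ ‖p - p'‖ := norm_fst_le (p - p')
  have h5 : ‖(p.2 : E →L[ℝ] E) - (p'.2 : E →L[ℝ] E)‖ ≤ ‖p - p'‖ := norm_snd_le (p - p')
  have hp1 : (1 + ‖x‖) ^ q ≤ (1 + ‖x‖) ^ (q + 2) := pow_le_pow_right₀ hx1 (by omega)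
  have hp2 : 1 + ‖x‖ ≤ (1 + ‖x‖) ^ (q + 2) := by
    have := pow_le_pow_right₀ hx1 (show 1 ≤ q + 2 by omega)
    rwa [pow_one] at this
  have t1 : K * (1 + ‖x‖) ^ q * ‖p.1 - p'.1‖ ≤ K * (1 + ‖x‖) ^ (q + 2) * ‖p - p'‖ := by gcongr
  have t2 : 2 * K * (1 + ‖x‖) * ‖(p.2 : E →L[ℝ] E) - (p'.2 : E →L[ℝ] E)‖
      ≤ 2 * K * (1 + ‖x‖) ^ (q + 2) * ‖p - p'‖ := by gcongr
  have e : grad (cV V M' p) x - grad (cV V M' p') x
      = (grad (cV V M' p) x - grad (fun y => V p'.1 (cay (p.2 : E →L[ℝ] E) y)) x)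
        + (grad (fun y => V p'.1 (cay (p.2 : E →L[ℝ] E) y)) x - grad (cV V M' p') x) := by abel
  rw [e]
  refine (norm_add_le _ _).trans ?_
  have h6 : ‖grad (fun y => V p'.1 (cay (p.2 : E →L[ℝ] E) y)) x - grad (cV V M' p') x‖
      ≤ 2 * K * (1 + ‖x‖) * ‖(p.2 : E →L[ℝ] E) - (p'.2 : E →L[ℝ] E)‖ := h2
  linarith

lemma cV_taylor (p p' : P × M') (hp : ‖p‖ ≤ r) (hp' : ‖p'‖ ≤ r) (x : E) :
    |cV V M' p' x - cV V M' p x - cV' V V' M' p (p' - p) x|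
      ≤ 9 * K * (1 + ‖x‖) ^ (q + 2) * ‖p' - p‖ ^ 2 := by
  have hK := hP.Knn
  have hx0 := norm_nonneg x
  have hx1 : 1 ≤ 1 + ‖x‖ := by linarith
  have hp1 := (norm_fst_le' p).trans hp
  have hp1' := (norm_fst_le' p').trans hp'
  have ht := hP.tube p.1 hp1
  set n := ‖p' - p‖ with hn
  have hn0 : 0 ≤ n := norm_nonneg _
  set y := cay (p.2 : E →L[ℝ] E) x with hy
  set y' := cay (p'.2 : E →L[ℝ] E) x with hy'
  have hyn : ‖y‖ = ‖x‖ := norm_cay (hM' p.2.2) x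
  have hyn' : ‖y'‖ = ‖x‖ := norm_cay (hM' p'.2.2) x
  have n1 : ‖p'.1 - p.1‖ ≤ n := norm_fst_le (p' - p)
  have n2 : ‖(p'.2 : E →L[ℝ] E) - (p.2 : E →L[ℝ] E)‖ ≤ n := norm_snd_le (p' - p)
  have hd : ‖y' - y‖ ≤ 2 * n * ‖x‖ :=
    (norm_cay_sub_le (hM' p'.2.2) (hM' p.2.2) x).trans (by gcongr)
  -- four terms
  have a1 : |V p'.1 y' - V p.1 y' - V' p.1 (p'.1 - p.1) y'| ≤ K * (1 + ‖x‖) ^ q * n ^ 2 := by
    have := hP.taylor p.1 p'.1 hp1 hp1' y'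
    rw [hyn'] at this
    exact this.trans (by gcongr)
  have a2 : |V' p.1 (p'.1 - p.1) y' - V' p.1 (p'.1 - p.1) y| ≤ K * n * (1 + ‖x‖) * (2 * n * ‖x‖) := by
    have := lip_of_grad ((hP.dsm p.1 hp1 (p'.1 - p.1)).of_le (by norm_num)) (B := K * n)
      (by positivity) (fun z => (hP.db1 p.1 hp1 (p'.1 - p.1) z).trans (by
        calc K * (1 + ‖z‖) * ‖p'.1 - p.1‖ ≤ K * (1 + ‖z‖) * n := by gcongr
          _ = _ := by ring)) hyn.le hyn'.le
    exact this.trans (by gcongr)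
  have a3 : |V p.1 y' - V p.1 y - ⟪grad (V p.1) y, y' - y⟫| ≤ K * (2 * n * ‖x‖) ^ 2 :=
    (ht.taylor y y').trans (by gcongr)
  have a4 : |⟪grad (V p.1) y, y' - y
      - dcay (p.2 : E →L[ℝ] E) ((p'.2 : E →L[ℝ] E) - (p.2 : E →L[ℝ] E)) x⟫|
      ≤ K * (2 * n ^ 2 * ‖x‖) := by
    refine (abs_real_inner_le_norm _ _).trans (mul_le_mul (ht.b1 _) ?_ (norm_nonneg _) hK)
    exact (norm_cay_taylor_le (hM' p.2.2) (hM' p'.2.2) x).trans (by gcongr)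
  have e : cV V M' p' x - cV V M' p x - cV' V V' M' p (p' - p) x
      = (V p'.1 y' - V p.1 y' - V' p.1 (p'.1 - p.1) y')
        + (V' p.1 (p'.1 - p.1) y' - V' p.1 (p'.1 - p.1) y)
        + (V p.1 y' - V p.1 y - ⟪grad (V p.1) y, y' - y⟫)
        + ⟪grad (V p.1) y, y' - y
          - dcay (p.2 : E →L[ℝ] E) ((p'.2 : E →L[ℝ] E) - (p.2 : E →L[ℝ] E)) x⟫ := by
    rw [cV'_apply]
    simp only [Prod.fst_sub, Prod.snd_sub, Submodule.coe_sub, cV]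
    rw [inner_sub_right (grad (V p.1) y) (y' - y)]
    ring
  rw [e]
  have b1 := abs_add_le ((V p'.1 y' - V p.1 y' - V' p.1 (p'.1 - p.1) y')
        + (V' p.1 (p'.1 - p.1) y' - V' p.1 (p'.1 - p.1) y)
        + (V p.1 y' - V p.1 y - ⟪grad (V p.1) y, y' - y⟫)) ⟪grad (V p.1) y, y' - y
          - dcay (p.2 : E →L[ℝ] E) ((p'.2 : E →L[ℝ] E) - (p.2 : E →L[ℝ] E)) x⟫
  have b2 := abs_add_le ((V p'.1 y' - V p.1 y' - V' p.1 (p'.1 - p.1) y')
        + (V' p.1 (p'.1 - p.1) y' - V' p.1 (p'.1 - p.1) y))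
        (V p.1 y' - V p.1 y - ⟪grad (V p.1) y, y' - y⟫)
  have b3 := abs_add_le (V p'.1 y' - V p.1 y' - V' p.1 (p'.1 - p.1) y')
        (V' p.1 (p'.1 - p.1) y' - V' p.1 (p'.1 - p.1) y)
  have hp1 : (1 + ‖x‖) ^ q ≤ (1 + ‖x‖) ^ (q + 2) := pow_le_pow_right₀ hx1 (by omega)
  have hp2 : (1 + ‖x‖) ^ 2 ≤ (1 + ‖x‖) ^ (q + 2) := pow_le_pow_right₀ hx1 (by omega)
  have s1 : K * (1 + ‖x‖) ^ q * n ^ 2 ≤ K * (1 + ‖x‖) ^ (q + 2) * n ^ 2 := by gcongr
  have s2 : K * n * (1 + ‖x‖) * (2 * n * ‖x‖) + K * (2 * n * ‖x‖) ^ 2 + K * (2 * n ^ 2 * ‖x‖)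
      ≤ 8 * K * (1 + ‖x‖) ^ 2 * n ^ 2 := by
    have : 8 * K * (1 + ‖x‖) ^ 2 * n ^ 2 - (K * n * (1 + ‖x‖) * (2 * n * ‖x‖)
      + K * (2 * n * ‖x‖) ^ 2 + K * (2 * n ^ 2 * ‖x‖))
      = K * n ^ 2 * (8 + 12 * ‖x‖ + 2 * ‖x‖ ^ 2) := by ring
    have : 0 ≤ K * n ^ 2 * (8 + 12 * ‖x‖ + 2 * ‖x‖ ^ 2) := by positivity
    linarith
  have s3 : 8 * K * (1 + ‖x‖) ^ 2 * n ^ 2 ≤ 8 * K * (1 + ‖x‖) ^ (q + 2) * n ^ 2 := by gcongr
  linarith

end prod

end Vale.Agent.P218.H333
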