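import Vale.Agent.P218.H333.CayProd

/-! A family of tube functions together with all rotations: the instance of `Fam`. -/

open MeasureTheory Set Filter Topology Metric
open scoped ENNReal NNReal RealInnerProductSpace

set_option linter.unusedSectionVars false
set_option linter.unusedVariables false

namespace Vale.Agent.P218.H333

open Vale.Agent.P214 (IntegralVarifold proj divAlong IsTestField)
open Vale.Agent.P218.H313

section prod

variable {E : Type*} [NormedAddCommGroup E] [InnerProductSpace ℝ E] [FiniteDimensional ℝ E]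
variable {P : Type*} [NormedAddCommGroup P] [NormedSpace ℝ P]
variable {V : P → E → ℝ} {V' : P → P →ₗ[ℝ] (E → ℝ)} {r c K : ℝ} {q : ℕ}
variable {M' : Submodule ℝ (E →L[ℝ] E)}
variable (hP : PFam V V' r c K q) (hM' : M' ≤ skew E)

include hP hM'

lemma cV_dlip (p p' : P × M') (hp : ‖p‖ ≤ r) (hp' : ‖p'‖ ≤ r) (b : P × M') (x : E) :
    |cV' V V' M' p b x - cV' V V' M' p' b x|
      ≤ 13 * K * (1 + ‖x‖) ^ (q + 2) * ‖p - p'‖ * ‖b‖ := by
  have hK := hP.Knn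
  have hx0 := norm_nonneg x
  have hx1 : 1 ≤ 1 + ‖x‖ := by linarith
  have hp1 := (norm_fst_le' p).trans hp
  have hp1' := (norm_fst_le' p').trans hp'
  have ht := hP.tube p.1 hp1
  have ht' := hP.tube p'.1 hp1'
  set n := ‖p - p'‖ with hn
  have hn0 : 0 ≤ n := norm_nonneg _
  set β := ‖b‖ with hβ
  have hβ0 : 0 ≤ β := norm_nonneg _
  set y := cay (p.2 : E →L[ℝ] E) x with hy
  set y' := cay (p'.2 : E →L[ℝ] E) x with hy'
  set d := dcay (p.2 : E →L[ℝ] E) b.2 x with hd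
  set d' := dcay (p'.2 : E →L[ℝ] E) b.2 x with hd'
  have hyn : ‖y‖ = ‖x‖ := norm_cay (hM' p.2.2) x
  have hyn' : ‖y'‖ = ‖x‖ := norm_cay (hM' p'.2.2) x
  have n1 : ‖p.1 - p'.1‖ ≤ n := norm_fst_le (p - p')
  have n2 : ‖(p.2 : E →L[ℝ] E) - (p'.2 : E →L[ℝ] E)‖ ≤ n := norm_snd_le (p - p')
  have m1 : ‖b.1‖ ≤ β := norm_fst_le b
  have m2 : ‖(b.2 : E →L[ℝ] E)‖ ≤ β := norm_snd_le b
  have hyy : ‖y - y'‖ ≤ 2 * n * ‖x‖ :=
    (norm_cay_sub_le (hM' p.2.2) (hM' p'.2.2) x).trans (by gcongr)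
  have hdn : ‖d‖ ≤ 2 * β * ‖x‖ := (norm_dcay_le (hM' p.2.2) _ x).trans (by gcongr)
  have hdd : ‖d - d'‖ ≤ 4 * n * β * ‖x‖ :=
    (norm_dcay_sub_le (hM' p.2.2) (hM' p'.2.2) _ x).trans (by gcongr)
  have a1 : |V' p.1 b.1 y - V' p'.1 b.1 y| ≤ K * (1 + ‖x‖) ^ q * n * β := by
    have := hP.dlip p.1 p'.1 hp1 hp1' b.1 y
    rw [hyn] at this
    exact this.trans (by gcongr)
  have a2 : |V' p'.1 b.1 y - V' p'.1 b.1 y'| ≤ K * β * (1 + ‖x‖) * (2 * n * ‖x‖) := by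
    have := lip_of_grad ((hP.dsm p'.1 hp1' b.1).of_le (by norm_num)) (B := K * β)
      (by positivity) (fun z => (hP.db1 p'.1 hp1' b.1 z).trans (by
        calc K * (1 + ‖z‖) * ‖b.1‖ ≤ K * (1 + ‖z‖) * β := by gcongr
          _ = _ := by ring)) hyn'.le hyn.le
    exact this.trans (by gcongr)
  have a3 : |⟪grad (V p.1) y - grad (V p'.1) y, d⟫|
      ≤ (K * (1 + ‖x‖) ^ q * n) * (2 * β * ‖x‖) := by
    refine (abs_real_inner_le_norm _ _).trans (mul_le_mul ?_ hdn (norm_nonneg _) (by positivity))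
    have := hP.lipg p.1 p'.1 hp1 hp1' y
    rw [hyn] at this
    exact this.trans (by gcongr)
  have a4 : |⟪grad (V p'.1) y - grad (V p'.1) y', d⟫| ≤ (K * (2 * n * ‖x‖)) * (2 * β * ‖x‖) := by
    refine (abs_real_inner_le_norm _ _).trans (mul_le_mul ?_ hdn (norm_nonneg _) (by positivity))
    exact (ht'.lip1 y y').trans (by gcongr)
  have a5 : |⟪grad (V p'.1) y', d - d'⟫| ≤ K * (4 * n * β * ‖x‖) :=
    (abs_real_inner_le_norm _ _).trans (mul_le_mul (ht'.b1 _) hdd (norm_nonneg _) hK)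
  have e : cV' V V' M' p b x - cV' V V' M' p' b x
      = (V' p.1 b.1 y - V' p'.1 b.1 y) + (V' p'.1 b.1 y - V' p'.1 b.1 y')
        + ⟪grad (V p.1) y - grad (V p'.1) y, d⟫ + ⟪grad (V p'.1) y - grad (V p'.1) y', d⟫
        + ⟪grad (V p'.1) y', d - d'⟫ := by
    rw [cV'_apply, cV'_apply, inner_sub_left, inner_sub_left, inner_sub_right]
    ring
  rw [e]
  have b1 := abs_add_le ((V' p.1 b.1 y - V' p'.1 b.1 y) + (V' p'.1 b.1 y - V' p'.1 b.1 y')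
        + ⟪grad (V p.1) y - grad (V p'.1) y, d⟫ + ⟪grad (V p'.1) y - grad (V p'.1) y', d⟫)
        ⟪grad (V p'.1) y', d - d'⟫
  have b2 := abs_add_le ((V' p.1 b.1 y - V' p'.1 b.1 y) + (V' p'.1 b.1 y - V' p'.1 b.1 y')
        + ⟪grad (V p.1) y - grad (V p'.1) y, d⟫) ⟪grad (V p'.1) y - grad (V p'.1) y', d⟫
  have b3 := abs_add_le ((V' p.1 b.1 y - V' p'.1 b.1 y) + (V' p'.1 b.1 y - V' p'.1 b.1 y'))
        ⟪grad (V p.1) y - grad (V p'.1) y, d⟫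
  have b4 := abs_add_le (V' p.1 b.1 y - V' p'.1 b.1 y) (V' p'.1 b.1 y - V' p'.1 b.1 y')
  have hq0 : (1 + ‖x‖) ^ q ≤ (1 + ‖x‖) ^ (q + 2) := pow_le_pow_right₀ hx1 (by omega)
  have hq1 : (1 + ‖x‖) ^ q * ‖x‖ ≤ (1 + ‖x‖) ^ (q + 2) := by
    calc (1 + ‖x‖) ^ q * ‖x‖ ≤ (1 + ‖x‖) ^ q * (1 + ‖x‖) := by gcongr; linarith
      _ = (1 + ‖x‖) ^ (q + 1) := (pow_succ _ _).symm
      _ ≤ _ := pow_le_pow_right₀ hx1 (by omega)
  have hq2 : (1 + ‖x‖) ^ 2 ≤ (1 + ‖x‖) ^ (q + 2) := pow_le_pow_right₀ hx1 (by omega)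
  set Y := (1 + ‖x‖) ^ (q + 2) with hY
  have hY0 : 0 ≤ Y := by positivity
  have s1 : K * (1 + ‖x‖) ^ q * n * β ≤ K * Y * n * β := by gcongr
  have s3 : (K * (1 + ‖x‖) ^ q * n) * (2 * β * ‖x‖) ≤ 2 * K * Y * n * β := by
    calc (K * (1 + ‖x‖) ^ q * n) * (2 * β * ‖x‖) = 2 * K * ((1 + ‖x‖) ^ q * ‖x‖) * n * β := by ring
      _ ≤ _ := by gcongr
  have s2 : K * β * (1 + ‖x‖) * (2 * n * ‖x‖) + (K * (2 * n * ‖x‖)) * (2 * β * ‖x‖)
      + K * (4 * n * β * ‖x‖) ≤ 10 * K * (1 + ‖x‖) ^ 2 * n * β := by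
    have : 10 * K * (1 + ‖x‖) ^ 2 * n * β - (K * β * (1 + ‖x‖) * (2 * n * ‖x‖)
      + (K * (2 * n * ‖x‖)) * (2 * β * ‖x‖) + K * (4 * n * β * ‖x‖))
      = K * n * β * (10 + 14 * ‖x‖ + 4 * ‖x‖ ^ 2) := by ring
    have : 0 ≤ K * n * β * (10 + 14 * ‖x‖ + 4 * ‖x‖ ^ 2) := by positivity
    linarith
  have s4 : 10 * K * (1 + ‖x‖) ^ 2 * n * β ≤ 10 * K * Y * n * β := by gcongr
  linarith

lemma cV_dsm (p : P × M') (hp : ‖p‖ ≤ r) (b : P × M') : ContDiff ℝ 1 (cV' V V' M' p b) := by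
  have hp1 := (norm_fst_le' p).trans hp
  have h1 : ContDiff ℝ 1 fun x => V' p.1 b.1 (cay (p.2 : E →L[ℝ] E) x) :=
    ((hP.dsm p.1 hp1 b.1).of_le (by norm_num)).comp (cay (p.2 : E →L[ℝ] E)).contDiff
  exact h1.add (contDiff_inner_grad (hP.tube p.1 hp1) (cay (p.2 : E →L[ℝ] E))
    (dcay (p.2 : E →L[ℝ] E) b.2))

lemma cV_db0 (p : P × M') (hp : ‖p‖ ≤ r) (b : P × M') (x : E) :
    |cV' V V' M' p b x| ≤ 3 * K * (1 + ‖x‖) * ‖b‖ := by
  have hK := hP.Knn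
  have hx0 := norm_nonneg x
  have hp1 := (norm_fst_le' p).trans hp
  have m1 : ‖b.1‖ ≤ ‖b‖ := norm_fst_le b
  have m2 : ‖(b.2 : E →L[ℝ] E)‖ ≤ ‖b‖ := norm_snd_le b
  have hb0 := norm_nonneg b
  have a1 : |V' p.1 b.1 (cay (p.2 : E →L[ℝ] E) x)| ≤ K * (1 + ‖x‖) * ‖b‖ := by
    have := hP.db0 p.1 hp1 b.1 (cay (p.2 : E →L[ℝ] E) x)
    rw [norm_cay (hM' p.2.2)] at this
    exact this.trans (by gcongr)
  have a2 : |⟪grad (V p.1) (cay (p.2 : E →L[ℝ] E) x), dcay (p.2 : E →L[ℝ] E) b.2 x⟫|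
      ≤ K * (2 * ‖b‖ * ‖x‖) :=
    (abs_real_inner_le_norm _ _).trans (mul_le_mul ((hP.tube p.1 hp1).b1 _)
      ((norm_dcay_le (hM' p.2.2) _ x).trans (by gcongr)) (norm_nonneg _) hK)
  rw [cV'_apply]
  refine (abs_add_le _ _).trans ?_
  have : K * (2 * ‖b‖ * ‖x‖) ≤ 2 * K * (1 + ‖x‖) * ‖b‖ := by
    have : 0 ≤ K * ‖b‖ := by positivity
    nlinarith
  linarith

lemma cV_db1 (p : P × M') (hp : ‖p‖ ≤ r) (b : P × M') (x : E) :
    ‖grad (cV' V V' M' p b) x‖ ≤ 3 * K * (1 + ‖x‖) * ‖b‖ := by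
  have hK := hP.Knn
  have hx0 := norm_nonneg x
  have hp1 := (norm_fst_le' p).trans hp
  have ht := hP.tube p.1 hp1
  have m1 : ‖b.1‖ ≤ ‖b‖ := norm_fst_le b
  have m2 : ‖(b.2 : E →L[ℝ] E)‖ ≤ ‖b‖ := norm_snd_le b
  have hb0 := norm_nonneg b
  obtain ⟨Q, hQ⟩ := exists_cayE (hM' p.2.2)
  have hd : ContDiff ℝ 1 (V' p.1 b.1) := (hP.dsm p.1 hp1 b.1).of_le (by norm_num)
  have e1 : (fun x => V' p.1 b.1 (cay (p.2 : E →L[ℝ] E) x)) = fun x => V' p.1 b.1 (Q x) := by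
    ext y; rw [hQ]
  have h1 : ContDiff ℝ 1 fun x => V' p.1 b.1 (cay (p.2 : E →L[ℝ] E) x) :=
    hd.comp (cay (p.2 : E →L[ℝ] E)).contDiff
  have h2 := contDiff_inner_grad ht (cay (p.2 : E →L[ℝ] E)) (dcay (p.2 : E →L[ℝ] E) b.2)
  have e : cV' V V' M' p b = fun x => V' p.1 b.1 (cay (p.2 : E →L[ℝ] E) x)
      + ⟪grad (V p.1) (cay (p.2 : E →L[ℝ] E) x), dcay (p.2 : E →L[ℝ] E) b.2 x⟫ := rfl
  rw [e, grad_add (h1.differentiable (by norm_num) x) (h2.differentiable (by norm_num) x)]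
  refine (norm_add_le _ _).trans ?_
  have a1 : ‖grad (fun x => V' p.1 b.1 (cay (p.2 : E →L[ℝ] E) x)) x‖ ≤ K * (1 + ‖x‖) * ‖b‖ := by
    rw [e1, norm_grad_comp_isometry hd]
    have := hP.db1 p.1 hp1 b.1 (Q x)
    rw [LinearIsometryEquiv.norm_map] at this
    exact this.trans (by gcongr)
  have a2 := norm_grad_inner_grad_le ht (Q := cay (p.2 : E →L[ℝ] E))
    (B := dcay (p.2 : E →L[ℝ] E) b.2) (β := 2 * ‖b‖) (norm_cay (hM' p.2.2)) (by positivity)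
    (fun y => (norm_dcay_le (hM' p.2.2) _ y).trans (by gcongr)) x
  have : K * (2 * ‖b‖) * (1 + ‖x‖) = 2 * K * (1 + ‖x‖) * ‖b‖ := by ring
  linarith

/-- joint continuity of the Jacobi operator -/
lemma cV_jac_cont (hr : ∀ a, ContDiff ℝ 2 (V a)) {ζ : E → ℝ} (hζ : ContDiff ℝ 2 ζ) :
    Continuous fun z : (P × M') × E => jac (cV V M' z.1) ζ z.2 := by
  have := FiniteDimensional.complete ℝ E
  have hc : Continuous fun z : (P × M') × E => cay (z.1.2 : E →L[ℝ] E) :=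
    (continuous_cay M' hM').comp (continuous_snd.comp continuous_fst)
  have hcx : Continuous fun z : (P × M') × E => cay (z.1.2 : E →L[ℝ] E) z.2 :=
    hc.clm_apply continuous_snd
  have hpair : Continuous fun z : (P × M') × E => ((z.1.1, cay (z.1.2 : E →L[ℝ] E) z.2) : P × E) :=
    (continuous_fst.comp continuous_fst).prodMk hcx
  have hg : Continuous fun z : (P × M') × E => grad (cV V M' z.1) z.2 := by
    have e : (fun z : (P × M') × E => grad (cV V M' z.1) z.2)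
        = fun z => ContinuousLinearMap.adjoint (cay (z.1.2 : E →L[ℝ] E))
          (grad (V z.1.1) (cay (z.1.2 : E →L[ℝ] E) z.2)) := by
      ext1 z
      exact grad_comp_clm ((hr _).of_le (by norm_num)) _ _
    rw [e]
    exact ((ContinuousLinearMap.adjoint (𝕜 := ℝ) (E := E) (F := E)).continuous.comp hc).clm_apply
      (hP.gcont.comp hpair)
  have hq : Continuous fun z : (P × M') × E =>
      tr ((fderiv ℝ (grad (cV V M' z.1)) z.2).comp (fderiv ℝ (grad (cV V M' z.1)) z.2)) := by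
    have e : (fun z : (P × M') × E =>
        tr ((fderiv ℝ (grad (cV V M' z.1)) z.2).comp (fderiv ℝ (grad (cV V M' z.1)) z.2)))
        = fun z => tr ((fderiv ℝ (grad (V z.1.1)) (cay (z.1.2 : E →L[ℝ] E) z.2)).comp
          (fderiv ℝ (grad (V z.1.1)) (cay (z.1.2 : E →L[ℝ] E) z.2))) := by
      ext1 z
      obtain ⟨Q, hQ⟩ := exists_cayE (hM' z.1.2.2)
      have e1 : cV V M' z.1 = fun y => V z.1.1 (Q y) := by ext y; unfold cV; rw [hQ]
      rw [e1, tr_sq_comp_isometry (hr _), hQ]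
    rw [e]
    exact hP.qcont.comp hpair
  have h1 : Continuous fun z : (P × M') × E => fderiv ℝ (grad ζ) z.2 :=
    ((contDiff_grad_one hζ).continuous_fderiv (by norm_num)).comp continuous_snd
  have h4 : Continuous fun z : (P × M') × E => grad ζ z.2 :=
    (contDiff_grad_one hζ).continuous.comp continuous_snd
  have h5 : Continuous fun z : (P × M') × E => ζ z.2 := hζ.continuous.comp continuous_snd
  have h6 : Continuous fun z : (P × M') × E => tr (fderiv ℝ (grad ζ) z.2) :=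
    (trL E).continuous.comp h1
  unfold jac
  exact ((h6.sub ((h1.clm_apply hg).inner hg)).sub
    (continuous_const.mul (continuous_snd.inner h4))).add ((hq.add continuous_const).mul h5)

lemma cV_jacc (hr : ∀ a, ContDiff ℝ 2 (V a)) {ζ : E → ℝ} (hζ : ContDiff ℝ (⊤ : ℕ∞) ζ)
    (hζc : HasCompactSupport ζ) {ε : ℝ} (hε : 0 < ε) :
    ∃ η > 0, ∀ p : P × M', ‖p‖ ≤ η → ∀ x, |jac (cV V M' p) ζ x - jac (cV V M' 0) ζ x| ≤ ε := by
  have hζ2 : ContDiff ℝ 2 ζ := by exact_mod_cast contDiff_infty.1 hζ 2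
  refine unif_of_cont (cV_jac_cont hP hM' hr hζ2) hζc.isCompact (fun p x hx => ?_) hε
  have h2 : ζ =ᶠ[𝓝 x] fun _ => 0 := notMem_tsupport_iff_eventuallyEq.1 hx
  have h3 : ∀ W : E → ℝ, jac W ζ x = 0 := by
    intro W
    rw [jac_congr (EventuallyEq.refl (𝓝 x) W) h2]
    have e1 : grad (fun _ : E => (0 : ℝ)) = fun _ => 0 := by ext1 y; exact grad_zero_fun y
    unfold jac
    rw [e1, fderiv_fun_const]
    have : tr (0 : E →L[ℝ] E) = 0 := (trL E).map_zero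
    simp [this]
  simp only
  rw [h3, h3]

end prod

end Vale.Agent.P218.H333
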