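import Vale.Agent.P218.H333.CayProd2

/-! A family of tube functions together with all rotations: the drift and the instance. -/

open MeasureTheory Set Filter Topology Metric
open scoped ENNReal NNReal RealInnerProductSpace

set_option linter.unusedSectionVars false
set_option linter.unusedVariables false

namespace Vale.Agent.P218.H333

open Vale.Agent.P214 (IntegralVarifold proj divAlong IsTestField)
open Vale.Agent.P218.H313

variable {E : Type*} [NormedAddCommGroup E] [InnerProductSpace ℝ E] [FiniteDimensional ℝ E]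
  [MeasurableSpace E] [BorelSpace E]
variable {P : Type*} [NormedAddCommGroup P] [NormedSpace ℝ P]
variable {V : P → E → ℝ} {V' : P → P →ₗ[ℝ] (E → ℝ)} {r c K : ℝ} {q m : ℕ}
variable {M' : Submodule ℝ (E →L[ℝ] E)}

/-- **the drift of the family with rotations** -/
theorem exists_cV_drift (hE : Module.finrank ℝ E = m + 1) (hP : PFam V V' r c K q)
    (hM' : M' ≤ skew E) : ∃ C : ℝ, 0 ≤ C ∧ ∀ p : P × M', ‖p‖ ≤ r → ∀ b : P × M',
      ∀ (μ : Measure E) (T : E → Submodule ℝ E) (H : E → E), GSlice m μ T H →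
      |∫ x, ⟪grad (fun y => cV V M' p y * cV' V V' M' p b y) x, vel T H x⟫ * rho x ∂μ|
        ≤ C * ‖b‖ * (DD μ (cV V M' p) 1 + TG μ T (cV V M' p) 1 + dis μ T H) := by
  have hK := hP.Knn
  have hc : 0 < c := (hP.tube 0 (by simpa using hP.rpos.le)).cpos
  obtain ⟨C₁, hC₁, hdr⟩ := exists_drift (E := E) hE hc hK
  refine ⟨C₁ * K + (1 + (K ^ 2 + 1) * (1 + 1 / c ^ 2) + K) * 2, by positivity,
    fun p hp b μ T H hS => ?_⟩
  have hp1 := (norm_fst_le' p).trans hp
  have m1 : ‖b.1‖ ≤ ‖b‖ := norm_fst_le b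
  have m2 : ‖(b.2 : E →L[ℝ] E)‖ ≤ ‖b‖ := norm_snd_le b
  have hb0 := norm_nonneg b
  have ht := hP.tube p.1 hp1
  have hW : TubeD (cV V M' p) c K := ht.cay (hM' p.2.2)
  obtain ⟨Q, hQ⟩ := exists_cayE (hM' p.2.2)
  obtain ⟨A, hA, hAb, hAe⟩ := exists_frame ht (hM' p.2.2) (hM' b.2.2)
  have hd2 : ContDiff ℝ 2 (V' p.1 b.1) := hP.dsm p.1 hp1 b.1
  have eV : cV V M' p = fun y => V p.1 (Q y) := by ext y; unfold cV; rw [hQ]
  set ζ₁ : E → ℝ := fun y => V' p.1 b.1 (Q y) with hζ₁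
  set ζ₂ : E → ℝ := fun y => ⟪grad (cV V M' p) y, A y⟫ with hζ₂
  have hsum : ∀ y, cV' V V' M' p b y = ζ₁ y + ζ₂ y := by
    intro y
    rw [cV'_apply, hAe, ← hQ]
    rfl
  have c1 : ContDiff ℝ 2 ζ₁ := hd2.comp (Q.toContinuousLinearEquiv : E →L[ℝ] E).contDiff
  have c2 : PG ζ₂ := hW.pg_grad.inner' (PG.clm' A)
  have bK : 0 ≤ K * ‖b‖ := by positivity
  have z0 : ∀ x, |ζ₁ x| ≤ K * ‖b‖ * (1 + ‖x‖) := by
    intro x
    have := hP.db0 p.1 hp1 b.1 (Q x)
    rw [LinearIsometryEquiv.norm_map] at this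
    refine this.trans ?_
    calc K * (1 + ‖x‖) * ‖b.1‖ ≤ K * (1 + ‖x‖) * ‖b‖ := by gcongr
      _ = _ := by ring
  have z1 : ∀ x, ‖grad ζ₁ x‖ ≤ K * ‖b‖ * (1 + ‖x‖) := by
    intro x
    rw [hζ₁, norm_grad_comp_isometry (hd2.of_le (by norm_num))]
    have := hP.db1 p.1 hp1 b.1 (Q x)
    rw [LinearIsometryEquiv.norm_map] at this
    refine this.trans ?_
    calc K * (1 + ‖x‖) * ‖b.1‖ ≤ K * (1 + ‖x‖) * ‖b‖ := by gcongr
      _ = _ := by ring
  have z2 : ∀ x, ‖fderiv ℝ (grad ζ₁) x‖ ≤ K * ‖b‖ * (1 + ‖x‖) ^ 2 := by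
    intro x
    refine (norm_hess_comp_isometry hd2 Q x).trans ?_
    have := hP.db2 p.1 hp1 b.1 (Q x)
    rw [LinearIsometryEquiv.norm_map] at this
    refine this.trans ?_
    calc K * (1 + ‖x‖) ^ 2 * ‖b.1‖ ≤ K * (1 + ‖x‖) ^ 2 * ‖b‖ := by gcongr
      _ = _ := by ring
  have zj : ∀ x, |jac (cV V M' p) ζ₁ x| ≤ K * ‖b‖ * (1 + ‖x‖) ^ 2 * |cV V M' p x| := by
    intro x
    rw [eV, jac_comp_isometry ht.smooth hd2]
    have := hP.jacb p.1 hp1 b.1 (Q x)
    rw [LinearIsometryEquiv.norm_map] at this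
    refine this.trans ?_
    calc K * (1 + ‖x‖) ^ 2 * ‖b.1‖ * |V p.1 (Q x)| ≤ K * (1 + ‖x‖) ^ 2 * ‖b‖ * |V p.1 (Q x)| := by
          gcongr
      _ = _ := by ring
  have k1 := hdr (cV V M' p) hW ζ₁ (K * ‖b‖) c1 bK z0 z1 z2 zj μ T H hS
  have k2 := drift_est hE hW hA (β := 2 * ‖b‖) (by positivity)
    (fun x => (hAb x).trans (by gcongr)) hS
  -- splitting
  have pg1 : PG ζ₁ := ⟨c1.of_le (by norm_num), ⟨K * ‖b‖, 1, bK, fun x => by
      rw [pow_one]; exact z0 x⟩, ⟨K * ‖b‖, 1, bK, fun x => by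
      rw [pow_one, ← norm_grad]; exact z1 x⟩⟩
  have hpg1 : PG (fun y => cV V M' p y * ζ₁ y) := hW.pg.mul pg1
  have hpg2 : PG (fun y => cV V M' p y * ζ₂ y) := hW.pg.mul c2
  have i1 : Integrable (fun x => ⟪grad (fun y => cV V M' p y * ζ₁ y) x, vel T H x⟫ * rho x) μ :=
    hS.integrable_inner_vel (continuous_grad hpg1.cd).aestronglyMeasurable
      (PB.mono hpg1.b1 fun x => by rw [norm_grad])
  have i2 : Integrable (fun x => ⟪grad (fun y => cV V M' p y * ζ₂ y) x, vel T H x⟫ * rho x) μ :=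
    hS.integrable_inner_vel (continuous_grad hpg2.cd).aestronglyMeasurable
      (PB.mono hpg2.b1 fun x => by rw [norm_grad])
  have hfun : (fun y => cV V M' p y * cV' V V' M' p b y)
      = fun y => cV V M' p y * ζ₁ y + cV V M' p y * ζ₂ y := by
    ext y; rw [hsum, mul_add]
  have e : ∫ x, ⟪grad (fun y => cV V M' p y * cV' V V' M' p b y) x, vel T H x⟫ * rho x ∂μ
      = ∫ x, ⟪grad (fun y => cV V M' p y * ζ₁ y) x, vel T H x⟫ * rho x ∂μ
        + ∫ x, ⟪grad (fun y => cV V M' p y * ζ₂ y) x, vel T H x⟫ * rho x ∂μ := by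
    rw [← integral_add i1 i2, hfun]
    refine integral_congr_ae (Eventually.of_forall fun x => ?_)
    simp only
    rw [grad_add (hpg1.diff x) (hpg2.diff x), inner_add_left, add_mul]
  rw [e]
  refine (abs_add_le _ _).trans ((add_le_add k1 k2).trans (le_of_eq ?_))
  ring

/-- **The family together with all rotations is a `Fam`.** -/
theorem PFam.exists_fam (hE : Module.finrank ℝ E = m + 1) (hP : PFam V V' r c K q)
    (hr : ∀ a, ContDiff ℝ 2 (V a)) (hM' : M' ≤ skew E) :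
    ∃ K₂ : ℝ, Fam m (cV V M') (cV' V V' M') r c K₂ (q + 2) := by
  obtain ⟨C, hC, hdrift⟩ := exists_cV_drift hE hP hM'
  have hK := hP.Knn
  refine ⟨13 * K + C, ?_⟩
  exact
    { rpos := hP.rpos
      Knn := by positivity
      tube := fun p hp => ((hP.tube p.1 ((norm_fst_le' p).trans hp)).cay (hM' p.2.2)).mono
        (by linarith)
      lip := fun p p' hp hp' x => (cV_lip hP hM' p p' hp hp' x).trans (by gcongr; linarith)
      lipg := fun p p' hp hp' x => (cV_lipg hP hM' p p' hp hp' x).trans (by gcongr; linarith)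
      taylor := fun p p' hp hp' x => (cV_taylor hP hM' p p' hp hp' x).trans (by gcongr; linarith)
      dlip := fun p p' hp hp' b x => (cV_dlip hP hM' p p' hp hp' b x).trans (by gcongr; linarith)
      dsm := fun p hp b => cV_dsm hP hM' p hp b
      db0 := fun p hp b x => (cV_db0 hP hM' p hp b x).trans (by gcongr; linarith)
      db1 := fun p hp b x => (cV_db1 hP hM' p hp b x).trans (by gcongr; linarith)
      jacc := fun ζ hζ hζc ε hε => by
        obtain ⟨η, hη, h⟩ := cV_jacc hP hM' hr hζ hζc hε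
        exact ⟨η, hη, fun p _ hp x => h p hp x⟩
      drift := fun p hp b μ T H hS => (hdrift p hp b μ T H hS).trans (by
        have h0 : 0 ≤ DD μ (cV V M' p) 1 + TG μ T (cV V M' p) 1 + dis μ T H := by
          have := DD_nonneg (μ := μ) (W := cV V M' p) 1
          have := TG_nonneg (μ := μ) (T := T) (W := cV V M' p) 1
          have := dis_nonneg (μ := μ) (T := T) (H := H)
          linarith
        gcongr; linarith) }

end Vale.Agent.P218.H333
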