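import Vale.Agent.P218.H333.IntDefs

/-! Partial derivatives of a function on a product `P × E`. -/

open MeasureTheory Set Filter Topology Metric
open scoped ENNReal NNReal RealInnerProductSpace

set_option linter.unusedSectionVars false

namespace Vale.Agent.P218.H333

variable {E : Type*} [NormedAddCommGroup E] [NormedSpace ℝ E]
variable {P : Type*} [NormedAddCommGroup P] [NormedSpace ℝ P]
variable {F : Type*} [NormedAddCommGroup F] [NormedSpace ℝ F]

/-- the derivative in the second variable -/
noncomputable def secX (H : P × E → F) (p : P × E) : E →L[ℝ] F :=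
  fderiv ℝ (fun x => H (p.1, x)) p.2

/-- the derivative in the first variable, in the direction `b` -/
noncomputable def secP (b : P) (H : P × E → F) (p : P × E) : F :=
  fderiv ℝ (fun a => H (a, p.2)) p.1 b

lemma secX_eq {H : P × E → F} {p : P × E} (hH : DifferentiableAt ℝ H p) :
    secX H p = (fderiv ℝ H p).comp (ContinuousLinearMap.inr ℝ P E) := by
  have h1 : HasFDerivAt (fun x : E => (p.1, x)) (ContinuousLinearMap.inr ℝ P E) p.2 :=
    hasFDerivAt_prodMk_right p.1 p.2
  exact (HasFDerivAt.comp (g := H) p.2 (by simpa using hH.hasFDerivAt) h1).fderiv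

lemma secP_eq {H : P × E → F} {p : P × E} (hH : DifferentiableAt ℝ H p) (b : P) :
    secP b H p = fderiv ℝ H p (b, 0) := by
  have h1 : HasFDerivAt (fun a : P => (a, p.2)) (ContinuousLinearMap.inl ℝ P E) p.1 :=
    hasFDerivAt_prodMk_left p.1 p.2
  have h2 : fderiv ℝ (fun a => H (a, p.2)) p.1
      = (fderiv ℝ H p).comp (ContinuousLinearMap.inl ℝ P E) :=
    (HasFDerivAt.comp (g := H) p.1 (by simpa using hH.hasFDerivAt) h1).fderiv
  unfold secP
  rw [h2]; simp

lemma cd_secX {H : P × E → F} {n k : WithTop ℕ∞} (hH : ContDiff ℝ k H) (hn : n + 1 ≤ k)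
    (hk : k ≠ 0) : ContDiff ℝ n (secX H) := by
  have e : secX H = fun p => (fderiv ℝ H p).comp (ContinuousLinearMap.inr ℝ P E) := by
    ext1 p; exact secX_eq (hH.differentiable hk p)
  rw [e]
  exact (hH.fderiv_right hn).clm_comp contDiff_const

lemma cd_secP {H : P × E → F} {n k : WithTop ℕ∞} (hH : ContDiff ℝ k H) (hn : n + 1 ≤ k)
    (hk : k ≠ 0) (b : P) : ContDiff ℝ n (secP b H) := by
  have e : secP b H = fun p => fderiv ℝ H p (b, 0) := by
    ext1 p; exact secP_eq (hH.differentiable hk p) b
  rw [e]
  exact (hH.fderiv_right hn).clm_apply contDiff_const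

/-- **mixed partial derivatives commute** -/
lemma sec_comm {H : P × E → F} (hH : ContDiff ℝ 2 H) (b : P) (p : P × E) :
    secX (secP b H) p = secP b (secX H) p := by
  have h1 : ContDiff ℝ 1 (fderiv ℝ H) := hH.fderiv_right (by norm_num)
  have e1 : secP b H = fun p => fderiv ℝ H p (b, 0) := by
    ext1 p; exact secP_eq (hH.differentiable (by norm_num) p) b
  have e2 : secX H = fun p => (fderiv ℝ H p).comp (ContinuousLinearMap.inr ℝ P E) := by
    ext1 p; exact secX_eq (hH.differentiable (by norm_num) p)
  have h2 : HasFDerivAt (fderiv ℝ H) (fderiv ℝ (fderiv ℝ H) p) p :=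
    (h1.differentiable (by norm_num) p).hasFDerivAt
  have h3 := h2.clm_apply (hasFDerivAt_const ((b, 0) : P × E) p)
  have h4 : HasFDerivAt (fun p => (fderiv ℝ H p).comp (ContinuousLinearMap.inr ℝ P E)) _ p :=
    h2.clm_comp (hasFDerivAt_const (ContinuousLinearMap.inr ℝ P E) p)
  have hs : IsSymmSndFDerivAt ℝ H p := by
    apply ContDiffAt.isSymmSndFDerivAt hH.contDiffAt
    simp
  rw [secX_eq (by rw [e1]; exact h3.differentiableAt),
    secP_eq (by rw [e2]; exact h4.differentiableAt), e1, e2, h3.fderiv, h4.fderiv]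
  ext v
  simp [hs.eq (b, 0) (0, v)]

/-- the derivative along a line in the parameter -/
lemma hasDerivAt_line {H : P × E → F} (hH : ContDiff ℝ 1 H) (a b : P) (x : E) (t : ℝ) :
    HasDerivAt (fun t : ℝ => H (a + t • b, x)) (secP b H (a + t • b, x)) t := by
  have h1 : HasFDerivAt (fun a' : P => H (a', x)) (fderiv ℝ (fun a' : P => H (a', x)) (a + t • b))
      (a + t • b) := by
    have : ContDiff ℝ 1 fun a' : P => H (a', x) := hH.comp (contDiff_id.prodMk contDiff_const)
    exact (this.differentiable (by norm_num) _).hasFDerivAt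
  have h2 : HasDerivAt (fun t : ℝ => a + t • b) b t := by
    have := ((hasDerivAt_id t).smul_const b).const_add a
    simpa using this
  exact h1.comp_hasDerivAt t h2

end Vale.Agent.P218.H333
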