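import Vale.Agent.P218.H333.IntDefs

/-! The drift estimate for an almost Jacobi field of linear growth. -/

open MeasureTheory Set Filter Topology Metric
open scoped ENNReal NNReal RealInnerProductSpace

set_option linter.unusedSectionVars false
set_option linter.unusedVariables false

namespace Vale.Agent.P218.H333

open Vale.Agent.P214 (IntegralVarifold proj divAlong IsTestField)
open Vale.Agent.P218.H313

variable {E : Type*} [NormedAddCommGroup E] [InnerProductSpace ℝ E] [FiniteDimensional ℝ E]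
variable {m : ℕ} {c K : ℝ}

/-- the pointwise error in the Jacobi equation, homogeneous form -/
lemma exists_jac_pt' (hE : Module.finrank ℝ E = m + 1) (hc : 0 < c) (hK : 0 ≤ K) :
    ∃ C : ℝ, 0 ≤ C ∧ ∀ W : E → ℝ, TubeD W c K → ∀ (z B : ℝ) (D : E →L[ℝ] E), 0 ≤ B → |z| ≤ B →
      ‖D‖ ≤ B → ∀ (x : E) (T : Submodule ℝ E), Module.finrank ℝ T = m →
      |W x * (tr D - ⟪D (grad W x), grad W x⟫ - tr ((proj T).comp D))
        + z * (tr ((proj T).comp (fderiv ℝ (grad W) x)) - 1 / 2 * ⟪x, grad W x⟫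
          + (tr ((fderiv ℝ (grad W) x).comp (fderiv ℝ (grad W) x)) + 1 / 2) * W x)|
        ≤ C * B * (W x ^ 2 + ‖proj T (grad W x)‖ ^ 2) := by
  set n : ℝ := (Module.finrank ℝ E : ℝ) with hn
  have hn0 : 0 ≤ n := by rw [hn]; positivity
  set C₁ := 2 + K with hC₁
  set C₂ := (2 * n + K ^ 2) / c + ((n + 1) * K + (n * K ^ 2 + 1) * K) / c ^ 2 with hC₂
  have hC₁0 : 0 ≤ C₁ := by positivity
  have hC₂0 : 0 ≤ C₂ := by positivity
  refine ⟨C₁ + C₂, by positivity, fun W hW z B D hB hz hDB x T hT => ?_⟩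
  set g := grad W x with hg
  set q := tr ((fderiv ℝ (grad W) x).comp (fderiv ℝ (grad W) x)) with hq
  set a := tr ((proj T).comp (fderiv ℝ (grad W) x)) - 1 / 2 * ⟪x, g⟫ with ha
  set P := ‖proj T g‖ with hP
  have hP0 : 0 ≤ P := norm_nonneg _
  have hw2 : W x ^ 2 = |W x| ^ 2 := (sq_abs _).symm
  have hwa := abs_nonneg (W x)
  have hsum : 0 ≤ W x ^ 2 + P ^ 2 := by positivity
  have tri : |W x * (tr D - ⟪D g, g⟫ - tr ((proj T).comp D)) + z * (a + (q + 1 / 2) * W x)|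
      ≤ |W x| * |tr D - ⟪D g, g⟫ - tr ((proj T).comp D)| + B * |a + (q + 1 / 2) * W x| := by
    refine (abs_add_le _ _).trans ?_
    rw [abs_mul, abs_mul]
    gcongr
  refine tri.trans ?_
  by_cases hx : |W x| < c
  · have h1 := hW.hess_est hE x T hT hx D
    have h2 := hW.trace_est hE x T hT hx
    have h3 : |tr D - ⟪D g, g⟫ - tr ((proj T).comp D)| ≤ 4 * B * P := by
      rw [abs_sub_comm]
      refine h1.trans ?_
      gcongr
    have h4 : |a + (q + 1 / 2) * W x| ≤ K * (W x ^ 2 + P ^ 2) := h2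
    calc |W x| * |tr D - ⟪D g, g⟫ - tr ((proj T).comp D)| + B * |a + (q + 1 / 2) * W x|
        ≤ |W x| * (4 * B * P) + B * (K * (W x ^ 2 + P ^ 2)) := by gcongr
      _ ≤ C₁ * B * (W x ^ 2 + P ^ 2) := by
          rw [hC₁, hw2]
          nlinarith [mul_nonneg hB (sq_nonneg (|W x| - P))]
      _ ≤ (C₁ + C₂) * B * (W x ^ 2 + P ^ 2) := by gcongr; linarith
  · push Not at hx
    have h2 : |tr D - ⟪D g, g⟫ - tr ((proj T).comp D)| ≤ (2 * n + K ^ 2) * B := by
      have e1 := abs_tr_le D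
      have e2 := abs_tr_proj_comp_le T D
      have e3 : |⟪D g, g⟫| ≤ K ^ 2 * B := by
        refine (abs_real_inner_le_norm _ _).trans ?_
        have e4 := D.le_opNorm g
        have e5 : ‖g‖ ≤ K := hW.b1 x
        calc ‖D g‖ * ‖g‖ ≤ (‖D‖ * ‖g‖) * ‖g‖ := by gcongr
          _ ≤ (B * K) * K := by gcongr
          _ = K ^ 2 * B := by ring
      have e6 : |tr D| ≤ n * B := e1.trans (by gcongr)
      have e7 : |tr ((proj T).comp D)| ≤ n * B := e2.trans (by gcongr)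
      have e8 := abs_sub (tr D - ⟪D g, g⟫) (tr ((proj T).comp D))
      have e9 := abs_sub (tr D) ⟪D g, g⟫
      nlinarith
    have h3 : |a + (q + 1 / 2) * W x| ≤ (n + 1) * K + (n * K ^ 2 + 1) * K := by
      have e1 := abs_tr_proj_comp_le T (fderiv ℝ (grad W) x)
      have e2 : (n : ℝ) * ‖fderiv ℝ (grad W) x‖ ≤ n * K := by
        have := hW.b2 x
        gcongr
      have e3 := hW.bx x
      have e4 : |a| ≤ |tr ((proj T).comp (fderiv ℝ (grad W) x))| + |1 / 2 * ⟪x, g⟫| := abs_sub _ _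
      rw [abs_mul, abs_of_pos (by norm_num : (0 : ℝ) < 1 / 2)] at e4
      have e5 : |q| ≤ n * K ^ 2 := hW.q_le x
      have e6 : |(q + 1 / 2) * W x| ≤ (n * K ^ 2 + 1) * K := by
        rw [abs_mul]
        have e7 : |q + 1 / 2| ≤ n * K ^ 2 + 1 := by
          refine (abs_add_le _ _).trans ?_
          rw [abs_of_pos (by norm_num : (0 : ℝ) < 1 / 2)]
          linarith
        have e8 := hW.b0 x
        gcongr
      have e9 := abs_add_le a ((q + 1 / 2) * W x)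
      nlinarith
    have h5 := aux_far hc hx hB (by positivity : 0 ≤ (2 * n + K ^ 2) * B)
      (by positivity : 0 ≤ (n + 1) * K + (n * K ^ 2 + 1) * K) h2 h3
    have e0 : (2 * n + K ^ 2) * B / c + B * ((n + 1) * K + (n * K ^ 2 + 1) * K) / c ^ 2
        = C₂ * B := by rw [hC₂]; ring
    rw [e0] at h5
    have e1 : C₂ * B * |W x| ^ 2 ≤ C₂ * B * (W x ^ 2 + P ^ 2) :=
      mul_le_mul_of_nonneg_left (by rw [hw2]; have : 0 ≤ P ^ 2 := sq_nonneg _
                                    linarith) (by positivity)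
    have e2 : 0 ≤ C₁ * B * (W x ^ 2 + P ^ 2) := by positivity
    linarith

lemma drift_arith {B C₁ w X v p2 i j R : ℝ} (hB : 0 ≤ B) (hC₁ : 0 ≤ C₁) (hX : 0 ≤ X)
    (hv0 : 0 ≤ v) (hp0 : 0 ≤ p2) (hi : |i| ≤ |w| * (B * (1 + X) * v))
    (hj : |j| ≤ |w| * (B * (1 + X) ^ 2 * |w|))
    (hR : |R| ≤ C₁ * (B * (1 + X) ^ 2) * (w ^ 2 + p2)) :
    |2 * i + j - R| ≤ (4 + 2 * C₁) * B * (w ^ 2 * (1 + X ^ 2) + (1 + X ^ 2) * p2 + v ^ 2) := by
  have hwt2 : (1 + X) ^ 2 ≤ 2 * (1 + X ^ 2) := by nlinarith [sq_nonneg (X - 1)]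
  have hw2 : w ^ 2 = |w| ^ 2 := (sq_abs _).symm
  have b1 : |i| ≤ B * (w ^ 2 * (1 + X ^ 2) + v ^ 2) := by
    have a2 : |w| * (1 + X) * v ≤ w ^ 2 * (1 + X ^ 2) + v ^ 2 := by
      have h1 := sq_nonneg (|w| * (1 + X) - v)
      have h4 : |w| ^ 2 * (1 + X) ^ 2 ≤ |w| ^ 2 * (2 * (1 + X ^ 2)) :=
        mul_le_mul_of_nonneg_left hwt2 (sq_nonneg _)
      rw [hw2]
      nlinarith
    calc |i| ≤ B * (|w| * (1 + X) * v) := hi.trans (le_of_eq (by ring))
      _ ≤ _ := by gcongr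
  have b2 : |j| ≤ 2 * B * (w ^ 2 * (1 + X ^ 2)) := by
    calc |j| ≤ B * |w| ^ 2 * (1 + X) ^ 2 := hj.trans (le_of_eq (by ring))
      _ ≤ B * |w| ^ 2 * (2 * (1 + X ^ 2)) := by gcongr
      _ = _ := by rw [hw2]; ring
  have b3 : |R| ≤ 2 * C₁ * B * (w ^ 2 * (1 + X ^ 2) + (1 + X ^ 2) * p2) := by
    calc |R| ≤ (C₁ * B * (w ^ 2 + p2)) * (1 + X) ^ 2 := hR.trans (le_of_eq (by ring))
      _ ≤ (C₁ * B * (w ^ 2 + p2)) * (2 * (1 + X ^ 2)) := by gcongr
      _ = _ := by ring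
  have t1 := abs_sub (2 * i + j) R
  have t2 := abs_add_le (2 * i) j
  rw [abs_mul, abs_two] at t2
  have u1 : 0 ≤ B * ((1 + X ^ 2) * p2) := by positivity
  have u2 : 0 ≤ B * v ^ 2 := by positivity
  have u3 : 0 ≤ C₁ * B * v ^ 2 := by positivity
  nlinarith

variable [MeasurableSpace E] [BorelSpace E]

/-- **the drift estimate for an almost Jacobi field** -/
theorem exists_drift (hE : Module.finrank ℝ E = m + 1) (hc : 0 < c) (hK : 0 ≤ K) :
    ∃ C : ℝ, 0 ≤ C ∧ ∀ W : E → ℝ, TubeD W c K → ∀ (ζ : E → ℝ) (B : ℝ), ContDiff ℝ 2 ζ → 0 ≤ B →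
      (∀ x, |ζ x| ≤ B * (1 + ‖x‖)) → (∀ x, ‖grad ζ x‖ ≤ B * (1 + ‖x‖)) →
      (∀ x, ‖fderiv ℝ (grad ζ) x‖ ≤ B * (1 + ‖x‖) ^ 2) →
      (∀ x, |jac W ζ x| ≤ B * (1 + ‖x‖) ^ 2 * |W x|) →
      ∀ (μ : Measure E) (T : E → Submodule ℝ E) (H : E → E), GSlice m μ T H →
      |∫ x, ⟪grad (fun y => W y * ζ y) x, vel T H x⟫ * rho x ∂μ|
        ≤ C * B * (DD μ W 1 + TG μ T W 1 + dis μ T H) := by
  obtain ⟨C₁, hC₁, hpt⟩ := exists_jac_pt' (E := E) hE hc hK
  refine ⟨4 + 2 * C₁, by positivity, fun W hW ζ B hζ hB hζ0 hζ1 hζ2 hζj μ T H hS => ?_⟩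
  have hDD := DD_nonneg (μ := μ) (W := W) 1
  have hTG := TG_nonneg (μ := μ) (T := T) (W := W) 1
  have hdis := dis_nonneg (μ := μ) (T := T) (H := H)
  have hζpg : PG ζ :=
    ⟨hζ.of_le (by norm_num), ⟨B, 1, hB, fun x => by rw [pow_one]; exact hζ0 x⟩,
      ⟨B, 1, hB, fun x => by rw [pow_one, ← norm_grad]; exact hζ1 x⟩⟩
  have hgζpg : PG (grad ζ) :=
    ⟨contDiff_grad_one hζ, ⟨B, 1, hB, fun x => by rw [pow_one]; exact hζ1 x⟩, ⟨B, 2, hB, hζ2⟩⟩
  have hXpg : PG (fun x => ζ x • grad W x) := hζpg.smul hW.pg_grad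
  have hYpg : PG (fun x => W x • grad ζ x) := hW.pg.smul hgζpg
  have wX := hS.wfv hXpg.cd hXpg.b0 hXpg.b1
  have wY := hS.wfv hYpg.cd hYpg.b0 hYpg.b1
  have dX := hS.integrable_div hXpg.cd hXpg.b1
  have dY := hS.integrable_div hYpg.cd hYpg.b1
  have nX := hS.integrable_PB (continuous_id.inner hXpg.cont).aestronglyMeasurable
    (PB.id'.inner' hXpg.b0)
  have nY := hS.integrable_PB (continuous_id.inner hYpg.cont).aestronglyMeasurable
    (PB.id'.inner' hYpg.b0)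
  have vX := hS.integrable_inner_vel hXpg.cont.aestronglyMeasurable hXpg.b0
  have vY := hS.integrable_inner_vel hYpg.cont.aestronglyMeasurable hYpg.b0
  -- the identity
  set R : E → ℝ := fun x => W x * (tr (fderiv ℝ (grad ζ) x)
        - ⟪fderiv ℝ (grad ζ) x (grad W x), grad W x⟫
        - tr ((proj (T x)).comp (fderiv ℝ (grad ζ) x)))
      + ζ x * (tr ((proj (T x)).comp (fderiv ℝ (grad W) x)) - 1 / 2 * ⟪x, grad W x⟫
        + (tr ((fderiv ℝ (grad W) x).comp (fderiv ℝ (grad W) x)) + 1 / 2) * W x) with hR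
  have hpw : ∀ x, W x * jac W ζ x * rho x
      = ((divAlong (T x) (fun x => W x • grad ζ x) x - 1 / 2 * ⟪x, W x • grad ζ x⟫) * rho x
        - (divAlong (T x) (fun x => ζ x • grad W x) x - 1 / 2 * ⟪x, ζ x • grad W x⟫) * rho x)
        + R x * rho x := by
    intro x
    rw [divAlong_smul (T x) (hW.diff x) (hgζpg.diff x),
      divAlong_smul (T x) (hζpg.diff x) (hW.pg_grad.diff x), H552.inner_proj_left,
      real_inner_smul_right, real_inner_smul_right, divAlong_eq, divAlong_eq,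
      real_inner_comm (proj (T x) (grad ζ x)) (grad W x)]
    simp only [hR, jac]
    ring
  have iJ : Integrable (fun x => W x * jac W ζ x * rho x) μ := by
    refine hS.integrable_PB (hW.cont.mul (continuous_jac hW hζ)).aestronglyMeasurable ?_
    refine hW.pg.b0.mul ⟨B * K, 2, by positivity, fun x => ?_⟩
    rw [Real.norm_eq_abs]
    refine (hζj x).trans ?_
    have := hW.b0 x
    calc B * (1 + ‖x‖) ^ 2 * |W x| ≤ B * (1 + ‖x‖) ^ 2 * K := by gcongr
      _ = _ := by ring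
  have iX : Integrable (fun x => (divAlong (T x) (fun x => ζ x • grad W x) x
      - 1 / 2 * ⟪x, ζ x • grad W x⟫) * rho x) μ := by
    refine (dX.sub (nX.const_mul (1 / 2))).congr (Eventually.of_forall fun x => ?_)
    simp only [Pi.sub_apply, id]
    ring
  have iY : Integrable (fun x => (divAlong (T x) (fun x => W x • grad ζ x) x
      - 1 / 2 * ⟪x, W x • grad ζ x⟫) * rho x) μ := by
    refine (dY.sub (nY.const_mul (1 / 2))).congr (Eventually.of_forall fun x => ?_)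
    simp only [Pi.sub_apply, id]
    ring
  have iR : Integrable (fun x => R x * rho x) μ := by
    refine (iJ.sub (iY.sub iX)).congr (Eventually.of_forall fun x => ?_)
    simp only [Pi.sub_apply]
    rw [hpw x]
    ring
  have hid : ∫ x, W x * jac W ζ x * rho x ∂μ
      = - ∫ x, ⟪W x • grad ζ x, vel T H x⟫ * rho x ∂μ
        + ∫ x, ⟪ζ x • grad W x, vel T H x⟫ * rho x ∂μ + ∫ x, R x * rho x ∂μ := by
    have h := integral_comb iY iX iR 1 (-1) 1
    simp only [one_mul, neg_mul, ← sub_eq_add_neg] at h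
    rw [integral_congr_ae (Eventually.of_forall hpw), h, wX, wY]
    ring
  -- the drift
  have hsum : ∫ x, ⟪grad (fun y => W y * ζ y) x, vel T H x⟫ * rho x ∂μ
      = ∫ x, (2 * (⟪W x • grad ζ x, vel T H x⟫ * rho x) + 1 * (W x * jac W ζ x * rho x)
        + (-1) * (R x * rho x)) ∂μ := by
    have h := integral_comb vY iJ iR 2 1 (-1)
    have h1 := integral_comb2 vY vX 1 1
    have e : (fun x => ⟪grad (fun y => W y * ζ y) x, vel T H x⟫ * rho x)
        = fun x => 1 * (⟪W x • grad ζ x, vel T H x⟫ * rho x)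
          + 1 * (⟪ζ x • grad W x, vel T H x⟫ * rho x) := by
      ext1 x
      rw [grad_mul (hW.diff x) (hζpg.diff x), inner_add_left]
      ring
    rw [h, e, h1, hid]
    ring
  have j1 := hS.int_DD hW 1
  have j2 := hS.int_TG hW 1
  have j3 := hS.int_vel_sq
  rw [hsum, DD_eq]
  have j12 : Integrable (fun x => W x ^ 2 * wt 1 x * rho x
      + wt 1 x * ‖proj (T x) (grad W x)‖ ^ 2 * rho x) μ := j1.add j2
  have j4 : Integrable (fun x => (4 + 2 * C₁) * B * (W x ^ 2 * wt 1 x * rho x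
      + wt 1 x * ‖proj (T x) (grad W x)‖ ^ 2 * rho x + ‖vel T H x‖ ^ 2 * rho x)) μ :=
    (j12.add j3).const_mul _
  have e2 : (4 + 2 * C₁) * B * (∫ x, W x ^ 2 * wt 1 x * rho x ∂μ + TG μ T W 1 + dis μ T H)
      = ∫ x, (4 + 2 * C₁) * B * (W x ^ 2 * wt 1 x * rho x
      + wt 1 x * ‖proj (T x) (grad W x)‖ ^ 2 * rho x + ‖vel T H x‖ ^ 2 * rho x) ∂μ := by
    rw [integral_const_mul, integral_add j12 j3, integral_add j1 j2]
    rfl
  rw [e2, ← Real.norm_eq_abs]
  refine norm_integral_le_of_norm_le j4 ?_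
  filter_upwards [hS.mc.dim] with x hx1
  have hx0 := norm_nonneg x
  have b1 : |⟪W x • grad ζ x, vel T H x⟫| ≤ |W x| * (B * (1 + ‖x‖) * ‖vel T H x‖) := by
    rw [real_inner_smul_left, abs_mul]
    exact mul_le_mul_of_nonneg_left ((abs_real_inner_le_norm _ _).trans
      (mul_le_mul_of_nonneg_right (hζ1 x) (norm_nonneg _))) (abs_nonneg _)
  have b2 : |W x * jac W ζ x| ≤ |W x| * (B * (1 + ‖x‖) ^ 2 * |W x|) := by
    rw [abs_mul]
    exact mul_le_mul_of_nonneg_left (hζj x) (abs_nonneg _)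
  have b3 := hpt W hW (ζ x) (B * (1 + ‖x‖) ^ 2) (fderiv ℝ (grad ζ) x) (by positivity)
      ((hζ0 x).trans (by
        have : 1 + ‖x‖ ≤ (1 + ‖x‖) ^ 2 := by nlinarith
        gcongr)) (hζ2 x) x (T x) hx1
  have key := drift_arith hB hC₁ hx0 (norm_nonneg _) (sq_nonneg _) b1 b2 b3
  have key2 := mul_le_mul_of_nonneg_right key (rho_pos x).le
  have hwt : wt 1 x = 1 + ‖x‖ ^ 2 := by unfold wt; ring
  rw [Real.norm_eq_abs, hwt]
  have e3 : 2 * (⟪W x • grad ζ x, vel T H x⟫ * rho x) + 1 * (W x * jac W ζ x * rho x)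
        + (-1) * (R x * rho x)
      = (2 * ⟪W x • grad ζ x, vel T H x⟫ + W x * jac W ζ x - R x) * rho x := by ring
  rw [e3, abs_mul, abs_of_nonneg (rho_pos x).le]
  refine key2.trans (le_of_eq ?_)
  ring

end Vale.Agent.P218.H333
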