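import Vale.Agent.P218.H313.Main
import Vale.Agent.P218.SymmFlow

/-! The blow-up argument for heights with an extra property `Pr` that passes to weak limits. -/

open MeasureTheory Set Filter Topology Metric
open scoped ENNReal NNReal RealInnerProductSpace CompactlySupported

namespace Vale.Agent.P218.H333

open Vale.Agent.P214 (IntegralVarifold proj divAlong IsTestField)
open Vale.Agent.P218.H313

set_option linter.unusedSectionVars false
set_option linter.unusedVariables false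

variable {E : Type*} [NormedAddCommGroup E] [InnerProductSpace ℝ E] [FiniteDimensional ℝ E]
  [MeasurableSpace E] [BorelSpace E]

section blow

variable {ι : Type*} {m : ℕ} {U : Ultrafilter ι} {N : ι → Measure E}
  {T : ι → E → Submodule ℝ E} {H : ι → E → E} {κ : Measure E}

/-- `Pr` holds for the weak limits of the normalised heights -/
def LimPr (U : Ultrafilter ι) (N : ι → Measure E) (κ : Measure E) (Wi : ι → E → ℝ)
    (Pr : (E → ℝ) → Prop) : Prop :=
  ∀ u : E → ℝ, AEStronglyMeasurable u κ → Integrable (fun x => u x ^ 2 * rho x) κ →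
    (∀ f : E → ℝ, Continuous f → PB f → Integrable (fun x => f x * u x * rho x) κ ∧
      Tendsto (fun i => ∫ x, nh (N i) (Wi i) x * f x * rho x ∂(N i)) U
        (𝓝 (∫ x, f x * u x * rho x ∂κ))) → Pr u

/-- **Blow-up.** Slices `N_i` converge to the multiplicity-one shrinker `κ`, the squared distances
`D_i` to the moving shrinkers `{W_i = 0}` are large compared with the dissipation, and the heights
are asymptotically orthogonal to the kernel: impossible. -/
theorem blow_pr (hm : 0 < m) (hE : Module.finrank ℝ E = m + 1) (h : Conv U m N T H κ)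
    (hκ : ∀ x : E, ∀ c > om m, ∀ᶠ r in 𝓝[>] (0 : ℝ), (∫ y, H313.ker (r⁻¹ • (y - x)) ∂κ) / r ^ m ≤ c)
    {W : E → ℝ} {Wi : ι → E → ℝ} {c K : ℝ} (hW : TubeD W c K)
    (hWi : ∀ᶠ i in (U : Filter ι), TubeD (Wi i) c K)
    (hjac : ∀ ζ : E → ℝ, ContDiff ℝ (⊤ : ℕ∞) ζ → HasCompactSupport ζ → ∀ ε > 0,
      ∀ᶠ i in (U : Filter ι), ∀ x, |jac (Wi i) ζ x - jac W ζ x| ≤ ε)
    {V : Set (E → ℝ)} (hVc : ∀ v ∈ V, Continuous v ∧ PB v)
    (hV : ∀ v ∈ V, Tendsto (fun i => (∫ x, Wi i x * v x * rho x ∂(N i)) / √(DD (N i) (Wi i) 0))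
      U (𝓝 0))
    {Pr : (E → ℝ) → Prop} (hPr : LimPr U N κ Wi Pr)
    (hnd : ∀ u : E → ℝ, AEStronglyMeasurable u κ → Integrable (fun x => u x ^ 2 * rho x) κ →
      (∀ ζ : E → ℝ, ContDiff ℝ (⊤ : ℕ∞) ζ → HasCompactSupport ζ →
        ∫ x, u x * jac W ζ x * rho x ∂κ = 0) → Pr u → ∃ v ∈ V, u =ᵐ[κ] v)
    (hpos : ∀ᶠ i in (U : Filter ι), 0 < DD (N i) (Wi i) 0)
    (hD : Tendsto (fun i => DD (N i) (Wi i) 0) U (𝓝 0))
    (hdis : Tendsto (fun i => dis (N i) (T i) (H i) / DD (N i) (Wi i) 0) U (𝓝 0)) : False := by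
  have := h.lf
  have hc := hW.cpos
  have hK := hW.K_nonneg
  have hwc : ∀ᶠ i in (U : Filter ι), Continuous (nh (N i) (Wi i)) ∧ PB (nh (N i) (Wi i)) := by
    filter_upwards [hWi] with i hi using ⟨nh_cont hi, nh_pb hi⟩
  obtain ⟨u, hum, hu2, hu⟩ := h.exists_weak_lim (w := fun i => nh (N i) (Wi i)) hwc
    (hpos.mono fun i hi => (nh_norm hi).le)
  obtain ⟨M, hM⟩ := h.mom 0
  have hM' : ∀ᶠ i in (U : Filter ι), ∫ x, rho x ∂(N i) ≤ M := by
    filter_upwards [hM] with i hi; simpa using hi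
  -- sqrt limits
  have hsD : Tendsto (fun i => √(DD (N i) (Wi i) 0)) U (𝓝 0) := by
    have := hD.sqrt; rwa [Real.sqrt_zero] at this
  have hsdis : Tendsto (fun i => √(dis (N i) (T i) (H i) / DD (N i) (Wi i) 0)) U (𝓝 0) := by
    have := hdis.sqrt; rwa [Real.sqrt_zero] at this
  -- Claim A: the limit is a weak Jacobi field
  have claimA : ∀ ζ : E → ℝ, ContDiff ℝ (⊤ : ℕ∞) ζ → HasCompactSupport ζ →
      ∫ x, u x * jac W ζ x * rho x ∂κ = 0 := by
    intro ζ hζ hζc
    have hζ2 : ContDiff ℝ 2 ζ := hζ.of_le (by norm_cast)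
    have hjc := continuous_jac hW hζ2
    have hjs : HasCompactSupport (jac W ζ) := hasCompactSupport_jac hζc
    have hjpb : PB (jac W ζ) := PB.of_compact hjc hjs
    obtain ⟨-, hlim⟩ := hu (jac W ζ) hjc hjpb
    obtain ⟨C, hC, hest⟩ := exists_jac_est (E := E) hE hc hK hζ2 hζc
    have a2 : Tendsto (fun i => C * (√(DD (N i) (Wi i) 0)
        + dis (N i) (T i) (H i) / DD (N i) (Wi i) 0 * √(DD (N i) (Wi i) 0)
          + √M * √(dis (N i) (T i) (H i) / DD (N i) (Wi i) 0))) U (𝓝 0) := by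
      have := ((hsD.add (hdis.mul hsD)).add (hsdis.const_mul √M)).const_mul C
      simpa using this
    have a3 : Tendsto (fun i => ∫ x, nh (N i) (Wi i) x * jac (Wi i) ζ x * rho x ∂(N i)) U
        (𝓝 0) := by
      refine squeeze_zero_norm' ?_ a2
      filter_upwards [hWi, h.sl, hpos, hM'] with i hi hs hp hm'
      exact nh_jac hs hp hC (hest (Wi i) hi (N i) (T i) (H i) hs) hm'
    have a4 : Tendsto (fun i => ∫ x, nh (N i) (Wi i) x * jac W ζ x * rho x ∂(N i)
        - ∫ x, nh (N i) (Wi i) x * jac (Wi i) ζ x * rho x ∂(N i)) U (𝓝 0) := by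
      rw [Metric.tendsto_nhds]
      intro ε hε
      have hε' : 0 < ε / (2 * (√M + 1)) := by positivity
      filter_upwards [hjac ζ hζ hζc _ hε', hWi, h.sl, hpos, hM'] with i h1 hi hs hp h3
      rw [dist_zero_right, Real.norm_eq_abs]
      refine (nh_diff hs hi hp h3 hjc hjpb (continuous_jac hi hζ2)
        (PB.of_compact (continuous_jac hi hζ2) (hasCompactSupport_jac hζc)) h1 hε'.le).trans_lt ?_
      have e5 : 0 ≤ √M := Real.sqrt_nonneg _
      rw [div_mul_eq_mul_div, div_lt_iff₀ (by positivity)]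
      nlinarith
    have a5 := a4.add a3
    have h1 : Tendsto (fun i => ∫ x, nh (N i) (Wi i) x * jac W ζ x * rho x ∂(N i)) U (𝓝 0) := by
      simpa using a5
    have h2 := tendsto_nhds_unique h1 hlim
    rw [h2]
    congr 1; ext x; ring
  -- Claim C: `u = 0`
  obtain ⟨v, hvV, huv⟩ := hnd u hum hu2 claimA (hPr u hum hu2 hu)
  obtain ⟨hvc, hvpb⟩ := hVc v hvV
  have claimB : ∫ x, v x * u x * rho x ∂κ = 0 := by
    obtain ⟨-, h1⟩ := hu v hvc hvpb
    refine tendsto_nhds_unique h1 ((hV v hvV).congr fun i => ?_)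
    rw [← integral_div]
    congr 1; ext x
    simp only [nh]
    rw [div_eq_inv_mul]
    ring
  have hu0 : ∀ᵐ x ∂κ, u x = 0 := by
    have e : ∫ x, u x ^ 2 * rho x ∂κ = 0 := by
      rw [← claimB]
      apply integral_congr_ae
      filter_upwards [huv] with x hx
      rw [← hx]; ring
    have h1 := (integral_eq_zero_iff_of_nonneg (fun x => mul_nonneg (sq_nonneg _)
      (rho_pos x).le) hu2).1 e
    filter_upwards [h1] with x hx
    have h2 : u x ^ 2 * rho x = 0 := hx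
    rcases mul_eq_zero.1 h2 with h3 | h3
    · exact pow_eq_zero_iff (two_ne_zero) |>.1 h3
    · exact absurd h3 (rho_pos x).ne'
  have hwlim : ∀ f : E → ℝ, Continuous f → PB f →
      Tendsto (fun i => ∫ x, nh (N i) (Wi i) x * f x * rho x ∂(N i)) U (𝓝 0) := by
    intro f hf hfb
    obtain ⟨-, h1⟩ := hu f hf hfb
    have e : ∫ x, f x * u x * rho x ∂κ = 0 := by
      apply integral_eq_zero_of_ae
      filter_upwards [hu0] with x hx
      simp [hx]
    rwa [e] at h1
  -- bounds for the strong compactness theorem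
  obtain ⟨C₁, hC₁, hTG⟩ := exists_TG_le (E := E) hE hc hK
  obtain ⟨C₂, hC₂, hD1⟩ := exists_DD_one_le (E := E) hE hc hK
  have hdis1 : ∀ᶠ i in (U : Filter ι), dis (N i) (T i) (H i) / DD (N i) (Wi i) 0 ≤ 1 :=
    hdis.eventually_le_const (by norm_num)
  have hD1' : ∀ᶠ i in (U : Filter ι), DD (N i) (Wi i) 0 ≤ 1 := hD.eventually_le_const (by norm_num)
  have b1 : ∀ᶠ i in (U : Filter ι), DD (N i) (Wi i) 1 / DD (N i) (Wi i) 0 ≤ 2 * C₂ := by
    filter_upwards [hWi, h.sl, hpos, hdis1] with i hi hs hp hd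
    have e := hD1 (Wi i) hi (N i) (T i) (H i) hs
    rw [div_le_iff₀ hp] at hd ⊢
    nlinarith
  have b2 : ∀ᶠ i in (U : Filter ι), TG (N i) (T i) (Wi i) 0 / DD (N i) (Wi i) 0 ≤ 2 * C₁ := by
    filter_upwards [hWi, h.sl, hpos, hdis1] with i hi hs hp hd
    have e := hTG (Wi i) hi (N i) (T i) (H i) hs
    rw [div_le_iff₀ hp] at hd ⊢
    nlinarith
  have b3 : ∀ᶠ i in (U : Filter ι), VW (N i) (T i) (H i) (Wi i) 0 / DD (N i) (Wi i) 0 ≤ K ^ 2 := by
    filter_upwards [hWi, h.sl, hpos, hdis1] with i hi hs hp hd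
    have e := hs.VW_zero_le hi
    rw [div_le_iff₀ hp] at hd ⊢
    nlinarith [sq_nonneg K]
  obtain ⟨M₂, hM₂⟩ := h.mom 2
  have hbd : ∀ R : ℝ, ∃ C : ℝ, ∀ᶠ i in (U : Filter ι), ∫ x in closedBall (0 : E) R,
      (nh (N i) (Wi i) x ^ 2 + ‖proj (T i x) (grad (nh (N i) (Wi i)) x)‖ ^ 2 + ‖H i x‖ ^ 2
        + nh (N i) (Wi i) x ^ 2 * ‖H i x‖) ∂(N i) ≤ C := by
    intro R
    refine ⟨Real.exp (R ^ 2 / 4) * (1 + 2 * C₁ + 2 + M₂ + K ^ 2 + 2 * C₂), ?_⟩
    filter_upwards [hWi, h.sl, hpos, hdis1, hD1', b1, b2, b3, hM₂] with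
      i hi hs hp hd hd1 c1 c2 c3 c4
    refine nh_local hs hi hp c1 c2 c3 c4 ?_ R
    rw [div_le_iff₀ hp] at hd
    linarith
  -- strong compactness
  have hstrong := strong_compactness U hm (h.sl.mono fun i hi => hi.toSlice) h.lim h.ratio hκ
    (w := fun i => nh (N i) (Wi i)) (hWi.mono fun i hi => contDiff_const.mul hi.pg.cd) hbd
    (fun ζ hζ hζc => by
      have h1 := hwlim (fun x => ζ x * (rho x)⁻¹)
        (hζ.mul (continuous_rho.inv₀ fun x => (rho_pos x).ne'))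
        (PB.of_compact (hζ.mul (continuous_rho.inv₀ fun x => (rho_pos x).ne')) hζc.mul_right)
      refine h1.congr fun i => ?_
      congr 1; ext x
      have := (rho_pos x).ne'
      field_simp)
  -- conclusion
  obtain ⟨n, hn⟩ := exists_nat_gt (4 * C₂)
  have hn1 : 2 * C₂ / ((n : ℝ) + 1) ^ 2 ≤ 1 / 2 := by
    rw [div_le_iff₀ (by positivity)]
    nlinarith [sq_nonneg (n : ℝ), (Nat.cast_nonneg n : (0 : ℝ) ≤ n)]
  have hfin := hstrong (fun x => cut n x * rho x) ((continuous_cut n).mul continuous_rho)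
    (cut_compact n).mul_right
  have hlow : ∀ᶠ i in (U : Filter ι),
      1 / 2 ≤ ∫ x, cut n x * rho x * nh (N i) (Wi i) x ^ 2 ∂(N i) := by
    filter_upwards [h.sl, hWi, hpos, b1] with i hs hi hp c1
    exact nh_low hs hi hp c1 n hn1
  have hcontra := ge_of_tendsto hfin hlow
  norm_num at hcontra

end blow

end Vale.Agent.P218.H333
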