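import Vale.Agent.P218.H333.EqConv

/-! Equivariance of the weak limits of the heights of an invariant flow. -/

open MeasureTheory Set Filter Topology Metric
open scoped ENNReal NNReal RealInnerProductSpace CompactlySupported

namespace Vale.Agent.P218.H333

open Vale.Agent.P214 (IntegralVarifold proj divAlong IsTestField)
open Vale.Agent.P218.H313

set_option linter.unusedSectionVars false
set_option linter.unusedVariables false

variable {E : Type*} [NormedAddCommGroup E] [InnerProductSpace ℝ E] [FiniteDimensional ℝ E]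
  [MeasurableSpace E] [BorelSpace E]

/-- an isometry as a measurable equivalence -/
noncomputable def isoM (g : E ≃ₗᵢ[ℝ] E) : E ≃ᵐ E := g.toHomeomorph.toMeasurableEquiv

lemma isoM_apply (g : E ≃ₗᵢ[ℝ] E) (x : E) : isoM g x = g x := rfl

lemma mp_iso {κ : Measure E} {g : E ≃ₗᵢ[ℝ] E} (h : κ.map g = κ) :
    MeasurePreserving (g : E → E) κ κ := ⟨g.continuous.measurable, h⟩

lemma rho_map (g : E ≃ₗᵢ[ℝ] E) (x : E) : rho (g x) = rho x := by
  unfold rho; rw [g.norm_map]

lemma PB_comp {f : E → ℝ} (hf : PB f) (g : E ≃ₗᵢ[ℝ] E) : PB fun x => f (g x) := by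
  obtain ⟨C, p, hC, h⟩ := hf
  refine ⟨C, p, hC, fun x => ?_⟩
  have := h (g x)
  rwa [g.norm_map] at this

lemma int_inv {κ : Measure E} {g : E ≃ₗᵢ[ℝ] E} (h : κ.map g = κ) (f : E → ℝ) :
    ∫ x, f (g x) ∂κ = ∫ x, f x ∂κ := by
  conv_rhs => rw [← h]
  rw [integral_map_iso]

lemma nh_equiv {μ : Measure E} {W : E → ℝ} {g : E ≃ₗᵢ[ℝ] E} {e : ℝ}
    (hW : ∀ x, W (g x) = e * W x) (x : E) : nh μ W (g x) = e * nh μ W x := by
  simp only [nh]; rw [hW]; ring

/-- **weak limits of equivariant heights are equivariant** -/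
theorem limPr_equiv {ι : Type*} {U : Ultrafilter ι} {N : ι → Measure E} {κ : Measure E}
    {Wi : ι → E → ℝ} {g : E ≃ₗᵢ[ℝ] E} {e : ℝ} (he : e * e = 1)
    (hN : ∀ᶠ i in (U : Filter ι), (N i).map g = N i)
    (hW : ∀ᶠ i in (U : Filter ι), ∀ x, Wi i (g x) = e * Wi i x) (hκ : κ.map g = κ) :
    LimPr U N κ Wi fun u => ∀ᵐ x ∂κ, u (g x) = e * u x := by
  intro u hu hu2 hlim
  -- the identity for continuous functions
  have key : ∀ f : E → ℝ, Continuous f → PB f →
      ∫ x, f x * u x * rho x ∂κ = e * ∫ x, f (g x) * u x * rho x ∂κ := by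
    intro f hf hfb
    obtain ⟨-, h1⟩ := hlim f hf hfb
    obtain ⟨-, h2⟩ := hlim (fun x => f (g x)) (hf.comp g.continuous) (PB_comp hfb g)
    refine tendsto_nhds_unique h1 ((h2.const_mul e).congr' ?_)
    filter_upwards [hN, hW] with i hi hw
    rw [← int_inv hi fun x => nh (N i) (Wi i) x * f x * rho x, ← integral_const_mul]
    congr 1; ext x
    rw [nh_equiv hw, rho_map]; ring
  have hu0 : Integrable (fun x => u x * rho x) κ := by
    have := (hlim (fun _ => (1 : ℝ)) continuous_const
      ⟨1, 0, zero_le_one, fun x => by simp⟩).1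
    simpa using this
  have hmp := mp_iso hκ
  have hug : Integrable (fun x => u (g x) * rho x) κ := by
    have h1 : Integrable ((fun x => u x * rho x) ∘ (g : E → E)) κ :=
      (hmp.integrable_comp_emb (isoM g).measurableEmbedding).2 hu0
    refine h1.congr (Eventually.of_forall fun x => ?_)
    simp only [Function.comp, rho_map]
  have hd : Integrable (fun x => (u (g x) - e * u x) * rho x) κ := by
    have := hug.sub (hu0.const_mul e)
    refine this.congr (Eventually.of_forall fun x => ?_)
    simp only [Pi.sub_apply]; ring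
  have hz : ∀ᵐ x ∂κ, (u (g x) - e * u x) * rho x = 0 := by
    refine ae_eq_zero_of_integral_contDiff_smul_eq_zero hd.locallyIntegrable fun f hf hfc => ?_
    -- use the identity for `f ∘ g⁻¹`
    have hfs : Continuous fun x => f (g.symm x) := hf.continuous.comp g.symm.continuous
    have hfb : PB f := PB.of_compact hf.continuous hfc
    have h1 := key (fun x => f (g.symm x)) hfs (PB_comp hfb g.symm)
    simp only [LinearIsometryEquiv.symm_apply_apply] at h1
    have h2 := int_inv hκ fun x => f (g.symm x) * u x * rho x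
    simp only [LinearIsometryEquiv.symm_apply_apply, rho_map] at h2
    rw [← h2] at h1
    have i1 : Integrable (fun x => f x * u (g x) * rho x) κ := by
      obtain ⟨C, hC⟩ := hfc.exists_bound_of_continuous hf.continuous
      have := hug.bdd_mul (c := C) hf.continuous.aestronglyMeasurable
        (Eventually.of_forall fun x => hC x)
      refine this.congr (Eventually.of_forall fun x => ?_)
      simp only; ring
    have i2 : Integrable (fun x => f x * u x * rho x) κ :=
      (hlim f hf.continuous hfb).1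
    have e1 : ∀ x, f x • ((u (g x) - e * u x) * rho x)
        = f x * u (g x) * rho x - e * (f x * u x * rho x) := by
      intro x; rw [smul_eq_mul]; ring
    simp_rw [e1]
    rw [integral_sub i1 (i2.const_mul e), integral_const_mul, h1, sub_self]
  filter_upwards [hz] with x hx
  rcases mul_eq_zero.1 hx with h | h
  · linarith
  · exact absurd h (rho_pos x).ne'

/-- the slices of a flow invariant about `x₀` are invariant -/
lemma NN_map {m : ℕ} {μ : ℝ → Measure E} {x₀ : E} {t₀ : ℝ} {g : E ≃ₗᵢ[ℝ] E}
    (h : ∀ᶠ t in 𝓝[<] t₀, (μ t).map (fun x => x₀ + g (x - x₀)) = μ t) :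
    ∀ᶠ s in atTop, (H552.NN m μ x₀ t₀ (s / 2)).map g = H552.NN m μ x₀ t₀ (s / 2) := by
  have hl : Tendsto (fun s : ℝ => Real.exp (s / 2)) atTop atTop :=
    Real.tendsto_exp_atTop.comp (tendsto_id.atTop_div_const two_pos)
  have ht : Tendsto (fun s : ℝ => t₀ + (-1) / Real.exp (s / 2) ^ 2) atTop (𝓝[<] t₀) := by
    rw [tendsto_nhdsWithin_iff]
    constructor
    · have h2 : Tendsto (fun s : ℝ => (-1 : ℝ) / Real.exp (s / 2) ^ 2) atTop (𝓝 0) :=
        tendsto_const_nhds.div_atTop ((tendsto_pow_atTop two_ne_zero).comp hl)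
      simpa using h2.const_add t₀
    · refine Eventually.of_forall fun s => ?_
      have : (-1 : ℝ) / Real.exp (s / 2) ^ 2 < 0 :=
        div_neg_of_neg_of_pos (by norm_num) (by positivity)
      simp only [Set.mem_Iio]
      linarith
  filter_upwards [ht.eventually h] with s hs
  exact rescaled_map m μ x₀ t₀ (Real.exp (s / 2)) (-1) g hs

end Vale.Agent.P218.H333
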