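import Vale.Agent.P218.H333.CayProd3
import Vale.Agent.P218.H63.Fin

/-! Uniqueness of the tangent flow for an integrable model. -/

open MeasureTheory Set Filter Topology Metric
open scoped ENNReal NNReal RealInnerProductSpace

set_option linter.unusedSectionVars false
set_option linter.unusedVariables false

namespace Vale.Agent.P218.H333

open Vale.Agent.P214 (IntegralVarifold proj divAlong IsTestField)
open Vale.Agent.P218.H63 (IsTubeShrinker IsJacobiField gaussArea stab lap hessSq Theta Theta_eq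
  Theta_ge bmp_one integral_gaussArea integrable_gaussArea gaussArea_ac ac_gaussArea)
open Vale.Agent.P218.H313

variable {E : Type*} [NormedAddCommGroup E] [InnerProductSpace ℝ E] [FiniteDimensional ℝ E]
variable {P : Type*} [NormedAddCommGroup P] [NormedSpace ℝ P]

section restrict

variable [MeasurableSpace E] [BorelSpace E]
variable {V : P → E → ℝ} {V' : P → P →ₗ[ℝ] (E → ℝ)} {r c K : ℝ} {q m : ℕ}

/-- restriction of the parameters to a subspace -/
lemma fam_restrict (hF : Fam m V V' r c K q) (Q : Submodule ℝ P) :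
    Fam m (fun a : Q => V a) (fun a : Q => (V' a).comp Q.subtype) r c K q where
  rpos := hF.rpos
  Knn := hF.Knn
  tube a ha := hF.tube a ha
  lip a a' ha ha' x := hF.lip a a' ha ha' x
  lipg a a' ha ha' x := hF.lipg a a' ha ha' x
  taylor a a' ha ha' x := hF.taylor a a' ha ha' x
  dlip a a' ha ha' b x := hF.dlip a a' ha ha' b x
  dsm a ha b := hF.dsm a ha b
  db0 a ha b x := hF.db0 a ha b x
  db1 a ha b x := hF.db1 a ha b x
  jacc ζ hζ hζc ε hε := by
    obtain ⟨η, hη, h⟩ := hF.jacc ζ hζ hζc ε hε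
    exact ⟨η, hη, fun a ha han x => h a ha han x⟩
  drift a ha b μ T H hS := hF.drift a ha b μ T H hS

/-- **Uniqueness of the tangent flow**, parameters not necessarily injective -/
theorem fam_unique [FiniteDimensional ℝ P] (hm : 0 < m) (hE : Module.finrank ℝ E = m + 1)
    (hF : Fam m V V' r c K q) {μ : ℝ → Measure E} (hμ : IsIntegralBrakkeFlow m μ)
    (h0 : μ 0 univ < ⊤) (x₀ : E) {t₀ : ℝ} (ht : 0 < t₀)
    (hκ : (μH[m] : Measure E).restrict {x | V 0 x = 0} ∈ tangentSlices m μ x₀ t₀)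
    (hnd : ∀ u : E → ℝ, AEStronglyMeasurable u ((μH[m] : Measure E).restrict {x | V 0 x = 0}) →
      Integrable (fun x => u x ^ 2 * rho x) ((μH[m] : Measure E).restrict {x | V 0 x = 0}) →
      (∀ ζ : E → ℝ, ContDiff ℝ (⊤ : ℕ∞) ζ → HasCompactSupport ζ →
        ∫ x, u x * jac (V 0) ζ x * rho x ∂(μH[m] : Measure E).restrict {x | V 0 x = 0} = 0) →
      ∃ b, u =ᵐ[(μH[m] : Measure E).restrict {x | V 0 x = 0}] V' 0 b) :
    TangentFlowUnique m μ x₀ t₀ := by
  set κ := (μH[m] : Measure E).restrict {x | V 0 x = 0} with hκd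
  let kr : Submodule ℝ P :=
    { carrier := {b | ∀ᵐ x ∂κ, V' 0 b x = 0}
      add_mem' := by
        intro a b ha hb
        change ∀ᵐ x ∂κ, V' 0 (a + b) x = 0
        have ha' : ∀ᵐ x ∂κ, V' 0 a x = 0 := ha
        have hb' : ∀ᵐ x ∂κ, V' 0 b x = 0 := hb
        filter_upwards [ha', hb'] with x h1 h2
        rw [map_add, Pi.add_apply, h1, h2, add_zero]
      zero_mem' := by
        change ∀ᵐ x ∂κ, V' 0 0 x = 0
        exact Eventually.of_forall fun x => by rw [map_zero]; rfl
      smul_mem' := by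
        intro k a ha
        change ∀ᵐ x ∂κ, V' 0 (k • a) x = 0
        have ha' : ∀ᵐ x ∂κ, V' 0 a x = 0 := ha
        filter_upwards [ha'] with x h1
        rw [map_smul, Pi.smul_apply, h1, smul_zero] }
  obtain ⟨Q, hQ⟩ := exists_isCompl kr
  refine (fam_restrict hF Q).unique hm hE hμ h0 x₀ ht hκ ?_ ?_
  · intro b hb
    have h1 : (b : P) ∈ kr := hb
    have h2 : (b : P) ∈ kr ⊓ Q := ⟨h1, b.2⟩
    rw [hQ.inf_eq_bot, Submodule.mem_bot] at h2
    exact Subtype.ext h2
  · intro u h1 h2 h3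
    obtain ⟨b, hb⟩ := hnd u h1 h2 h3
    have h4 : b ∈ kr ⊔ Q := by rw [hQ.sup_eq_top]; trivial
    obtain ⟨k, hk, y, hy, rfl⟩ := Submodule.mem_sup.1 h4
    refine ⟨⟨y, hy⟩, ?_⟩
    have h5 : ∀ᵐ x ∂κ, V' 0 k x = 0 := hk
    filter_upwards [hb, h5] with x h6 h7
    rw [h6, map_add, Pi.add_apply, h7, zero_add]
    rfl

end restrict

section main

variable [MeasurableSpace E] [BorelSpace E]
variable {w : P → E → ℝ} {r δ C : ℝ} {q m : ℕ}

/-- **Uniqueness of the tangent flow for an integrable model.** -/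
theorem unique_of_integrable [FiniteDimensional ℝ P] (hm : 0 < m)
    (hE : Module.finrank ℝ E = m + 1) (hF : IsShrinkerFamily w r δ C q)
    (hN : ∀ u : E → ℝ, IsJacobiField m {x | w 0 x = 0} (w 0) u →
      ∃ (b : P) (A : E →L[ℝ] E), (∀ x, inner ℝ (A x) x = 0) ∧
        u =ᵐ[gaussArea m {x | w 0 x = 0}]
          fun x => velocity w 0 b x + inner ℝ (A x) (gradient (w 0) x))
    {μ : ℝ → Measure E} (hμ : IsIntegralBrakkeFlow m μ) (h0 : μ 0 univ < ⊤) (x₀ : E) {t₀ : ℝ}
    (ht : 0 < t₀)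
    (hκ : (μH[m] : Measure E).restrict {x | w 0 x = 0} ∈ tangentSlices m μ x₀ t₀) :
    TangentFlowUnique m μ x₀ t₀ := by
  obtain ⟨α, hα, K', hαδ, hP⟩ := hF.exists_pfam
  have hcd : ContDiff ℝ 2 fun p : P × E => Theta α hα (w p.1 p.2) := cd_theta hF.smooth hα
  obtain ⟨K₂, hFam⟩ := hP.exists_fam hE (fun a => hcd.comp (contDiff_const.prodMk contDiff_id))
    (M' := skew E) le_rfl
  have hw0 : ContDiff ℝ 3 (w 0) := hF.smooth.comp (contDiff_const.prodMk contDiff_id)
  -- the function at the parameter zero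
  have hV0 : cV (fun a x => Theta α hα (w a x)) (skew E) 0 = fun x => Theta α hα (w 0 x) := by
    ext x
    unfold cV
    rw [Prod.fst_zero, Prod.snd_zero, Submodule.coe_zero, cay_zero]
    rfl
  have hzero : ∀ x, Theta α hα (w 0 x) = 0 ↔ w 0 x = 0 := by
    intro x
    constructor
    · intro h
      have h1 : |w 0 x| < α := theta_small hα (by rw [h, abs_zero]; exact hα)
      rwa [Theta_eq hα h1.le] at h
    · intro h
      rw [Theta_eq hα (by rw [h, abs_zero]; exact hα.le), h]
  have hSe : {x | cV (fun a x => Theta α hα (w a x)) (skew E) 0 x = 0} = {x | w 0 x = 0} := by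
    ext x
    rw [hV0]
    exact hzero x
  set S : Set E := {x | w 0 x = 0} with hSd
  have hSm : MeasurableSet S := (isClosed_eq hw0.continuous continuous_const).measurableSet
  have hnear : ∀ x ∈ S, (fun x => Theta α hα (w 0 x)) =ᶠ[𝓝 x] w 0 := by
    intro x hx
    have hx' : |w 0 x| < α := by rw [show w 0 x = 0 from hx, abs_zero]; exact hα
    have : {y | |w 0 y| < α} ∈ 𝓝 x :=
      (isOpen_lt hw0.continuous.abs continuous_const).mem_nhds hx'
    filter_upwards [this] with y hy using Theta_eq hα (le_of_lt hy)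
  have hjac : ∀ ζ : E → ℝ, ∀ x ∈ S, jac (fun x => Theta α hα (w 0 x)) ζ x = stab (w 0) ζ x := by
    intro ζ x hx
    rw [jac_congr (hnear x hx) (EventuallyEq.refl (𝓝 x) ζ)]
    unfold jac stab H63.lap hessSq tr
    rw [H313.grad_eq_gradient, H313.grad_eq_gradient]
    ring
  refine fam_unique hm hE hFam hμ h0 x₀ ht (by rw [hSe]; exact hκ) ?_
  rw [hSe, hV0]
  intro u hu hu2 hweak
  have hJ : IsJacobiField m S (w 0) u := by
    refine ⟨(memLp_two_iff_integrable_sq (hu.mono_ac gaussArea_ac)).2 (integrable_gaussArea hu2),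
      fun η hη hηc => ?_⟩
    rw [integral_gaussArea, ← hweak η hη hηc]
    refine integral_congr_ae ((ae_restrict_mem hSm).mono fun x hx => ?_)
    simp only
    rw [hjac η x hx]
  obtain ⟨b, A, hA, hAu⟩ := hN u hJ
  refine ⟨(b, ⟨(-(1 / 2) : ℝ) • A, (skew E).smul_mem _ hA⟩), ?_⟩
  have h1 := ac_gaussArea.ae_eq hAu
  filter_upwards [h1, ae_restrict_mem hSm] with x hx hxS
  rw [hx, cV'_apply, Prod.fst_zero, Prod.snd_zero, Submodule.coe_zero, cay_zero, dcay_zero]
  have e1 : (1 : E →L[ℝ] E) x = x := rfl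
  have e2 : grad (fun x => Theta α hα (w 0 x)) x = gradient (w 0) x :=
    (grad_congr (hnear x hxS)).eq_of_nhds
  have e3 : dV w α hα 0 b x = velocity w 0 b x := by
    rw [dV_apply, bmp_one hα (by rw [show w 0 x = 0 from hxS, abs_zero]; exact hα.le), one_mul]
  rw [e1, e2, e3]
  simp only [smul_apply, real_inner_smul_right]
  rw [real_inner_comm]
  ring

end main

end Vale.Agent.P218.H333
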