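import Vale.Agent.P218.H333.EqInv
import Vale.Agent.P218.H333.IntMain

/-! Equivariant models: uniqueness of tangent flows. -/

open MeasureTheory Set Filter Topology Metric
open scoped ENNReal NNReal RealInnerProductSpace CompactlySupported

namespace Vale.Agent.P218.H333

open Vale.Agent.P214 (IntegralVarifold proj divAlong IsTestField)
open Vale.Agent.P218.H552 (BF NN)
open Vale.Agent.P218.H63 (IsTubeShrinker IsJacobiField gaussArea stab lap hessSq Theta Theta_eq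
  Theta_ge bmp_one integral_gaussArea integrable_gaussArea gaussArea_ac ac_gaussArea bmp)
open Vale.Agent.P218.H313

set_option linter.unusedSectionVars false
set_option linter.unusedVariables false

variable {E : Type*} [NormedAddCommGroup E] [InnerProductSpace ℝ E] [FiniteDimensional ℝ E]
variable {P : Type*} [NormedAddCommGroup P] [NormedSpace ℝ P]

section unique

variable [MeasurableSpace E] [BorelSpace E]
variable {m : ℕ}
  {V : P → E → ℝ} {V' : P → P →ₗ[ℝ] (E → ℝ)} {r c K : ℝ} {q : ℕ}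

/-- **Uniqueness of the tangent flow**, for a family of shrinkers containing all the Jacobi
fields. -/
theorem Fam.unique_eq [FiniteDimensional ℝ P] (hm : 0 < m) (hE : Module.finrank ℝ E = m + 1)
    (hF : Fam m V V' r c K q) {μ : ℝ → Measure E} (hμ : IsIntegralBrakkeFlow m μ)
    (h0 : μ 0 univ < ⊤) (x₀ : E) {t₀ : ℝ} (ht : 0 < t₀)
    (hκ : (μH[m] : Measure E).restrict {x | V 0 x = 0} ∈ tangentSlices m μ x₀ t₀)
    (hinj : ∀ b : P, (∀ᵐ x ∂(μH[m] : Measure E).restrict {x | V 0 x = 0}, V' 0 b x = 0) → b = 0)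
    {Γ : Set (E ≃ₗᵢ[ℝ] E)} {χ : (E ≃ₗᵢ[ℝ] E) → ℝ} (hχ : ∀ g ∈ Γ, χ g * χ g = 1)
    (hμΓ : ∀ g ∈ Γ, ∀ᶠ t in 𝓝[<] t₀, (μ t).map (fun x => x₀ + g (x - x₀)) = μ t)
    (hVΓ : ∀ g ∈ Γ, ∀ a, ‖a‖ ≤ r → ∀ x, V a (g x) = χ g * V a x)
    (hnd : ∀ u : E → ℝ, AEStronglyMeasurable u ((μH[m] : Measure E).restrict {x | V 0 x = 0}) →
      Integrable (fun x => u x ^ 2 * rho x) ((μH[m] : Measure E).restrict {x | V 0 x = 0}) →
      (∀ ζ : E → ℝ, ContDiff ℝ (⊤ : ℕ∞) ζ → HasCompactSupport ζ →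
        ∫ x, u x * jac (V 0) ζ x * rho x ∂(μH[m] : Measure E).restrict {x | V 0 x = 0} = 0) →
      (∀ g ∈ Γ, ∀ᵐ x ∂(μH[m] : Measure E).restrict {x | V 0 x = 0}, u (g x) = χ g * u x) →
      ∃ b, u =ᵐ[(μH[m] : Measure E).restrict {x | V 0 x = 0}] V' 0 b) :
    TangentFlowUnique m μ x₀ t₀ := by
  obtain ⟨T, H, s₀, hRF⟩ := exists_RF hμ h0 x₀ ht
  obtain ⟨T', H', hB, -⟩ := A1.exists_BF_slice hμ
  have hslow := H552.slow_NN hB h0 x₀ ht
  set κ := (μH[m] : Measure E).restrict {x | V 0 x = 0} with hκd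
  have hκ₀ := hκ
  rw [H552.tangentSlices_eq hB h0 x₀ ht] at hκ
  rw [unique_iff hB h0 x₀ ht, H552.tangentSlices_eq hB h0 x₀ ht]
  obtain ⟨hlf, τ, hτ, hτκ⟩ := hκ
  have hWt := hF.tube 0 (by simpa using hF.rpos.le)
  set s₁ := max s₀ (2 * H552.tau0 t₀) with hs₁
  have hslow' : Slow (fun s => NN m μ x₀ t₀ (s / 2)) s₁ := by
    constructor
    · intro K hK
      obtain ⟨C, hC⟩ := hslow.bdd K hK
      refine ⟨C, fun τ hτ => hC _ ?_⟩
      have := (le_max_right s₀ (2 * H552.tau0 t₀)).trans hτ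
      linarith
    · intro φ hφ hφc h hh ε hε
      obtain ⟨S, hS0, hS⟩ := hslow.slow φ hφ hφc (h / 2) (half_pos hh) ε hε
      refine ⟨max s₁ (2 * S), le_max_left _ _, fun τ τ' h1 h2 h3 => hS _ _ ?_ ?_ ?_⟩
      · have := (le_max_right s₁ (2 * S)).trans h1
        linarith
      · linarith
      · linarith
  have hseq : ∃ τ : ℕ → ℝ, Tendsto τ atTop atTop ∧
      WeakTendsto (fun i => NN m μ x₀ t₀ (τ i / 2)) κ := by
    refine ⟨fun i => 2 * τ i, hτ.const_mul_atTop two_pos, ?_⟩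
    have e : ∀ i, 2 * τ i / 2 = τ i := fun i => by ring
    simp_rw [e]
    exact hτκ
  have hV0 : ∀ᵐ x ∂κ, V 0 x = 0 := by
    rw [hκd]
    exact ae_restrict_mem (isClosed_eq hWt.cont continuous_const).measurableSet
  refine limitSet_subsingleton hslow fun φ hφ hφc => ?_
  have hPr : NearPr m (fun s => NN m μ x₀ t₀ (s / 2)) T H V r κ
      fun u => ∀ g ∈ Γ, ∀ᵐ x ∂κ, u (g x) = χ g * u x := by
    intro U hU a ha u hu hu2 hlim g hg
    refine limPr_equiv (hχ g hg) ?_ ?_ (map_eq_of_mem_tangentSlices (hμΓ g hg) hκ₀) u hu hu2 hlim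
    · exact (hU.trans nearF_atTop) (NN_map (hμΓ g hg))
    · filter_upwards [ha] with s hs x
      exact hVΓ g hg (a s) hs x
  obtain ⟨L, hL⟩ := RF.converge_pr hm hE (hRF.later (le_max_left s₀ (2 * H552.tau0 t₀))) hslow'
    hF hV0 (fun x c hc => density_le hE hWt x hc) hseq hinj hPr hnd hφ hφc
  refine ⟨L, ?_⟩
  have h2 := hL.comp (tendsto_id.const_mul_atTop (two_pos : (0 : ℝ) < 2))
  refine h2.congr fun τ => ?_
  simp only [Function.comp, id]
  have e : 2 * τ / 2 = τ := by ring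
  rw [e]

/-- **Uniqueness of the tangent flow**, parameters not necessarily injective -/
theorem fam_unique_eq [FiniteDimensional ℝ P] (hm : 0 < m) (hE : Module.finrank ℝ E = m + 1)
    (hF : Fam m V V' r c K q) {μ : ℝ → Measure E} (hμ : IsIntegralBrakkeFlow m μ)
    (h0 : μ 0 univ < ⊤) (x₀ : E) {t₀ : ℝ} (ht : 0 < t₀)
    (hκ : (μH[m] : Measure E).restrict {x | V 0 x = 0} ∈ tangentSlices m μ x₀ t₀)
    {Γ : Set (E ≃ₗᵢ[ℝ] E)} {χ : (E ≃ₗᵢ[ℝ] E) → ℝ} (hχ : ∀ g ∈ Γ, χ g * χ g = 1)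
    (hμΓ : ∀ g ∈ Γ, ∀ᶠ t in 𝓝[<] t₀, (μ t).map (fun x => x₀ + g (x - x₀)) = μ t)
    (hVΓ : ∀ g ∈ Γ, ∀ a, ‖a‖ ≤ r → ∀ x, V a (g x) = χ g * V a x)
    (hnd : ∀ u : E → ℝ, AEStronglyMeasurable u ((μH[m] : Measure E).restrict {x | V 0 x = 0}) →
      Integrable (fun x => u x ^ 2 * rho x) ((μH[m] : Measure E).restrict {x | V 0 x = 0}) →
      (∀ ζ : E → ℝ, ContDiff ℝ (⊤ : ℕ∞) ζ → HasCompactSupport ζ →
        ∫ x, u x * jac (V 0) ζ x * rho x ∂(μH[m] : Measure E).restrict {x | V 0 x = 0} = 0) →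
      (∀ g ∈ Γ, ∀ᵐ x ∂(μH[m] : Measure E).restrict {x | V 0 x = 0}, u (g x) = χ g * u x) →
      ∃ b, u =ᵐ[(μH[m] : Measure E).restrict {x | V 0 x = 0}] V' 0 b) :
    TangentFlowUnique m μ x₀ t₀ := by
  set κ := (μH[m] : Measure E).restrict {x | V 0 x = 0} with hκd
  let kr : Submodule ℝ P :=
    { carrier := {b | ∀ᵐ x ∂κ, V' 0 b x = 0}
      add_mem' := by
        intro a b ha hb
        change ∀ᵐ x ∂κ, V' 0 (a + b) x = 0
        have ha' : ∀ᵐ x ∂κ, V' 0 a x = 0 := ha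
        have hb' : ∀ᵐ x ∂κ, V' 0 b x = 0 := hb
        filter_upwards [ha', hb'] with x h1 h2
        rw [map_add, Pi.add_apply, h1, h2, add_zero]
      zero_mem' := by
        change ∀ᵐ x ∂κ, V' 0 0 x = 0
        exact Eventually.of_forall fun x => by rw [map_zero]; rfl
      smul_mem' := by
        intro k a ha
        change ∀ᵐ x ∂κ, V' 0 (k • a) x = 0
        have ha' : ∀ᵐ x ∂κ, V' 0 a x = 0 := ha
        filter_upwards [ha'] with x h1
        rw [map_smul, Pi.smul_apply, h1, smul_zero] }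
  obtain ⟨Q, hQ⟩ := exists_isCompl kr
  refine Fam.unique_eq hm hE (fam_restrict hF Q) hμ h0 x₀ ht hκ ?_ hχ hμΓ
    (fun g hg a ha x => hVΓ g hg a ha x) ?_
  · intro b hb
    have h1 : (b : P) ∈ kr := hb
    have h2 : (b : P) ∈ kr ⊓ Q := ⟨h1, b.2⟩
    rw [hQ.inf_eq_bot, Submodule.mem_bot] at h2
    exact Subtype.ext h2
  · intro u h1 h2 h3 h4'
    obtain ⟨b, hb⟩ := hnd u h1 h2 h3 h4'
    have h4 : b ∈ kr ⊔ Q := by rw [hQ.sup_eq_top]; trivial
    obtain ⟨k, hk, y, hy, rfl⟩ := Submodule.mem_sup.1 h4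
    refine ⟨⟨y, hy⟩, ?_⟩
    have h5 : ∀ᵐ x ∂κ, V' 0 k x = 0 := hk
    filter_upwards [hb, h5] with x h6 h7
    rw [h6, map_add, Pi.add_apply, h7, zero_add]
    rfl

end unique

/-! ### the equivariance of the family -/

lemma Theta_neg {α : ℝ} (hα : 0 < α) (s : ℝ) : Theta α hα (-s) = -Theta α hα s := by
  have h := intervalIntegral.integral_comp_neg (a := s) (b := 0) (fun t => bmp α hα t)
  simp only [neg_zero, ContDiffBump.neg] at h
  unfold Theta
  rw [← h, intervalIntegral.integral_symm]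

lemma rinv_comm {A : E →L[ℝ] E} (hA : A ∈ skew E) {g : E ≃ₗᵢ[ℝ] E}
    (h : ∀ x, A (g x) = g (A x)) (x : E) : rinv A (g x) = g (rinv A x) := by
  have h1 : x = rinv A x + A (rinv A x) := (rinv_spec hA x).symm
  have h2 : g x = g (rinv A x) + A (g (rinv A x)) := by
    conv_lhs => rw [h1]
    rw [map_add, h]
  rw [h2, rinv_spec' hA]

lemma cay_comm {A : E →L[ℝ] E} (hA : A ∈ skew E) {g : E ≃ₗᵢ[ℝ] E}
    (h : ∀ x, A (g x) = g (A x)) (x : E) : cay A (g x) = g (cay A x) := by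
  rw [cay_apply, cay_apply, rinv_comm hA h, map_sub, map_smul]

/-- the skew operators commuting with `Γ` -/
def skewC (Γ : Set (E ≃ₗᵢ[ℝ] E)) : Submodule ℝ (E →L[ℝ] E) where
  carrier := {A | A ∈ skew E ∧ ∀ g ∈ Γ, ∀ x, A (g x) = g (A x)}
  add_mem' := by
    rintro A B ⟨hA, hA'⟩ ⟨hB, hB'⟩
    refine ⟨(skew E).add_mem hA hB, fun g hg x => ?_⟩
    rw [add_apply, add_apply, hA' g hg, hB' g hg, map_add]
  zero_mem' := ⟨(skew E).zero_mem, fun g hg x => by simp⟩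
  smul_mem' := by
    rintro k A ⟨hA, hA'⟩
    refine ⟨(skew E).smul_mem k hA, fun g hg x => ?_⟩
    rw [smul_apply, smul_apply, hA' g hg, map_smul]

lemma skewC_le (Γ : Set (E ≃ₗᵢ[ℝ] E)) : skewC Γ ≤ skew E := fun A hA => hA.1

section main

variable [MeasurableSpace E] [BorelSpace E]
variable {w : P → E → ℝ} {r δ C : ℝ} {q m : ℕ}

/-- **Uniqueness of the tangent flow of an invariant flow for an equivariantly integrable
model.** -/
theorem unique_of_equivariant [FiniteDimensional ℝ P] (hm : 0 < m)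
    (hE : Module.finrank ℝ E = m + 1) (hF : IsShrinkerFamily w r δ C q)
    {Γ : Set (E ≃ₗᵢ[ℝ] E)} {χ : (E ≃ₗᵢ[ℝ] E) → ℝ} (hχ : ∀ g ∈ Γ, χ g = 1 ∨ χ g = -1)
    (hwΓ : ∀ g ∈ Γ, ∀ a, ‖a‖ < r → ∀ x, w a (g x) = χ g * w a x)
    (hN : ∀ u : E → ℝ, IsJacobiField m {x | w 0 x = 0} (w 0) u →
      (∀ g ∈ Γ, ∀ᵐ x ∂(gaussArea m {x | w 0 x = 0}), u (g x) = χ g * u x) →
      ∃ (b : P) (A : E →L[ℝ] E), (∀ x, inner ℝ (A x) x = 0) ∧ (∀ g ∈ Γ, ∀ x, A (g x) = g (A x)) ∧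
        u =ᵐ[gaussArea m {x | w 0 x = 0}]
          fun x => velocity w 0 b x + inner ℝ (A x) (gradient (w 0) x))
    {μ : ℝ → Measure E} (hμ : IsIntegralBrakkeFlow m μ) (h0 : μ 0 univ < ⊤) (x₀ : E) {t₀ : ℝ}
    (ht : 0 < t₀) (hμΓ : ∀ g ∈ Γ, ∀ᶠ t in 𝓝[<] t₀, (μ t).map (fun x => x₀ + g (x - x₀)) = μ t)
    (hκ : (μH[m] : Measure E).restrict {x | w 0 x = 0} ∈ tangentSlices m μ x₀ t₀) :
    TangentFlowUnique m μ x₀ t₀ := by
  obtain ⟨α, hα, K', hαδ, hP⟩ := hF.exists_pfam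
  have hcd : ContDiff ℝ 2 fun p : P × E => Theta α hα (w p.1 p.2) := cd_theta hF.smooth hα
  obtain ⟨K₂, hFam⟩ := hP.exists_fam hE (fun a => hcd.comp (contDiff_const.prodMk contDiff_id))
    (M' := skewC Γ) (skewC_le Γ)
  have hw0 : ContDiff ℝ 3 (w 0) := hF.smooth.comp (contDiff_const.prodMk contDiff_id)
  -- the function at the parameter zero
  have hV0 : cV (fun a x => Theta α hα (w a x)) (skewC Γ) 0 = fun x => Theta α hα (w 0 x) := by
    ext x
    unfold cV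
    rw [Prod.fst_zero, Prod.snd_zero, Submodule.coe_zero, cay_zero]
    rfl
  have hzero : ∀ x, Theta α hα (w 0 x) = 0 ↔ w 0 x = 0 := by
    intro x
    constructor
    · intro h
      have h1 : |w 0 x| < α := theta_small hα (by rw [h, abs_zero]; exact hα)
      rwa [Theta_eq hα h1.le] at h
    · intro h
      rw [Theta_eq hα (by rw [h, abs_zero]; exact hα.le), h]
  have hSe : {x | cV (fun a x => Theta α hα (w a x)) (skewC Γ) 0 x = 0} = {x | w 0 x = 0} := by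
    ext x
    rw [hV0]
    exact hzero x
  set S : Set E := {x | w 0 x = 0} with hSd
  have hSm : MeasurableSet S := (isClosed_eq hw0.continuous continuous_const).measurableSet
  have hnear : ∀ x ∈ S, (fun x => Theta α hα (w 0 x)) =ᶠ[𝓝 x] w 0 := by
    intro x hx
    have hx' : |w 0 x| < α := by rw [show w 0 x = 0 from hx, abs_zero]; exact hα
    have : {y | |w 0 y| < α} ∈ 𝓝 x :=
      (isOpen_lt hw0.continuous.abs continuous_const).mem_nhds hx'
    filter_upwards [this] with y hy using Theta_eq hα (le_of_lt hy)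
  have hjac : ∀ ζ : E → ℝ, ∀ x ∈ S, jac (fun x => Theta α hα (w 0 x)) ζ x = H63.stab (w 0) ζ x := by
    intro ζ x hx
    rw [jac_congr (hnear x hx) (EventuallyEq.refl (𝓝 x) ζ)]
    unfold jac H63.stab H63.lap hessSq H313.tr
    rw [H313.grad_eq_gradient, H313.grad_eq_gradient]
    ring
  have hχ2 : ∀ g ∈ Γ, χ g * χ g = 1 := by
    intro g hg
    rcases hχ g hg with h | h <;> rw [h] <;> norm_num
  refine fam_unique_eq hm hE hFam hμ h0 x₀ ht (by rw [hSe]; exact hκ) hχ2 hμΓ ?_ ?_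
  · intro g hg p hp x
    have h1 : ‖p.1‖ < r := by
      have h2 : ‖p.1‖ ≤ ‖p‖ := norm_fst_le p
      have h3 := hF.pos
      linarith
    change Theta α hα (w p.1 (cay (p.2 : E →L[ℝ] E) (g x)))
      = χ g * Theta α hα (w p.1 (cay (p.2 : E →L[ℝ] E) x))
    rw [cay_comm (skewC_le Γ p.2.2) (fun x => p.2.2.2 g hg x), hwΓ g hg p.1 h1]
    rcases hχ g hg with h | h
    · rw [h, one_mul, one_mul]
    · rw [h, neg_one_mul, neg_one_mul, Theta_neg]
  rw [hSe, hV0]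
  intro u hu hu2 hweak huΓ
  have hJ : IsJacobiField m S (w 0) u := by
    refine ⟨(memLp_two_iff_integrable_sq (hu.mono_ac gaussArea_ac)).2 (integrable_gaussArea hu2),
      fun η hη hηc => ?_⟩
    rw [integral_gaussArea, ← hweak η hη hηc]
    refine integral_congr_ae ((ae_restrict_mem hSm).mono fun x hx => ?_)
    simp only
    rw [hjac η x hx]
  obtain ⟨b, A, hA, hAΓ, hAu⟩ := hN u hJ fun g hg => gaussArea_ac.ae_le (huΓ g hg)
  refine ⟨(b, ⟨(-(1 / 2) : ℝ) • A, (skewC Γ).smul_mem _ ⟨hA, hAΓ⟩⟩), ?_⟩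
  have h1 := ac_gaussArea.ae_eq hAu
  filter_upwards [h1, ae_restrict_mem hSm] with x hx hxS
  rw [hx, cV'_apply, Prod.fst_zero, Prod.snd_zero, Submodule.coe_zero, cay_zero, dcay_zero]
  have e1 : (1 : E →L[ℝ] E) x = x := rfl
  have e2 : grad (fun x => Theta α hα (w 0 x)) x = gradient (w 0) x :=
    (grad_congr (hnear x hxS)).eq_of_nhds
  have e3 : dV w α hα 0 b x = velocity w 0 b x := by
    rw [dV_apply, bmp_one hα (by rw [show w 0 x = 0 from hxS, abs_zero]; exact hα.le), one_mul]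
  rw [e1, e2, e3]
  simp only [smul_apply, real_inner_smul_right]
  rw [real_inner_comm]
  ring

end main

end Vale.Agent.P218.H333
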