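import Vale.Agent.P218.H333.EqBlow

/-! Good times near the shrinker, for heights with an extra property. -/

open MeasureTheory Set Filter Topology Metric
open scoped ENNReal NNReal RealInnerProductSpace CompactlySupported

namespace Vale.Agent.P218.H333

open Vale.Agent.P214 (IntegralVarifold proj divAlong IsTestField)
open Vale.Agent.P218.H313

set_option linter.unusedSectionVars false
set_option linter.unusedVariables false

variable {E : Type*} [NormedAddCommGroup E] [InnerProductSpace ℝ E] [FiniteDimensional ℝ E]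
  [MeasurableSpace E] [BorelSpace E]
variable {m : ℕ} {N : ℝ → Measure E} {T : ℝ → E → Submodule ℝ E} {H : ℝ → E → E} {s₀ : ℝ}
variable {P : Type*} [NormedAddCommGroup P] [NormedSpace ℝ P]
  {V : P → E → ℝ} {V' : P → P →ₗ[ℝ] (E → ℝ)} {r c K : ℝ} {q : ℕ} {κ : Measure E}

variable (m N T H) in
/-- `Pr` holds for all limits of heights near `κ` -/
def NearPr (V : P → E → ℝ) (r : ℝ) (κ : Measure E) (Pr : (E → ℝ) → Prop) : Prop :=
  ∀ U : Ultrafilter ℝ, (U : Filter ℝ) ≤ nearF m N T H κ → ∀ a : ℝ → P,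
    (∀ᶠ s in (U : Filter ℝ), ‖a s‖ ≤ r) → LimPr U N κ (fun s => V (a s)) Pr

/-- **the static estimate** at good times near the shrinker -/
theorem RF.exists_static_pr (hm : 0 < m) (hE : Module.finrank ℝ E = m + 1) (h : RF m N T H s₀)
    (hF : Fam m V V' r c K q) [IsLocallyFiniteMeasure κ]
    (hV0 : ∀ᵐ x ∂κ, V 0 x = 0)
    (hκ : ∀ x : E, ∀ c > om m, ∀ᶠ r in 𝓝[>] (0 : ℝ), (∫ y, H313.ker (r⁻¹ • (y - x)) ∂κ) / r ^ m ≤ c)
    {Pr : (E → ℝ) → Prop} (hPr : NearPr m N T H V r κ Pr)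
    (hnd : ∀ u : E → ℝ, AEStronglyMeasurable u κ → Integrable (fun x => u x ^ 2 * rho x) κ →
      (∀ ζ : E → ℝ, ContDiff ℝ (⊤ : ℕ∞) ζ → HasCompactSupport ζ →
        ∫ x, u x * jac (V 0) ζ x * rho x ∂κ = 0) → Pr u → ∃ b, u =ᵐ[κ] V' 0 b)
    {a : ℝ → P} (har : ∀ᶠ s in nearF m N T H κ, ‖a s‖ ≤ r)
    (ha : Tendsto a (nearF m N T H κ) (𝓝 0))
    (hcrit : ∀ᶠ s in nearF m N T H κ, ∀ b, GF (N s) V V' (a s) b = 0) :
    ∃ C₀ : ℝ, 0 ≤ C₀ ∧ ∀ᶠ s in nearF m N T H κ,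
      DD (N s) (V (a s)) 0 ≤ C₀ * dis (N s) (T s) (H s) := by
  by_contra hcon
  push Not at hcon
  have h0r : ‖(0 : P)‖ ≤ r := by simpa using hF.rpos.le
  set l := nearF m N T H κ with hl
  set S : ℕ → Set ℝ := fun n => {s | (n : ℝ) * dis (N s) (T s) (H s) < DD (N s) (V (a s)) 0}
    with hS
  have hfr : ∀ n : ℕ, (l ⊓ 𝓟 (S n)).NeBot := by
    intro n
    rw [← frequently_mem_iff_neBot]
    exact hcon n n.cast_nonneg
  have hne : (⨅ n : ℕ, l ⊓ 𝓟 (S n)).NeBot := by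
    refine iInf_neBot_of_directed ?_ hfr
    refine directed_of_isDirected_le fun i j hij => ?_
    refine inf_le_inf_left _ (principal_mono.2 fun s hs => ?_)
    simp only [hS, mem_ofPred_eq] at hs ⊢
    refine lt_of_le_of_lt ?_ hs
    exact mul_le_mul_of_nonneg_right (by exact_mod_cast hij) dis_nonneg
  set U : Ultrafilter ℝ := Ultrafilter.of (⨅ n : ℕ, l ⊓ 𝓟 (S n)) with hU
  have hUl : (U : Filter ℝ) ≤ l :=
    (Ultrafilter.of_le _).trans ((iInf_le _ 0).trans inf_le_left)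
  have hUS : ∀ n : ℕ, ∀ᶠ s in (U : Filter ℝ),
      (n : ℝ) * dis (N s) (T s) (H s) < DD (N s) (V (a s)) 0 := by
    intro n
    have : (U : Filter ℝ) ≤ 𝓟 (S n) :=
      (Ultrafilter.of_le _).trans ((iInf_le _ n).trans inf_le_right)
    exact this (mem_principal_self _)
  have hconv := h.conv hUl
  have hpos : ∀ᶠ s in (U : Filter ℝ), 0 < DD (N s) (V (a s)) 0 := by
    filter_upwards [hUS 0] with s hs
    simpa using hs
  have haU : Tendsto a U (𝓝 0) := ha.mono_left hUl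
  have hwi : ∀ᶠ s in (U : Filter ℝ), TubeD (V (a s)) c K := by
    filter_upwards [hUl har] with s hs using hF.tube _ hs
  refine blow_pr hm hE hconv hκ (hF.tube 0 h0r) hwi ?_ (V := range fun b => V' 0 b) ?_ ?_
    (hPr U hUl a (hUl har)) ?_ hpos
    (h.tendsto_DD hF hV0 hUl (hUl har) haU) ?_
  · intro ζ hζ hζc ε hε
    obtain ⟨η, hη, hj⟩ := hF.jacc ζ hζ hζc ε hε
    have h1 : ∀ᶠ s in (U : Filter ℝ), ‖a s‖ < η := by
      have := haU.norm
      rw [norm_zero] at this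
      exact this.eventually_lt_const hη
    filter_upwards [hUl har, h1] with s h2 h3
    exact hj _ h2 h3.le
  · rintro _ ⟨b, rfl⟩
    exact ⟨(hF.dsm 0 h0r b).continuous, (hF.pg' h0r b).b0⟩
  · rintro _ ⟨b, rfl⟩
    exact h.tendsto_orth hF hUl (hUl har) haU (hUl hcrit) b
  · intro u h1 h2 h3 h4
    obtain ⟨b, hb⟩ := hnd u h1 h2 h3 h4
    exact ⟨_, ⟨b, rfl⟩, hb⟩
  · rw [Metric.tendsto_nhds]
    intro ε hε
    obtain ⟨n, hn⟩ := exists_nat_gt (1 / ε)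
    filter_upwards [hUS n, hpos] with s hs hp
    have hd : 0 ≤ dis (N s) (T s) (H s) := dis_nonneg
    rw [Real.dist_eq, sub_zero, abs_of_nonneg (by positivity), div_lt_iff₀ hp]
    have hn' : 1 < ε * n := by rwa [div_lt_iff₀' hε] at hn
    have hn0 : (0 : ℝ) < n := by
      have := one_div_pos.2 hε
      linarith
    have h5 : ε * (n * dis (N s) (T s) (H s)) < ε * DD (N s) (V (a s)) 0 :=
      mul_lt_mul_of_pos_left hs hε
    have h6 : dis (N s) (T s) (H s) ≤ ε * n * dis (N s) (T s) (H s) :=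
      le_mul_of_one_le_left hd hn'.le
    linarith

/-- good times near the shrinker have a gauge and satisfy the static estimate -/
theorem RF.exists_goodAt_pr (hm : 0 < m) (hE : Module.finrank ℝ E = m + 1) [FiniteDimensional ℝ P]
    (h : RF m N T H s₀) (hF : Fam m V V' r c K q) [IsLocallyFiniteMeasure κ]
    [(nearF m N T H κ).NeBot] (hV0 : ∀ᵐ x ∂κ, V 0 x = 0)
    (hκ : ∀ x : E, ∀ c > om m, ∀ᶠ r in 𝓝[>] (0 : ℝ), (∫ y, H313.ker (r⁻¹ • (y - x)) ∂κ) / r ^ m ≤ c)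
    (hinj : ∀ b : P, (∀ᵐ x ∂κ, V' 0 b x = 0) → b = 0)
    {Pr : (E → ℝ) → Prop} (hPr : NearPr m N T H V r κ Pr)
    (hnd : ∀ u : E → ℝ, AEStronglyMeasurable u κ → Integrable (fun x => u x ^ 2 * rho x) κ →
      (∀ ζ : E → ℝ, ContDiff ℝ (⊤ : ℕ∞) ζ → HasCompactSupport ζ →
        ∫ x, u x * jac (V 0) ζ x * rho x ∂κ = 0) → Pr u → ∃ b, u =ᵐ[κ] V' 0 b) :
    ∃ r₁ : ℝ, r₁ ≤ r ∧ ∃ lam : ℝ, 0 < lam ∧ ∃ C₀ : ℝ, 0 ≤ C₀ ∧
      ∀ᶠ s in nearF m N T H κ, ∃ a : P, GoodAt m N T H V V' r₁ lam C₀ s a := by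
  have hmom : ∀ p : ℕ, ∃ C : ℝ, ∀ᶠ s in nearF m N T H κ,
      Integrable (fun x => (1 + ‖x‖) ^ p * rho x) (N s) ∧
        ∫ x, (1 + ‖x‖) ^ p * rho x ∂(N s) ≤ C := by
    intro p
    obtain ⟨C, hC⟩ := h.moment p
    exact ⟨C, by filter_upwards [nearF_atTop (eventually_ge_atTop s₀)] with s hs using hC s hs⟩
  obtain ⟨r₁, hr₁, hr₁r, lam, hlam, g1, g2, g3⟩ := hF.gauge (l := nearF m N T H κ) (N := N)
    (κ := κ) hmom (fun f hf hb => h.lim_PB hf hb) h.mom_lim hV0 hinj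
  obtain ⟨a, ha⟩ := g2.choice
  have ha1 : ∀ᶠ s in nearF m N T H κ, ‖a s‖ ≤ r₁ ∧ ∀ b, GF (N s) V V' (a s) b = 0 := by
    filter_upwards [ha] with s hs using ⟨hs.1.le, hs.2⟩
  have ha0 := g3 a ha1
  obtain ⟨C₀, hC₀, hst⟩ := RF.exists_static_pr hm hE h hF hV0 hκ hPr hnd (a := a)
    (by filter_upwards [ha1] with s hs using hs.1.trans hr₁r) ha0
    (by filter_upwards [ha1] with s hs using hs.2)
  refine ⟨r₁, hr₁r, lam, hlam, C₀, hC₀, ?_⟩
  filter_upwards [nearF_sl, ha1, hst, g1] with s h1 h2 h3 h4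
  exact ⟨a s, h1, h2.1, h2.2, h3, fun a' ha' => h4 _ _ h2.1 ha'⟩

end Vale.Agent.P218.H333
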