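import Vale.Agent.P218.H63.Trunc

/-! The exact form of the shrinker equation in the tube. -/

open MeasureTheory Set Filter Topology Metric
open scoped ENNReal NNReal RealInnerProductSpace

set_option linter.unusedSectionVars false

namespace Vale.Agent.P218.H333

open Vale.Agent.P218.H63

variable {E : Type*} [NormedAddCommGroup E] [InnerProductSpace ℝ E] [FiniteDimensional ℝ E]
variable {S : Set E} {w : E → ℝ} {δ C : ℝ}

/-- the Hessian at the foot point, on the positive side -/
lemma hess_foot_pos (h : IsTubeShrinker S w δ C) {x : E} (hx0 : 0 ≤ w x) (hx : w x < δ) :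
    fderiv ℝ (gradient w) (x - w x • gradient w x)
        * (1 - w x • fderiv ℝ (gradient w) x) = fderiv ℝ (gradient w) x := by
  have hg2 : ContDiff ℝ 2 (gradient w) := contDiff_gradient h.smooth (by norm_num)
  have hB1 : ContDiff ℝ 1 (fderiv ℝ (gradient w)) := hg2.fderiv_right (by norm_num)
  set e := gradient w x with he
  set L := w x with hL
  set B : E → E →L[ℝ] E := fderiv ℝ (gradient w) with hB
  set y : ℝ → E := fun t => x - t • e with hy
  have hyd : ∀ s, HasDerivAt y (-e) s := by
    intro s
    have h1 : HasDerivAt (fun t : ℝ => t • e) ((1 : ℝ) • e) s := (hasDerivAt_id s).smul_const e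
    rw [one_smul] at h1
    exact h1.const_sub x
  have hray : ∀ t ∈ Icc 0 L, gradient w (y t) = e ∧ w (y t) = L - t := fun t ht =>
    h.ray_pos hx0 hx t ht
  have hBd : ∀ t ∈ Icc 0 L, HasDerivAt (fun s => B (y s)) (B (y t) * B (y t)) t := by
    intro t ht
    have h1 : HasFDerivAt B (fderiv ℝ B (y t)) (y t) :=
      (hB1.differentiable (by norm_num) _).hasFDerivAt
    have h2 := h1.comp_hasDerivAt t (hyd t)
    have h3 : |w (y t)| < δ := by
      rw [(hray t ht).2, abs_of_nonneg (by linarith [ht.2])]; linarith [ht.1]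
    have h4 := h.riccati h3
    rw [(hray t ht).1] at h4
    have h5 : fderiv ℝ B (y t) (-e) = B (y t) * B (y t) := by
      rw [map_neg, hB, h4, neg_neg]; rfl
    rw [h5] at h2
    exact h2
  -- `Z t = B (y t) (1 - t B(x)) - B(x)` solves a linear equation
  have hZ : ∀ t ∈ Icc 0 L, B (y t) * (1 - t • B x) - B x = 0 := by
    have hx00 : B (y 0) = B x := by simp [hy]
    have hcont : ContinuousOn (fun t : ℝ => B (y t) * (1 - t • B x) - B x) (Icc 0 L) := by
      have : Continuous fun t : ℝ => B (y t) := hB1.continuous.comp (by rw [hy]; fun_prop)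
      exact ((this.mul (continuous_const.sub (continuous_id.smul continuous_const))).sub
        continuous_const).continuousOn
    have hK : ∀ t ∈ Icc 0 L, ‖B (y t)‖ ≤ C := by
      intro t ht
      apply h.hess_le
      rw [(hray t ht).2, abs_of_nonneg (by linarith [ht.2])]; linarith [ht.1]
    have hg : ∀ t ∈ Icc 0 L, ‖B (y t) * (1 - t • B x) - B x‖ ≤ gronwallBound 0 C 0 (t - 0) := by
      apply norm_le_gronwallBound_of_norm_deriv_right_le
        (f' := fun t => (B (y t) * B (y t)) * (1 - t • B x) + B (y t) * (-((1 : ℝ) • B x)))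
      · exact hcont
      · intro t ht
        have h1 := hBd t ⟨ht.1, ht.2.le⟩
        have h2 : HasDerivAt (fun t : ℝ => (1 : E →L[ℝ] E) - t • B x) (-((1 : ℝ) • B x)) t :=
          ((hasDerivAt_id t).smul_const (B x)).const_sub 1
        exact ((h1.mul h2).sub_const (B x)).hasDerivWithinAt
      · rw [hx00]; simp
      · intro t ht
        have e1 : (B (y t) * B (y t)) * (1 - t • B x) + B (y t) * (-((1 : ℝ) • B x))
            = B (y t) * (B (y t) * (1 - t • B x) - B x) := by
          rw [one_smul, mul_assoc, mul_neg, ← sub_eq_add_neg, ← mul_sub]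
        rw [e1, add_zero]
        exact (norm_mul_le _ _).trans
          (mul_le_mul_of_nonneg_right (hK t ⟨ht.1, ht.2.le⟩) (norm_nonneg _))
    intro t ht
    have := hg t ht
    rw [gronwallBound_ε0_δ0] at this
    exact norm_le_zero_iff.1 this
  exact sub_eq_zero.1 (hZ L ⟨hx0, le_rfl⟩)

/-- **The exact shrinker equation in the tube**, on the positive side. -/
lemma exact_pos (h : IsTubeShrinker S w δ C) {x : E} (hx0 : 0 ≤ w x) (hx : w x < δ)
    {N : E →L[ℝ] E} (hN : (1 - w x • fderiv ℝ (gradient w) x) * N = 1) :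
    LinearMap.trace ℝ E (fderiv ℝ (gradient w) x * N).toLinearMap
      = ⟪x, gradient w x⟫ / 2 - w x / 2 := by
  have h1 := hess_foot_pos h hx0 hx
  obtain ⟨h2, h3⟩ := h.ray_pos hx0 hx (w x) ⟨hx0, le_rfl⟩
  rw [sub_self] at h3
  have h4 := h.shrinker _ ((h.mem_iff _).2 h3)
  have h5 : fderiv ℝ (gradient w) x * N = fderiv ℝ (gradient w) (x - w x • gradient w x) := by
    rw [← h1, mul_assoc, hN, mul_one]
  rw [h5]
  unfold lap at h4
  rw [h4, h2, inner_sub_left, real_inner_smul_left, real_inner_self_eq_norm_sq,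
    h.norm_grad x (by rw [abs_of_nonneg hx0]; exact hx)]
  ring

/-- **The exact shrinker equation in the tube** `tr (B (1 - w B)⁻¹) = ⟨x, ∇w⟩/2 - w/2`,
`B = D²w`. -/
theorem exact_eq (h : IsTubeShrinker S w δ C) {x : E} (hx : |w x| < δ)
    {N : E →L[ℝ] E} (hN : (1 - w x • fderiv ℝ (gradient w) x) * N = 1) :
    LinearMap.trace ℝ E (fderiv ℝ (gradient w) x * N).toLinearMap
      = ⟪x, gradient w x⟫ / 2 - w x / 2 := by
  rcases le_total 0 (w x) with h0 | h0
  · rw [abs_of_nonneg h0] at hx
    exact exact_pos h h0 hx hN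
  · rw [abs_of_nonpos h0] at hx
    have e1 : gradient (fun x => -w x) = fun x => - gradient w x := by
      ext x; exact gradient_neg' w x
    have e2 : fderiv ℝ (gradient (fun x => -w x)) x = - fderiv ℝ (gradient w) x := by
      rw [e1, fderiv_fun_neg]
    have h1 := exact_pos h.neg (x := x) (N := N) (by simpa using h0) hx
      (by rw [e2, neg_smul_neg]; exact hN)
    rw [e2, gradient_neg', inner_neg_right, neg_mul, ContinuousLinearMap.toLinearMap_neg,
      map_neg] at h1
    linarith

end Vale.Agent.P218.H333
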