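import Vale.Agent.P218.H333.JacSmall

/-! Joint regularity of a family of functions, and the almost Jacobi identity of a family of
self-shrinkers. -/

open MeasureTheory Set Filter Topology Metric
open scoped ENNReal NNReal RealInnerProductSpace

set_option linter.unusedSectionVars false

namespace Vale.Agent.P218.H333

open Vale.Agent.P218.H63 (IsTubeShrinker lap hessSq)
open Vale.Agent.P218.H313 (grad tr trL abs_tr_le trL_apply riesz jac)

variable {E : Type*} [NormedAddCommGroup E] [InnerProductSpace ℝ E] [FiniteDimensional ℝ E]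
variable {P : Type*} [NormedAddCommGroup P] [NormedSpace ℝ P]

section joint

variable {f : P → E → ℝ}

/-- the gradient in the second variable -/
lemma grad_sec (f : P → E → ℝ) (p : P × E) :
    grad (f p.1) p.2 = riesz E (secX (fun p : P × E => f p.1 p.2) p) := rfl

lemma cd_grad {n k : WithTop ℕ∞} (hf : ContDiff ℝ k fun p : P × E => f p.1 p.2)
    (hn : n + 1 ≤ k) (hk : k ≠ 0) : ContDiff ℝ n fun p : P × E => grad (f p.1) p.2 :=
  (riesz E).contDiff.comp (cd_secX hf hn hk)

lemma cd_hess (hf : ContDiff ℝ 3 fun p : P × E => f p.1 p.2) :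
    ContDiff ℝ 1 fun p : P × E => fderiv ℝ (grad (f p.1)) p.2 :=
  cd_secX (H := fun p : P × E => grad (f p.1) p.2) (n := 1) (k := 2)
    (cd_grad hf (by norm_num) (by norm_num)) (by norm_num) (by norm_num)

lemma continuous_hess (hf : ContDiff ℝ 2 fun p : P × E => f p.1 p.2) :
    Continuous fun p : P × E => fderiv ℝ (grad (f p.1)) p.2 :=
  (cd_secX (H := fun p : P × E => grad (f p.1) p.2) (n := 0) (k := 1)
    (cd_grad hf (by norm_num) (by norm_num)) (by norm_num) (by norm_num)).continuous

lemma cd_vel {n k : WithTop ℕ∞} (hf : ContDiff ℝ k fun p : P × E => f p.1 p.2)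
    (hn : n + 1 ≤ k) (hk : k ≠ 0) (b : P) : ContDiff ℝ n fun p : P × E => velocity f p.1 b p.2 :=
  cd_secP hf hn hk b

/-- the gradient of the velocity is the velocity of the gradient -/
lemma grad_vel (hf : ContDiff ℝ 2 fun p : P × E => f p.1 p.2) (b : P) (p : P × E) :
    grad (velocity f p.1 b) p.2 = secP b (fun p : P × E => grad (f p.1) p.2) p := by
  have h1 : grad (velocity f p.1 b) p.2
      = riesz E (secX (secP b fun p : P × E => f p.1 p.2) p) := rfl
  rw [h1, sec_comm hf]
  have h2 : ContDiff ℝ 1 (secX fun p : P × E => f p.1 p.2) :=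
    cd_secX hf (by norm_num) (by norm_num)
  have h3 : ContDiff ℝ 1 fun a : P => secX (fun p : P × E => f p.1 p.2) (a, p.2) :=
    h2.comp (contDiff_id.prodMk contDiff_const)
  have h4 := (riesz E).hasFDerivAt.comp p.1 (h3.differentiable (by norm_num) p.1).hasFDerivAt
  have h5 : fderiv ℝ (fun a : P => grad (f a) p.2) p.1
      = (riesz E).comp (fderiv ℝ (fun a : P => secX (fun p : P × E => f p.1 p.2) (a, p.2)) p.1) :=
    h4.fderiv
  unfold secP
  simp only
  rw [h5]; rfl

/-- the Hessian of the velocity is the velocity of the Hessian -/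
lemma hess_vel (hf : ContDiff ℝ 3 fun p : P × E => f p.1 p.2) (b : P) (p : P × E) :
    fderiv ℝ (grad (velocity f p.1 b)) p.2
      = secP b (fun p : P × E => fderiv ℝ (grad (f p.1)) p.2) p := by
  have hg : ContDiff ℝ 2 fun p : P × E => grad (f p.1) p.2 := cd_grad hf (by norm_num) (by norm_num)
  have h1 : (fun x => grad (velocity f p.1 b) x)
      = fun x => secP b (fun p : P × E => grad (f p.1) p.2) (p.1, x) := by
    ext1 x; exact grad_vel (hf.of_le (by norm_num)) b (p.1, x)
  have h2 : fderiv ℝ (grad (velocity f p.1 b)) p.2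
      = secX (secP b fun p : P × E => grad (f p.1) p.2) p := by
    unfold secX; rw [← h1]
  rw [h2, sec_comm hg]
  rfl

end joint

section shrinkers

variable {w : P → E → ℝ} {r δ C : ℝ} {q : ℕ}

/-- **The almost Jacobi identity** for the velocities of a family of self-shrinkers. -/
theorem IsShrinkerFamily.jac_small (h : IsShrinkerFamily w r δ C q) {K : ℝ} (hK0 : 0 ≤ K)
    (hCK : C ≤ K) {a : P} (ha : ‖a‖ < r) (b : P) {x : E} (hx : |w a x| < δ)
    (hsm : |w a x| * K ≤ 1 / 4) :
    |jac (w a) (velocity w a b) x| ≤ Module.finrank ℝ E * |w a x|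
      * (6 * K * ‖fderiv ℝ (grad (velocity w a b)) x‖ + 5 * K ^ 3 * |velocity w a b x|) := by
  have h2 : ContDiff ℝ 2 fun p : P × E => w p.1 p.2 := h.smooth.of_le (by norm_num)
  have hgr : ContDiff ℝ 2 fun p : P × E => grad (w p.1) p.2 :=
    cd_grad h.smooth (by norm_num) (by norm_num)
  have hhs : ContDiff ℝ 1 fun p : P × E => fderiv ℝ (grad (w p.1)) p.2 := cd_hess h.smooth
  -- derivatives along the line
  have e0 : a + (0 : ℝ) • b = a := by simp
  have hG : HasDerivAt (fun t : ℝ => w (a + t • b) x) (velocity w a b x) 0 := by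
    have := hasDerivAt_line (H := fun p : P × E => w p.1 p.2) (h.smooth.of_le (by norm_num)) a b x 0
    rw [e0] at this
    exact this
  have hg : HasDerivAt (fun t : ℝ => grad (w (a + t • b)) x) (grad (velocity w a b) x) 0 := by
    have := hasDerivAt_line (hgr.of_le (by norm_num)) a b x 0
    rw [e0, ← grad_vel h2 b (a, x)] at this
    exact this
  have hB : HasDerivAt (fun t : ℝ => fderiv ℝ (grad (w (a + t • b))) x)
      (fderiv ℝ (grad (velocity w a b)) x) 0 := by
    have := hasDerivAt_line hhs a b x 0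
    rw [e0, ← hess_vel h.smooth b (a, x)] at this
    exact this
  -- nearby parameters
  have hline : Continuous fun t : ℝ => a + t • b := by fun_prop
  have hev : ∀ᶠ t : ℝ in 𝓝 0, ‖a + t • b‖ < r ∧ |w (a + t • b) x| < δ := by
    have c1 : Continuous fun t : ℝ => ‖a + t • b‖ := hline.norm
    have c2 : Continuous fun t : ℝ => |w (a + t • b) x| :=
      (h.smooth.continuous.comp (hline.prodMk continuous_const)).abs
    refine (c1.continuousAt.eventually_lt continuousAt_const ?_).and
      (c2.continuousAt.eventually_lt continuousAt_const ?_)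
    · rw [e0]; exact ha
    · rw [e0]; exact hx
  have hex : ∀ᶠ t in 𝓝 (0 : ℝ), ∀ N : E →L[ℝ] E,
      (1 - w (a + t • b) x • fderiv ℝ (grad (w (a + t • b))) x) * N = 1 →
      tr (fderiv ℝ (grad (w (a + t • b))) x * N)
        = ⟪x, grad (w (a + t • b)) x⟫ / 2 - w (a + t • b) x / 2 := by
    filter_upwards [hev] with t ht N hN
    exact exact_eq (h.tube _ ht.1) ht.2 hN
  have hK : ‖fderiv ℝ (grad (w (a + (0 : ℝ) • b))) x‖ ≤ K := by
    rw [e0]; exact ((h.tube a ha).hess_le x hx).trans hCK
  have key := jac_small_line hG hg hB hK0 hK (by rw [e0]; exact hsm) hex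
  rw [e0] at key
  -- the Hessian of the velocity in the normal direction
  have hnn : ⟪fderiv ℝ (grad (velocity w a b)) x (grad (w a) x), grad (w a) x⟫ = 0 := by
    have h3 := hB.clm_apply hg
    rw [e0] at h3
    have h4 : (fun t : ℝ => fderiv ℝ (grad (w (a + t • b))) x (grad (w (a + t • b)) x))
        =ᶠ[𝓝 0] fun _ => 0 := by
      filter_upwards [hev] with t ht
      exact (h.tube _ ht.1).hess_grad ht.2
    have h5 : HasDerivAt (fun t : ℝ => fderiv ℝ (grad (w (a + t • b))) x
        (grad (w (a + t • b)) x)) (0 : E) 0 :=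
      (hasDerivAt_const (0 : ℝ) (0 : E)).congr_of_eventuallyEq h4
    have h6 := h3.unique h5
    have h7 : fderiv ℝ (grad (velocity w a b)) x (grad (w a) x)
        = - fderiv ℝ (grad (w a)) x (grad (velocity w a b) x) := eq_neg_of_add_eq_zero_left h6
    have hw2 : ContDiff ℝ 2 (w a) := (h.tube a ha).smooth.of_le (by norm_num)
    have h8 : fderiv ℝ (grad (w a)) x (grad (w a) x) = 0 := (h.tube a ha).hess_grad hx
    rw [h7, inner_neg_left]
    have h9 := H63.hess_symm hw2 x (grad (velocity w a b) x) (grad (w a) x)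
    change ⟪fderiv ℝ (grad (w a)) x (grad (velocity w a b) x), grad (w a) x⟫
      = ⟪grad (velocity w a b) x, fderiv ℝ (grad (w a)) x (grad (w a) x)⟫ at h9
    rw [h9, h8, inner_zero_right, neg_zero]
  unfold jac
  rw [hnn, sub_zero]
  exact key

end shrinkers

end Vale.Agent.P218.H333
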