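import Vale.Agent.P218.H63.Defs

/-! Finite-dimensional families of self-shrinkers with uniform tubular neighbourhoods. -/

open MeasureTheory Set Filter Topology
open scoped ENNReal NNReal

namespace Vale.Agent.P218.H333

open Vale.Agent.P218.H63 (IsTubeShrinker)

variable {E : Type*} [NormedAddCommGroup E] [InnerProductSpace ℝ E] [FiniteDimensional ℝ E]
variable {P : Type*} [NormedAddCommGroup P] [NormedSpace ℝ P]

/-- the velocity `∂_b w_a` of the family `w` at the parameter `a` in the direction `b` -/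
noncomputable def velocity (w : P → E → ℝ) (a b : P) (x : E) : ℝ :=
  fderiv ℝ (fun a' => w a' x) a b

/-- A `C³` family `S_a = {w_a = 0}`, `‖a‖ < r`, of self-shrinking hypersurfaces with a uniform
tubular neighbourhood (`w_a` is a signed distance function in the tube `{|w_a| < δ}` of `S_a`,
see `IsTubeShrinker`). In the tube the velocities `∂_b w_a` and their first derivatives grow at
most linearly, their second derivatives at most quadratically, and `∂_b' ∂_b w_a` at most
polynomially. -/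
structure IsShrinkerFamily (w : P → E → ℝ) (r δ C : ℝ) (q : ℕ) : Prop where
  pos : 0 < r
  smooth : ContDiff ℝ 3 fun p : P × E => w p.1 p.2
  tube : ∀ a, ‖a‖ < r → IsTubeShrinker {x | w a x = 0} (w a) δ C
  vel_le : ∀ a, ‖a‖ < r → ∀ b x, |w a x| < δ → |velocity w a b x| ≤ C * (1 + ‖x‖) * ‖b‖
  grad_le : ∀ a, ‖a‖ < r → ∀ b x, |w a x| < δ →
    ‖gradient (velocity w a b) x‖ ≤ C * (1 + ‖x‖) * ‖b‖
  hess_le : ∀ a, ‖a‖ < r → ∀ b x, |w a x| < δ →
    ‖fderiv ℝ (gradient (velocity w a b)) x‖ ≤ C * (1 + ‖x‖) ^ 2 * ‖b‖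
  acc_le : ∀ a, ‖a‖ < r → ∀ b b' x, |w a x| < δ →
    |fderiv ℝ (fun a' => velocity w a' b x) a b'| ≤ C * (1 + ‖x‖) ^ q * ‖b‖ * ‖b'‖

end Vale.Agent.P218.H333
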