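import Vale.Agent.P218.H313.Fam
import Vale.Agent.P218.H313.Jac
import Vale.Agent.P218.H333.Family

/-! Families of tube functions with explicit bounds. -/

open MeasureTheory Set Filter Topology Metric
open scoped ENNReal NNReal RealInnerProductSpace

namespace Vale.Agent.P218.H333

open Vale.Agent.P218.H313 (TubeD grad tr jac rho Fam)

variable {E : Type*} [NormedAddCommGroup E] [InnerProductSpace ℝ E] [FiniteDimensional ℝ E]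
variable {P : Type*} [NormedAddCommGroup P] [NormedSpace ℝ P]

/-- A family of tube functions with explicit bounds, including the
second derivatives of the velocities and the almost Jacobi identity `jacb`. -/
structure PFam (V : P → E → ℝ) (V' : P → P →ₗ[ℝ] (E → ℝ)) (r c K : ℝ) (q : ℕ) : Prop where
  rpos : 0 < r
  Knn : 0 ≤ K
  tube : ∀ a, ‖a‖ ≤ r → TubeD (V a) c K
  lip : ∀ a a', ‖a‖ ≤ r → ‖a'‖ ≤ r → ∀ x, |V a x - V a' x| ≤ K * (1 + ‖x‖) ^ q * ‖a - a'‖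
  lipg : ∀ a a', ‖a‖ ≤ r → ‖a'‖ ≤ r → ∀ x,
    ‖grad (V a) x - grad (V a') x‖ ≤ K * (1 + ‖x‖) ^ q * ‖a - a'‖
  taylor : ∀ a a', ‖a‖ ≤ r → ‖a'‖ ≤ r → ∀ x,
    |V a' x - V a x - V' a (a' - a) x| ≤ K * (1 + ‖x‖) ^ q * ‖a' - a‖ ^ 2
  dlip : ∀ a a', ‖a‖ ≤ r → ‖a'‖ ≤ r → ∀ b x,
    |V' a b x - V' a' b x| ≤ K * (1 + ‖x‖) ^ q * ‖a - a'‖ * ‖b‖
  dsm : ∀ a, ‖a‖ ≤ r → ∀ b, ContDiff ℝ 2 (V' a b)
  db0 : ∀ a, ‖a‖ ≤ r → ∀ b x, |V' a b x| ≤ K * (1 + ‖x‖) * ‖b‖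
  db1 : ∀ a, ‖a‖ ≤ r → ∀ b x, ‖grad (V' a b) x‖ ≤ K * (1 + ‖x‖) * ‖b‖
  db2 : ∀ a, ‖a‖ ≤ r → ∀ b x, ‖fderiv ℝ (grad (V' a b)) x‖ ≤ K * (1 + ‖x‖) ^ 2 * ‖b‖
  jacb : ∀ a, ‖a‖ ≤ r → ∀ b x,
    |jac (V a) (V' a b) x| ≤ K * (1 + ‖x‖) ^ 2 * ‖b‖ * |V a x|
  gcont : Continuous fun p : P × E => grad (V p.1) p.2
  qcont : Continuous fun p : P × E =>
    tr ((fderiv ℝ (grad (V p.1)) p.2).comp (fderiv ℝ (grad (V p.1)) p.2))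

end Vale.Agent.P218.H333
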