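import Vale.Agent.P218.H333.Exact
import Vale.Agent.P218.H333.Comm

/-! The velocity of a family of self-shrinkers is almost a Jacobi field in the tube. -/

open MeasureTheory Set Filter Topology Metric
open scoped ENNReal NNReal RealInnerProductSpace

set_option linter.unusedSectionVars false

namespace Vale.Agent.P218.H333

open Vale.Agent.P218.H313 (grad tr trL abs_tr_le trL_apply)

variable {E : Type*} [NormedAddCommGroup E] [InnerProductSpace ℝ E] [FiniteDimensional ℝ E]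

/-- the derivative of `t ↦ tr (B (1 - G B)⁻¹)` -/
lemma deriv_resolvent {G : ℝ → ℝ} {B : ℝ → E →L[ℝ] E} {ζ : ℝ} {B' : E →L[ℝ] E}
    (hG : HasDerivAt G ζ 0) (hB : HasDerivAt B B' 0) (hsm : ‖G 0 • B 0‖ < 1) :
    ∃ N : ℝ → E →L[ℝ] E, (∀ᶠ t in 𝓝 (0 : ℝ), (1 - G t • B t) * N t = 1) ∧
      N 0 * (1 - G 0 • B 0) = 1 ∧
      HasDerivAt (fun t => tr (B t * N t))
        (tr (B' * N 0) + tr (B 0 * (N 0 * ((ζ • B 0 + G 0 • B') * N 0)))) 0 := by
  have := FiniteDimensional.complete ℝ E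
  set X : ℝ → E →L[ℝ] E := fun t => 1 - G t • B t with hX
  set u : (E →L[ℝ] E)ˣ := Units.oneSub (G 0 • B 0) hsm with hu
  have hu0 : (u : E →L[ℝ] E) = X 0 := rfl
  have hXd : HasDerivAt X (-(G 0 • B' + ζ • B 0)) 0 := (hG.smul hB).const_sub 1
  have h1 : HasFDerivAt Ring.inverse
      (-ContinuousLinearMap.mulLeftRight ℝ (E →L[ℝ] E) ((u⁻¹ : (E →L[ℝ] E)ˣ) : E →L[ℝ] E)
        ((u⁻¹ : (E →L[ℝ] E)ˣ) : E →L[ℝ] E)) (X 0) := by
    rw [← hu0]; exact hasFDerivAt_ringInverse u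
  have h2 := h1.comp_hasDerivAt 0 hXd
  have hN0 : Ring.inverse (X 0) = ((u⁻¹ : (E →L[ℝ] E)ˣ) : E →L[ℝ] E) := by
    rw [← hu0]; exact Ring.inverse_unit u
  refine ⟨fun t => Ring.inverse (X t), ?_, ?_, ?_⟩
  · have hcont : ContinuousAt X 0 := hXd.continuousAt
    have h3 : ∀ᶠ t in 𝓝 (0 : ℝ), IsUnit (X t) :=
      hcont.eventually (Units.isOpen.mem_nhds ⟨u, hu0⟩)
    filter_upwards [h3] with t ht
    exact Ring.mul_inverse_cancel _ ht
  · exact Ring.inverse_mul_cancel _ ⟨u, hu0⟩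
  · have h4 : HasDerivAt (fun t => B t * Ring.inverse (X t))
        (B' * Ring.inverse (X 0) + B 0 * (-ContinuousLinearMap.mulLeftRight ℝ (E →L[ℝ] E)
          ((u⁻¹ : (E →L[ℝ] E)ˣ) : E →L[ℝ] E) ((u⁻¹ : (E →L[ℝ] E)ˣ) : E →L[ℝ] E))
          (-(G 0 • B' + ζ • B 0))) 0 := hB.mul h2
    have e : (-ContinuousLinearMap.mulLeftRight ℝ (E →L[ℝ] E)
          ((u⁻¹ : (E →L[ℝ] E)ˣ) : E →L[ℝ] E) ((u⁻¹ : (E →L[ℝ] E)ˣ) : E →L[ℝ] E))
          (-(G 0 • B' + ζ • B 0))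
        = Ring.inverse (X 0) * ((ζ • B 0 + G 0 • B') * Ring.inverse (X 0)) := by
      rw [hN0, add_comm (ζ • B 0), neg_apply, map_neg, neg_neg,
        ContinuousLinearMap.mulLeftRight_apply, mul_assoc]
    rw [e] at h4
    have h5 := (trL E).hasFDerivAt.comp_hasDerivAt 0 h4
    exact h5.congr_deriv (by rw [map_add]; rfl)

/-- trace of a product of two operators -/
lemma abs_tr_mul_le (A B : E →L[ℝ] E) : |tr (A * B)| ≤ Module.finrank ℝ E * (‖A‖ * ‖B‖) :=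
  (abs_tr_le _).trans (mul_le_mul_of_nonneg_left (norm_mul_le _ _) (Nat.cast_nonneg _))

/-- **The almost Jacobi identity**: the derivative of the exact shrinker equation. -/
theorem jac_small_line {G : ℝ → ℝ} {g : ℝ → E} {B : ℝ → E →L[ℝ] E} {ζ : ℝ} {gz : E}
    {B' : E →L[ℝ] E} {x : E} {K : ℝ} (hG : HasDerivAt G ζ 0) (hg : HasDerivAt g gz 0)
    (hB : HasDerivAt B B' 0) (hK0 : 0 ≤ K) (hK : ‖B 0‖ ≤ K) (hsm : |G 0| * K ≤ 1 / 4)
    (hex : ∀ᶠ t in 𝓝 (0 : ℝ), ∀ N : E →L[ℝ] E, (1 - G t • B t) * N = 1 →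
      tr (B t * N) = ⟪x, g t⟫ / 2 - G t / 2) :
    |tr B' - 1 / 2 * ⟪x, gz⟫ + (tr (B 0 * B 0) + 1 / 2) * ζ|
      ≤ Module.finrank ℝ E * |G 0| * (6 * K * ‖B'‖ + 5 * K ^ 3 * |ζ|) := by
  have hGB : ‖G 0 • B 0‖ ≤ 1 / 4 := by
    rw [norm_smul, Real.norm_eq_abs]
    exact (mul_le_mul_of_nonneg_left hK (abs_nonneg _)).trans hsm
  obtain ⟨N, hN, hN0, hd⟩ := deriv_resolvent hG hB (by linarith)
  have hN1 : (1 - G 0 • B 0) * N 0 = 1 := hN.self_of_nhds
  have e1 : (fun t => tr (B t * N t)) =ᶠ[𝓝 0] fun t => ⟪x, g t⟫ / 2 - G t / 2 := by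
    filter_upwards [hN, hex] with t h1 h2 using h2 _ h1
  have hd2 : HasDerivAt (fun t => ⟪x, g t⟫ / 2 - G t / 2) (⟪x, gz⟫ / 2 - ζ / 2) 0 := by
    have h1 : HasDerivAt (fun t => ⟪x, g t⟫) ⟪x, gz⟫ 0 := by
      have := (hasDerivAt_const (0 : ℝ) x).inner ℝ hg
      simpa using this
    exact (h1.div_const 2).sub (hG.div_const 2)
  have key := (hd.congr_of_eventuallyEq e1.symm).unique hd2
  set b := B 0 with hb
  set n := N 0 with hn
  set γ := G 0 with hγ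
  set d : ℝ := (Module.finrank ℝ E : ℝ) with hdd
  have hd0 : 0 ≤ d := Nat.cast_nonneg _
  have en : n = 1 + γ • (b * n) := by
    have : n - γ • (b * n) = 1 := by rw [← hN1, sub_mul, one_mul, smul_mul_assoc]
    rw [← this]; abel
  have h1 : ‖(1 : E →L[ℝ] E)‖ ≤ 1 := ContinuousLinearMap.norm_id_le
  have hγ0 := abs_nonneg γ
  have hn2 : ‖n‖ ≤ 2 := by
    have h2 : ‖n‖ ≤ 1 + 1 / 4 * ‖n‖ := by
      calc ‖n‖ = ‖1 + (γ • b) * n‖ := by rw [smul_mul_assoc, ← en]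
        _ ≤ ‖(1 : E →L[ℝ] E)‖ + ‖γ • b‖ * ‖n‖ := (norm_add_le _ _).trans (by
            gcongr; exact norm_mul_le _ _)
        _ ≤ 1 + 1 / 4 * ‖n‖ := by gcongr
    linarith
  have hbn : ‖b * n‖ ≤ 2 * K := by
    refine (norm_mul_le _ _).trans ?_
    have := mul_le_mul hK hn2 (norm_nonneg _) hK0
    linarith
  set X := b * (b * n) with hX
  have hXn : ‖X‖ ≤ 2 * K ^ 2 := by
    refine (norm_mul_le _ _).trans ?_
    have := mul_le_mul hK hbn (norm_nonneg _) hK0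
    nlinarith
  have eb : b * n = b + γ • X := by
    conv_lhs => rw [en]
    rw [mul_add, mul_one, mul_smul_comm]
  -- the three differences
  have t1 : |tr B' - tr (B' * n)| ≤ d * |γ| * (2 * K * ‖B'‖) := by
    have e : tr B' - tr (B' * n) = -(γ * tr (B' * (b * n))) := by
      conv_lhs => rw [en]
      rw [mul_add, mul_one, mul_smul_comm, H313.tr_add, H313.tr_smul]
      ring
    rw [e, abs_neg, abs_mul]
    have := abs_tr_mul_le B' (b * n)
    calc |γ| * |tr (B' * (b * n))| ≤ |γ| * (d * (‖B'‖ * (2 * K))) := by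
          refine mul_le_mul_of_nonneg_left (this.trans ?_) hγ0
          gcongr
      _ = _ := by ring
  have t2 : |tr (b * b) - tr ((b * n) * (b * n))| ≤ d * |γ| * (5 * K ^ 3) := by
    have e : tr (b * b) - tr ((b * n) * (b * n))
        = -(γ * (tr (b * X) + tr (X * b) + γ * tr (X * X))) := by
      rw [eb]
      have : (b + γ • X) * (b + γ • X) = b * b + γ • (b * X) + γ • (X * b) + γ • γ • (X * X) := by
        simp only [add_mul, mul_add, smul_mul_assoc, mul_smul_comm, smul_add]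
        abel
      rw [this, H313.tr_add, H313.tr_add, H313.tr_add, H313.tr_smul, H313.tr_smul, H313.tr_smul,
        H313.tr_smul]
      ring
    rw [e, abs_neg, abs_mul]
    have a1 := abs_tr_mul_le b X
    have a2 := abs_tr_mul_le X b
    have a3 := abs_tr_mul_le X X
    have b1 : ‖b‖ * ‖X‖ ≤ 2 * K ^ 3 := by
      have := mul_le_mul hK hXn (norm_nonneg _) hK0
      nlinarith
    have b3 : ‖X‖ * ‖X‖ ≤ 4 * K ^ 4 := by
      have := mul_le_mul hXn hXn (norm_nonneg _) (by positivity)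
      nlinarith
    have c1 : |tr (b * X)| ≤ d * (2 * K ^ 3) := a1.trans (by gcongr)
    have c2 : |tr (X * b)| ≤ d * (2 * K ^ 3) := a2.trans (by rw [mul_comm ‖X‖]; gcongr)
    have c3 : |tr (X * X)| ≤ d * (4 * K ^ 4) := a3.trans (by gcongr)
    have c4 : |γ * tr (X * X)| ≤ d * K ^ 3 := by
      rw [abs_mul]
      calc |γ| * |tr (X * X)| ≤ |γ| * (d * (4 * K ^ 4)) := by gcongr
        _ = (|γ| * K) * (4 * (d * K ^ 3)) := by ring
        _ ≤ 1 / 4 * (4 * (d * K ^ 3)) := by gcongr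
        _ = _ := by ring
    have c5 := abs_add_le (tr (b * X) + tr (X * b)) (γ * tr (X * X))
    have c6 := abs_add_le (tr (b * X)) (tr (X * b))
    calc |γ| * |tr (b * X) + tr (X * b) + γ * tr (X * X)| ≤ |γ| * (d * (5 * K ^ 3)) := by
          refine mul_le_mul_of_nonneg_left ?_ hγ0
          linarith
      _ = _ := by ring
  have t3 : |γ * tr ((b * n) * (B' * n))| ≤ d * |γ| * (4 * K * ‖B'‖) := by
    rw [abs_mul]
    have a1 := abs_tr_mul_le (b * n) (B' * n)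
    have a2 : ‖B' * n‖ ≤ 2 * ‖B'‖ := by
      refine (norm_mul_le _ _).trans ?_
      have := mul_le_mul_of_nonneg_left hn2 (norm_nonneg B')
      linarith
    calc |γ| * |tr ((b * n) * (B' * n))| ≤ |γ| * (d * ((2 * K) * (2 * ‖B'‖))) := by
          refine mul_le_mul_of_nonneg_left (a1.trans ?_) hγ0
          gcongr
      _ = _ := by ring
  have e2 : tr (b * (n * ((ζ • b + γ • B') * n)))
      = ζ * tr ((b * n) * (b * n)) + γ * tr ((b * n) * (B' * n)) := by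
    rw [← H313.tr_smul, ← H313.tr_smul, ← H313.tr_add]
    congr 1
    simp only [add_mul, mul_add, smul_mul_assoc, mul_smul_comm, mul_assoc]
  rw [e2] at key
  have e3 : tr B' - 1 / 2 * ⟪x, gz⟫ + (tr (b * b) + 1 / 2) * ζ
      = (tr B' - tr (B' * n)) + ζ * (tr (b * b) - tr ((b * n) * (b * n)))
        - γ * tr ((b * n) * (B' * n)) := by linarith
  rw [e3]
  have f1 := abs_sub ((tr B' - tr (B' * n)) + ζ * (tr (b * b) - tr ((b * n) * (b * n))))
    (γ * tr ((b * n) * (B' * n)))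
  have f2 := abs_add_le (tr B' - tr (B' * n)) (ζ * (tr (b * b) - tr ((b * n) * (b * n))))
  have f3 : |ζ * (tr (b * b) - tr ((b * n) * (b * n)))| ≤ |ζ| * (d * |γ| * (5 * K ^ 3)) := by
    rw [abs_mul]; gcongr
  linarith

end Vale.Agent.P218.H333
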