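import Vale.Agent.P218.H333.TruncFam

/-! Third derivatives of the truncation. -/

open MeasureTheory Set Filter Topology Metric
open scoped ENNReal NNReal RealInnerProductSpace

set_option linter.unusedSectionVars false

namespace Vale.Agent.P218.H333

open Vale.Agent.P218.H63
open Vale.Agent.P218.H313 (grad tr jac TubeD contDiff_grad_one grad_mul norm_grad grad_unique
  inner_grad abs_tr_le)

variable {E : Type*} [NormedAddCommGroup E] [InnerProductSpace ℝ E] [FiniteDimensional ℝ E]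

lemma contDiff_Theta3 {a : ℝ} (ha : 0 < a) : ContDiff ℝ 3 (Theta a ha) := by
  have h : ContDiff ℝ (2 + 1) (Theta a ha) := by
    rw [contDiff_succ_iff_deriv]
    refine ⟨fun s => (hasDerivAt_Theta ha s).differentiableAt, by simp, ?_⟩
    have : deriv (Theta a ha) = bmp a ha := funext fun s => (hasDerivAt_Theta ha s).deriv
    rw [this]
    exact (bmp a ha).contDiff
  exact h.of_le (by norm_num)

lemma norm_fderiv_smul_le {F : Type*} [NormedAddCommGroup F] [NormedSpace ℝ F] {f : E → ℝ}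
    {g : E → F} {x : E} (hf : DifferentiableAt ℝ f x) (hg : DifferentiableAt ℝ g x) :
    ‖fderiv ℝ (fun y => f y • g y) x‖ ≤ |f x| * ‖fderiv ℝ g x‖ + ‖fderiv ℝ f x‖ * ‖g x‖ := by
  have h : fderiv ℝ (fun y => f y • g y) x = _ := (hf.hasFDerivAt.smul hg.hasFDerivAt).fderiv
  rw [h]
  refine (norm_add_le _ _).trans ?_
  rw [norm_smul, ContinuousLinearMap.norm_smulRight_apply, Real.norm_eq_abs]

/-- the rank one operator `g ⊗ g'` -/
noncomputable def rk (E : Type*) [NormedAddCommGroup E] [InnerProductSpace ℝ E] :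
    E →L[ℝ] E →L[ℝ] (E →L[ℝ] E) :=
  (ContinuousLinearMap.smulRightL ℝ E E).comp (innerSL ℝ)

lemma rk_apply (g g' v : E) : rk E g g' v = ⟪g, v⟫ • g' := by
  simp [rk, ContinuousLinearMap.smulRightL]

lemma norm_rk_le (g g' : E) : ‖rk E g g'‖ ≤ ‖g‖ * ‖g'‖ := by
  refine ContinuousLinearMap.opNorm_le_bound _ (by positivity) fun v => ?_
  rw [rk_apply, norm_smul, Real.norm_eq_abs]
  have := abs_real_inner_le_norm g v
  calc |⟪g, v⟫| * ‖g'‖ ≤ (‖g‖ * ‖v‖) * ‖g'‖ := by gcongr
    _ = _ := by ring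

lemma norm_fderiv_rk_le {g : E → E} {x : E} (hg : DifferentiableAt ℝ g x) :
    ‖fderiv ℝ (fun y => rk E (g y) (g y)) x‖ ≤ 2 * (‖g x‖ * ‖fderiv ℝ g x‖) := by
  have h : HasFDerivAt (fun y => rk E (g y) (g y)) _ x :=
    (rk E).hasFDerivAt_of_bilinear hg.hasFDerivAt hg.hasFDerivAt
  rw [h.fderiv]
  refine ContinuousLinearMap.opNorm_le_bound _ (by positivity) fun v => ?_
  have e : ((rk E).precompR E (g x) (fderiv ℝ g x) + (rk E).precompL E (fderiv ℝ g x) (g x)) v
      = rk E (g x) (fderiv ℝ g x v) + rk E (fderiv ℝ g x v) (g x) := by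
    simp
  rw [e]
  refine (norm_add_le _ _).trans ?_
  have h1 := norm_rk_le (g x) (fderiv ℝ g x v)
  have h2 := norm_rk_le (fderiv ℝ g x v) (g x)
  have h3 := (fderiv ℝ g x).le_opNorm v
  have h4 : ‖g x‖ * ‖fderiv ℝ g x v‖ ≤ ‖g x‖ * (‖fderiv ℝ g x‖ * ‖v‖) := by gcongr
  linarith

/-- **the third derivative of the truncation** in the tube -/
lemma norm_third_theta_le {w : E → ℝ} (hw : ContDiff ℝ 3 w) {a : ℝ} (ha : 0 < a) {M : ℝ}
    (hM1 : ∀ s, |deriv (bmp a ha) s| ≤ M) (hM2 : ∀ s, |deriv (deriv (bmp a ha)) s| ≤ M) (x : E)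
    (hg1 : ‖grad w x‖ = 1) {K D : ℝ} (hK : ‖fderiv ℝ (grad w) x‖ ≤ K)
    (hD : ‖fderiv ℝ (fderiv ℝ (grad w)) x‖ ≤ D) :
    ‖fderiv ℝ (fderiv ℝ (grad fun y => Theta a ha (w y))) x‖ ≤ D + M * K + (M * (2 * K) + M) := by
  have hM0 : 0 ≤ M := (abs_nonneg _).trans (hM1 0)
  have hw1 : ContDiff ℝ 1 w := hw.of_le (by norm_num)
  have hw2 : ContDiff ℝ 2 w := hw.of_le (by norm_num)
  have hg : ContDiff ℝ 2 (grad w) := contDiff_gradient hw (by norm_num)
  have hB : ContDiff ℝ 1 (fderiv ℝ (grad w)) := hg.fderiv_right (by norm_num)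
  have hβ1 : ContDiff ℝ 1 (bmp a ha) := (bmp a ha).contDiff
  have hβ2 : ContDiff ℝ (1 + 1) (bmp a ha) := (bmp a ha).contDiff
  have hβ' : ContDiff ℝ 1 (deriv (bmp a ha)) := (contDiff_succ_iff_deriv.1 hβ2).2.2
  have hgd : ∀ y, HasFDerivAt (grad w) (fderiv ℝ (grad w) y) y := fun y =>
    (hg.differentiable (by norm_num) y).hasFDerivAt
  have hwd : ∀ y, HasFDerivAt w (fderiv ℝ w y) y := fun y =>
    (hw1.differentiable (by norm_num) y).hasFDerivAt
  have hb : ∀ y, HasFDerivAt (fun y => bmp a ha (w y))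
      (deriv (bmp a ha) (w y) • fderiv ℝ w y) y := fun y =>
    ((hβ1.differentiable (by norm_num) _).hasDerivAt).comp_hasFDerivAt y (hwd y)
  have hb' : ∀ y, HasFDerivAt (fun y => deriv (bmp a ha) (w y))
      (deriv (deriv (bmp a ha)) (w y) • fderiv ℝ w y) y := fun y =>
    ((hβ'.differentiable (by norm_num) _).hasDerivAt).comp_hasFDerivAt y (hwd y)
  have e1 : grad (fun y => Theta a ha (w y)) = fun y => bmp a ha (w y) • grad w y := by
    ext1 y
    exact gradient_comp (hw1.differentiable (by norm_num) y) (hasDerivAt_Theta ha _)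
  have e2 : fderiv ℝ (grad fun y => Theta a ha (w y))
      = fun y => bmp a ha (w y) • fderiv ℝ (grad w) y
        + deriv (bmp a ha) (w y) • rk E (grad w y) (grad w y) := by
    ext1 y
    have h1 : fderiv ℝ (fun y => bmp a ha (w y) • grad w y) y = _ := ((hb y).smul (hgd y)).fderiv
    rw [e1, h1]
    congr 1
    ext v
    simp only [ContinuousLinearMap.smulRight_apply, smul_apply, rk_apply, inner_grad, smul_eq_mul]
    rw [mul_smul]
  rw [e2]
  have hwn : ‖fderiv ℝ w x‖ = 1 := by rw [← norm_grad]; exact hg1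
  have d1 : DifferentiableAt ℝ (fun y => bmp a ha (w y) • fderiv ℝ (grad w) y) x :=
    (hb x).differentiableAt.smul (hB.differentiable (by norm_num) x)
  have d3 : DifferentiableAt ℝ (fun y => rk E (grad w y) (grad w y)) x :=
    ((rk E).hasFDerivAt_of_bilinear (hgd x) (hgd x)).differentiableAt
  have d2 : DifferentiableAt ℝ (fun y => deriv (bmp a ha) (w y) • rk E (grad w y) (grad w y)) x :=
    (hb' x).differentiableAt.smul d3
  have e3 : fderiv ℝ (fun y => bmp a ha (w y) • fderiv ℝ (grad w) y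
        + deriv (bmp a ha) (w y) • rk E (grad w y) (grad w y)) x
      = fderiv ℝ (fun y => bmp a ha (w y) • fderiv ℝ (grad w) y) x
        + fderiv ℝ (fun y => deriv (bmp a ha) (w y) • rk E (grad w y) (grad w y)) x :=
    fderiv_fun_add d1 d2
  rw [e3]
  refine le_trans (ContinuousLinearMap.opNorm_add_le _ _) ?_
  refine add_le_add ?_ ?_
  · refine (norm_fderiv_smul_le (hb x).differentiableAt
      (hB.differentiable (by norm_num) x)).trans ?_
    rw [(hb x).fderiv, norm_smul, hwn, mul_one, Real.norm_eq_abs]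
    have h0 : |bmp a ha (w x)| ≤ 1 := by
      rw [abs_of_nonneg (bmp a ha).nonneg]; exact (bmp a ha).le_one
    have h1 : |bmp a ha (w x)| * ‖fderiv ℝ (fderiv ℝ (grad w)) x‖ ≤ 1 * D := by gcongr
    have h2 : |deriv (bmp a ha) (w x)| * ‖fderiv ℝ (grad w) x‖ ≤ M * K := by
      have := hM1 (w x)
      gcongr
    linarith
  · refine (norm_fderiv_smul_le (hb' x).differentiableAt d3).trans ?_
    rw [(hb' x).fderiv, norm_smul, hwn, mul_one, Real.norm_eq_abs]
    have h0 : ‖fderiv ℝ (fun y => rk E (grad w y) (grad w y)) x‖ ≤ 2 * K := by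
      refine (norm_fderiv_rk_le (hgd x).differentiableAt).trans ?_
      rw [hg1]; linarith
    have h1 : |deriv (bmp a ha) (w x)| * ‖fderiv ℝ (fun y => rk E (grad w y) (grad w y)) x‖
        ≤ M * (2 * K) :=
      mul_le_mul (hM1 _) h0 (ContinuousLinearMap.opNorm_nonneg _) hM0
    have h2 : |deriv (deriv (bmp a ha)) (w x)| * ‖rk E (grad w x) (grad w x)‖ ≤ M * 1 := by
      refine mul_le_mul (hM2 _) ?_ (norm_nonneg _) hM0
      refine (norm_rk_le _ _).trans ?_
      rw [hg1]; norm_num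
    linarith

end Vale.Agent.P218.H333
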