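import Vale.Agent.P218.H333.TruncTube

/-! The truncated family of a family of self-shrinkers. -/

open MeasureTheory Set Filter Topology Metric
open scoped ENNReal NNReal RealInnerProductSpace

set_option linter.unusedSectionVars false

namespace Vale.Agent.P218.H333

open Vale.Agent.P218.H63
open Vale.Agent.P218.H313 (grad tr jac TubeD contDiff_grad_one grad_mul norm_grad grad_unique
  inner_grad abs_tr_le)

variable {E : Type*} [NormedAddCommGroup E] [InnerProductSpace ℝ E] [FiniteDimensional ℝ E]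
variable {P : Type*} [NormedAddCommGroup P] [NormedSpace ℝ P]

section calculus

lemma hess_mul_le {f g : E → ℝ} (hf : ContDiff ℝ 2 f) (hg : ContDiff ℝ 2 g) (x : E) :
    ‖fderiv ℝ (grad (fun y => f y * g y)) x‖ ≤ |f x| * ‖fderiv ℝ (grad g) x‖
      + 2 * (‖grad f x‖ * ‖grad g x‖) + |g x| * ‖fderiv ℝ (grad f) x‖ := by
  have e : grad (fun y => f y * g y) = fun y => f y • grad g y + g y • grad f y := by
    ext1 y
    exact grad_mul (hf.differentiable (by norm_num) y) (hg.differentiable (by norm_num) y)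
  have hf1 := (hf.differentiable (by norm_num) x).hasFDerivAt
  have hg1 := (hg.differentiable (by norm_num) x).hasFDerivAt
  have hf2 := ((contDiff_grad_one hf).differentiable (by norm_num) x).hasFDerivAt
  have hg2 := ((contDiff_grad_one hg).differentiable (by norm_num) x).hasFDerivAt
  have h := ((hf1.smul hg2).add (hg1.smul hf2)).fderiv
  have h' : fderiv ℝ (fun y => f y • grad g y + g y • grad f y) x = _ := h
  rw [e, h']
  refine (norm_add_le _ _).trans ?_
  have a1 := norm_add_le (f x • fderiv ℝ (grad g) x) ((fderiv ℝ f x).smulRight (grad g x))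
  have a2 := norm_add_le (g x • fderiv ℝ (grad f) x) ((fderiv ℝ g x).smulRight (grad f x))
  rw [norm_smul, ContinuousLinearMap.norm_smulRight_apply, ← norm_grad, Real.norm_eq_abs] at a1 a2
  linarith [mul_comm ‖grad f x‖ ‖grad g x‖]

lemma grad_comp' {θ : ℝ → ℝ} (hθ : ContDiff ℝ 1 θ) {w : E → ℝ} (hw : ContDiff ℝ 1 w) (x : E) :
    grad (fun y => θ (w y)) x = deriv θ (w x) • grad w x :=
  gradient_comp (hw.differentiable (by norm_num) x)
    (hθ.differentiable (by norm_num) _).hasDerivAt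

lemma hess_comp_le {θ : ℝ → ℝ} (hθ : ContDiff ℝ 2 θ) {w : E → ℝ} (hw : ContDiff ℝ 2 w) (x : E) :
    ‖fderiv ℝ (grad (fun y => θ (w y))) x‖ ≤ |deriv θ (w x)| * ‖fderiv ℝ (grad w) x‖
      + |deriv (deriv θ) (w x)| * ‖grad w x‖ ^ 2 := by
  have e : grad (fun y => θ (w y)) = fun y => deriv θ (w y) • grad w y := by
    ext1 y; exact grad_comp' (hθ.of_le (by norm_num)) (hw.of_le (by norm_num)) y
  have hθ' : ContDiff ℝ (1 + 1) θ := by
    have : (1 + 1 : WithTop ℕ∞) = 2 := by norm_num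
    rw [this]; exact hθ
  have hd : ContDiff ℝ 1 (deriv θ) := (contDiff_succ_iff_deriv.1 hθ').2.2
  have h1 : HasDerivAt (deriv θ) (deriv (deriv θ) (w x)) (w x) :=
    (hd.differentiable (by norm_num) _).hasDerivAt
  have h2 := h1.comp_hasFDerivAt x (hw.differentiable (by norm_num) x).hasFDerivAt
  have h3 := ((contDiff_grad_one hw).differentiable (by norm_num) x).hasFDerivAt
  have h := (h2.smul h3).fderiv
  have h' : fderiv ℝ (fun y => deriv θ (w y) • grad w y) x = _ := h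
  rw [e, h']
  refine (norm_add_le _ _).trans ?_
  rw [norm_smul, ContinuousLinearMap.norm_smulRight_apply, norm_smul, ← norm_grad]
  simp only [Function.comp, Real.norm_eq_abs]
  linarith [sq ‖grad w x‖, mul_assoc |deriv (deriv θ) (w x)| ‖grad w x‖ ‖grad w x‖]

/-- bounds for the cutoff -/
lemma exists_bmp_bounds {a : ℝ} (ha : 0 < a) : ∃ M : ℝ, 0 ≤ M ∧ (∀ s, |deriv (bmp a ha) s| ≤ M) ∧
    ∀ s, |deriv (deriv (bmp a ha)) s| ≤ M := by
  obtain ⟨M₁, h0, h1⟩ := exists_deriv_bmp_le ha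
  have h2 : ContDiff ℝ (1 + 1) (bmp a ha) := (bmp a ha).contDiff
  have h3 : ContDiff ℝ 1 (deriv (bmp a ha)) := (contDiff_succ_iff_deriv.1 h2).2.2
  obtain ⟨M₂, h4⟩ := ((bmp a ha).hasCompactSupport.deriv.deriv).exists_bound_of_continuous
    (h3.continuous_deriv (by norm_num))
  refine ⟨max M₁ M₂, h0.trans (le_max_left _ _), fun s => (h1 s).trans (le_max_left _ _),
    fun s => ?_⟩
  have := h4 s
  rw [Real.norm_eq_abs] at this
  exact this.trans (le_max_right _ _)

end calculus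

variable {w : P → E → ℝ} {r δ C K : ℝ} {q : ℕ} {α : ℝ}

/-- the derivative of the truncated family -/
noncomputable def dV (w : P → E → ℝ) (α : ℝ) (hα : 0 < α) (a : P) : P →ₗ[ℝ] (E → ℝ) where
  toFun b := fun x => bmp α hα (w a x) * velocity w a b x
  map_add' b b' := by
    ext x
    simp only [velocity, map_add, Pi.add_apply]
    ring
  map_smul' k b := by
    ext x
    simp only [velocity, map_smul, Pi.smul_apply, RingHom.id_apply, smul_eq_mul]
    ring

lemma dV_apply (w : P → E → ℝ) (hα : 0 < α) (a b : P) (x : E) :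
    dV w α hα a b x = bmp α hα (w a x) * velocity w a b x := rfl

lemma cd_theta (hw : ContDiff ℝ 3 fun p : P × E => w p.1 p.2) (hα : 0 < α) :
    ContDiff ℝ 2 fun p : P × E => Theta α hα (w p.1 p.2) :=
  (contDiff_Theta hα).comp (hw.of_le (by norm_num))

/-- the velocity of the truncated family -/
lemma velocity_theta (hw : ContDiff ℝ 3 fun p : P × E => w p.1 p.2) (hα : 0 < α) (a b : P) :
    velocity (fun a x => Theta α hα (w a x)) a b = dV w α hα a b := by
  ext x
  have h1 : ContDiff ℝ 3 fun a' : P => w a' x := hw.comp (contDiff_id.prodMk contDiff_const)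
  have h2 := (hasDerivAt_Theta hα (w a x)).comp_hasFDerivAt a
    (h1.differentiable (by norm_num) a).hasFDerivAt
  have h3 : fderiv ℝ (fun a' => Theta α hα (w a' x)) a
      = bmp α hα (w a x) • fderiv ℝ (fun a' => w a' x) a := h2.fderiv
  unfold velocity
  rw [h3]; rfl

lemma cd_dV (hw : ContDiff ℝ 3 fun p : P × E => w p.1 p.2) (hα : 0 < α) (b : P) :
    ContDiff ℝ 2 fun p : P × E => dV w α hα p.1 b p.2 := by
  have h1 : ContDiff ℝ 2 fun p : P × E => velocity w p.1 b p.2 :=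
    cd_vel hw (by norm_num) (by norm_num) b
  have h2 : ContDiff ℝ 2 (bmp α hα) := (bmp α hα).contDiff
  exact (h2.comp (hw.of_le (by norm_num))).mul h1

lemma dV_eventually_zero {a : P} (hw : Continuous (w a)) (hα : 0 < α) (b : P) {x : E}
    (hx : 2 * α < |w a x|) : dV w α hα a b =ᶠ[𝓝 x] fun _ => 0 := by
  have : {y | 2 * α < |w a y|} ∈ 𝓝 x := (isOpen_lt continuous_const hw.abs).mem_nhds hx
  filter_upwards [this] with y hy
  rw [dV_apply, bmp_zero hα (le_of_lt hy), zero_mul]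

lemma dV_eventually_eq {a : P} (hw : Continuous (w a)) (hα : 0 < α) (b : P) {x : E}
    (hx : |w a x| < α) : dV w α hα a b =ᶠ[𝓝 x] velocity w a b := by
  have : {y | |w a y| < α} ∈ 𝓝 x := (isOpen_lt hw.abs continuous_const).mem_nhds hx
  filter_upwards [this] with y hy
  rw [dV_apply, bmp_one hα (le_of_lt hy), one_mul]

lemma grad_congr {f g : E → ℝ} {x : E} (h : f =ᶠ[𝓝 x] g) : grad f =ᶠ[𝓝 x] grad g := by
  filter_upwards [h.eventuallyEq_nhds] with y hy
  refine grad_unique fun v => ?_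
  rw [hy.fderiv_eq, inner_grad]

lemma grad_zero_fun (x : E) : grad (fun _ : E => (0 : ℝ)) x = 0 :=
  grad_unique fun v => by simp

/-- **bounds for the truncated velocity** -/
theorem dV_bounds (h : IsShrinkerFamily w r δ C q) (hK0 : 0 ≤ K) (hCK : C ≤ K) (hα : 0 < α)
    (hαδ : 2 * α < δ) {M : ℝ} (hM0 : 0 ≤ M) (hM1 : ∀ s, |deriv (bmp α hα) s| ≤ M)
    (hM2 : ∀ s, |deriv (deriv (bmp α hα)) s| ≤ M) {a : P} (ha : ‖a‖ < r) (b : P) (x : E) :
    |dV w α hα a b x| ≤ K * (1 + ‖x‖) * ‖b‖ ∧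
      ‖grad (dV w α hα a b) x‖ ≤ (1 + M) * K * (1 + ‖x‖) * ‖b‖ ∧
      ‖fderiv ℝ (grad (dV w α hα a b)) x‖ ≤ (1 + 3 * M + M * K) * K * (1 + ‖x‖) ^ 2 * ‖b‖ := by
  have hx1 : 1 ≤ 1 + ‖x‖ := by have := norm_nonneg x; linarith
  have hx2 : 1 + ‖x‖ ≤ (1 + ‖x‖) ^ 2 := by nlinarith
  have hb0 := norm_nonneg b
  have hwa : ContDiff ℝ 3 (w a) := (h.tube a ha).smooth
  have hwa2 : ContDiff ℝ 2 (w a) := hwa.of_le (by norm_num)
  rcases lt_or_ge (|w a x|) δ with hx | hx
  · have v0 : |velocity w a b x| ≤ K * (1 + ‖x‖) * ‖b‖ :=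
      (h.vel_le a ha b x hx).trans (by gcongr)
    have v1 : ‖grad (velocity w a b) x‖ ≤ K * (1 + ‖x‖) * ‖b‖ :=
      (h.grad_le a ha b x hx).trans (by gcongr)
    have v2 : ‖fderiv ℝ (grad (velocity w a b)) x‖ ≤ K * (1 + ‖x‖) ^ 2 * ‖b‖ :=
      (h.hess_le a ha b x hx).trans (by gcongr)
    have hg1 : ‖grad (w a) x‖ = 1 := (h.tube a ha).norm_grad x hx
    have hh1 : ‖fderiv ℝ (grad (w a)) x‖ ≤ K := ((h.tube a ha).hess_le x hx).trans hCK
    have hβ2 : ContDiff ℝ 2 (bmp α hα) := (bmp α hα).contDiff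
    have hβ1 : ContDiff ℝ 1 (bmp α hα) := (bmp α hα).contDiff
    have hζ : ContDiff ℝ 2 (velocity w a b) := by
      have := cd_vel h.smooth (n := 2) (by norm_num) (by norm_num) b
      exact this.comp (contDiff_const.prodMk contDiff_id)
    have hf : ContDiff ℝ 2 fun y => bmp α hα (w a y) := hβ2.comp hwa2
    have b0 : |bmp α hα (w a x)| ≤ 1 := by
      rw [abs_of_nonneg (bmp α hα).nonneg]; exact (bmp α hα).le_one
    have g0 : ‖grad (fun y => bmp α hα (w a y)) x‖ ≤ M := by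
      rw [grad_comp' hβ1 (hwa.of_le (by norm_num)), norm_smul, hg1, mul_one]
      exact hM1 _
    have h0 : ‖fderiv ℝ (grad (fun y => bmp α hα (w a y))) x‖ ≤ M * K + M := by
      refine (hess_comp_le hβ2 hwa2 x).trans ?_
      rw [hg1, one_pow, mul_one]
      exact add_le_add (mul_le_mul (hM1 _) hh1 (norm_nonneg _) hM0) (hM2 _)
    have e : dV w α hα a b = fun y => bmp α hα (w a y) * velocity w a b y := rfl
    rw [e]
    refine ⟨?_, ?_, ?_⟩
    · simp only
      rw [abs_mul]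
      calc _ ≤ 1 * (K * (1 + ‖x‖) * ‖b‖) := by gcongr
        _ = _ := one_mul _
    · rw [grad_mul (hf.differentiable (by norm_num) x) (hζ.differentiable (by norm_num) x)]
      refine (norm_add_le _ _).trans ?_
      rw [norm_smul, norm_smul, Real.norm_eq_abs, Real.norm_eq_abs]
      have i1 : |bmp α hα (w a x)| * ‖grad (velocity w a b) x‖ ≤ 1 * (K * (1 + ‖x‖) * ‖b‖) := by
        gcongr
      have i2 : |velocity w a b x| * ‖grad (fun y => bmp α hα (w a y)) x‖
          ≤ (K * (1 + ‖x‖) * ‖b‖) * M := by gcongr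
      linarith
    · refine (hess_mul_le hf hζ x).trans ?_
      have i1 : |bmp α hα (w a x)| * ‖fderiv ℝ (grad (velocity w a b)) x‖
          ≤ 1 * (K * (1 + ‖x‖) ^ 2 * ‖b‖) := by gcongr
      have i2 : ‖grad (fun y => bmp α hα (w a y)) x‖ * ‖grad (velocity w a b) x‖
          ≤ M * (K * (1 + ‖x‖) ^ 2 * ‖b‖) := by
        refine mul_le_mul g0 (v1.trans ?_) (norm_nonneg _) hM0
        gcongr
      have i3 : |velocity w a b x| * ‖fderiv ℝ (grad (fun y => bmp α hα (w a y))) x‖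
          ≤ (K * (1 + ‖x‖) ^ 2 * ‖b‖) * (M * K + M) := by
        refine mul_le_mul (v0.trans ?_) h0 (norm_nonneg _) (by positivity)
        gcongr
      linarith
  · have hz := dV_eventually_zero hwa.continuous hα b (x := x) (by linarith)
    have hz1 := grad_congr hz
    have hz2 : grad (fun _ : E => (0 : ℝ)) = fun _ => 0 := by ext1 y; exact grad_zero_fun y
    rw [hz2] at hz1
    rw [hz.eq_of_nhds, hz1.eq_of_nhds, hz1.fderiv_eq]
    refine ⟨?_, ?_, ?_⟩
    · rw [abs_zero]; positivity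
    · rw [norm_zero]; positivity
    · rw [fderiv_fun_const]; simp only [Pi.zero_apply, norm_zero]; positivity

/-- the second derivative in the parameter -/
theorem dV_acc (h : IsShrinkerFamily w r δ C q) (hK0 : 0 ≤ K) (hCK : C ≤ K) (hα : 0 < α)
    (hαδ : 2 * α < δ) {M : ℝ} (hM0 : 0 ≤ M) (hM1 : ∀ s, |deriv (bmp α hα) s| ≤ M)
    {a : P} (ha : ‖a‖ < r) (b b' : P) (x : E) :
    |fderiv ℝ (fun a' => dV w α hα a' b x) a b'|
      ≤ (M * K ^ 2 + K) * (1 + ‖x‖) ^ (q + 2) * ‖b‖ * ‖b'‖ := by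
  have hx1 : 1 ≤ 1 + ‖x‖ := by have := norm_nonneg x; linarith
  have hb0 := norm_nonneg b
  have hb0' := norm_nonneg b'
  have hw1 : ContDiff ℝ 1 fun a' : P => w a' x :=
    (h.smooth.comp (contDiff_id.prodMk contDiff_const)).of_le (by norm_num)
  have hζ : ContDiff ℝ 1 fun a' : P => velocity w a' b x := by
    have := cd_vel h.smooth (n := 1) (by norm_num) (by norm_num) b
    exact this.comp (contDiff_id.prodMk contDiff_const)
  have hβ1 : ContDiff ℝ 1 (bmp α hα) := (bmp α hα).contDiff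
  have h1 := ((hβ1.differentiable (by norm_num) (w a x)).hasDerivAt).comp_hasFDerivAt a
    (hw1.differentiable (by norm_num) a).hasFDerivAt
  have h2 := h1.mul (hζ.differentiable (by norm_num) a).hasFDerivAt
  have h3 : fderiv ℝ (fun a' => dV w α hα a' b x) a b'
      = bmp α hα (w a x) * fderiv ℝ (fun a' => velocity w a' b x) a b'
        + velocity w a b x * (deriv (bmp α hα) (w a x) * velocity w a b' x) := by
    have h4 : fderiv ℝ (fun a' => dV w α hα a' b x) a = _ := h2.fderiv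
    rw [h4]; rfl
  rw [h3]
  rcases lt_or_ge (|w a x|) δ with hx | hx
  · have v0 : |velocity w a b x| ≤ K * (1 + ‖x‖) * ‖b‖ :=
      (h.vel_le a ha b x hx).trans (by gcongr)
    have v0' : |velocity w a b' x| ≤ K * (1 + ‖x‖) * ‖b'‖ :=
      (h.vel_le a ha b' x hx).trans (by gcongr)
    have v2 : |fderiv ℝ (fun a' => velocity w a' b x) a b'|
        ≤ K * (1 + ‖x‖) ^ q * ‖b‖ * ‖b'‖ := (h.acc_le a ha b b' x hx).trans (by gcongr)
    have b0 : |bmp α hα (w a x)| ≤ 1 := by
      rw [abs_of_nonneg (bmp α hα).nonneg]; exact (bmp α hα).le_one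
    refine (abs_add_le _ _).trans ?_
    rw [abs_mul, abs_mul, abs_mul]
    have i1 : |bmp α hα (w a x)| * |fderiv ℝ (fun a' => velocity w a' b x) a b'|
        ≤ 1 * (K * (1 + ‖x‖) ^ (q + 2) * ‖b‖ * ‖b'‖) := by
      refine mul_le_mul b0 (v2.trans ?_) (abs_nonneg _) zero_le_one
      have := pow_le_pow_right₀ hx1 (show q ≤ q + 2 by omega)
      gcongr
    have i2 : |velocity w a b x| * (|deriv (bmp α hα) (w a x)| * |velocity w a b' x|)
        ≤ (K * (1 + ‖x‖) * ‖b‖) * (M * (K * (1 + ‖x‖) * ‖b'‖)) := by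
      have := hM1 (w a x)
      gcongr
    have i3 : (K * (1 + ‖x‖) * ‖b‖) * (M * (K * (1 + ‖x‖) * ‖b'‖))
        ≤ M * K ^ 2 * (1 + ‖x‖) ^ (q + 2) * ‖b‖ * ‖b'‖ := by
      have := pow_le_pow_right₀ hx1 (show 2 ≤ q + 2 by omega)
      calc (K * (1 + ‖x‖) * ‖b‖) * (M * (K * (1 + ‖x‖) * ‖b'‖))
          = M * K ^ 2 * (1 + ‖x‖) ^ 2 * ‖b‖ * ‖b'‖ := by ring
        _ ≤ _ := by gcongr
    linarith
  · have : 2 * α ≤ |w a x| := by linarith
    rw [bmp_zero hα this, deriv_bmp_zero hα this]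
    simp only [zero_mul, mul_zero, add_zero, abs_zero]
    positivity

end Vale.Agent.P218.H333
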