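import Vale.Agent.P218.H333.FamW
import Vale.Agent.P218.H313.W1

/-! The truncation of a signed distance function, with explicit constants. -/

open MeasureTheory Set Filter Topology Metric
open scoped ENNReal NNReal RealInnerProductSpace

set_option linter.unusedSectionVars false

namespace Vale.Agent.P218.H333

open Vale.Agent.P218.H63
open Vale.Agent.P218.H313 (grad tr jac TubeD)

variable {E : Type*} [NormedAddCommGroup E] [InnerProductSpace ℝ E] [FiniteDimensional ℝ E]
variable {S : Set E} {w : E → ℝ} {δ K : ℝ}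

/-- **Truncation with explicit constants.** -/
theorem tubeD_theta (h : IsTubeShrinker S w δ K) (hC : 0 ≤ K) {a : ℝ} (ha : 0 < a)
    (haδ : 2 * a < δ) {M : ℝ} (hM0 : 0 ≤ M) (hM : ∀ s, |deriv (bmp a ha) s| ≤ M) :
    TubeD (fun x => Theta a ha (w x)) a
      (2 * a + 1 + (K + M) + 2 * (Module.finrank ℝ E * K
        + δ * (Module.finrank ℝ E * K ^ 2 + 1 / 2) + 2 * Module.finrank ℝ E * K ^ 3 * δ ^ 2)
        + 2 * Module.finrank ℝ E * K ^ 3) := by
  set N : ℝ := (Module.finrank ℝ E : ℝ) with hN
  have hN0 : 0 ≤ N := Nat.cast_nonneg _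
  set W : E → ℝ := fun x => Theta a ha (w x) with hW
  have hw2 : ContDiff ℝ 2 w := h.smooth.of_le (by norm_num)
  have hWs : ContDiff ℝ 2 W := (contDiff_Theta ha).comp hw2
  have hwd : ∀ x, DifferentiableAt ℝ w x := fun x => hw2.differentiable (by norm_num) x
  have hgW : gradient W = fun x => (bmp a ha (w x)) • gradient w x := by
    ext1 x
    exact gradient_comp (hwd x) (hasDerivAt_Theta ha _)
  have hg1 : ContDiff ℝ 1 (gradient w) := contDiff_gradient hw2 (by norm_num)
  have hHW : ∀ x, fderiv ℝ (gradient W) x = (bmp a ha (w x)) • fderiv ℝ (gradient w) x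
      + (deriv (bmp a ha) (w x) • fderiv ℝ w x).smulRight (gradient w x) := by
    intro x
    rw [hgW]
    have h1 : HasFDerivAt (gradient w) (fderiv ℝ (gradient w) x) x :=
      (hg1.differentiable (by norm_num) x).hasFDerivAt
    have hb : HasDerivAt (bmp a ha) (deriv (bmp a ha) (w x)) (w x) := by
      have : ContDiff ℝ 1 (bmp a ha) := (bmp a ha).contDiff
      exact (this.differentiable (by norm_num) _).hasDerivAt
    have h2 : HasFDerivAt (fun x => bmp a ha (w x)) (deriv (bmp a ha) (w x) • fderiv ℝ w x) x :=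
      hb.comp_hasFDerivAt x (hwd x).hasFDerivAt
    exact (h2.smul h1).fderiv
  -- near `S`
  have hnear : ∀ x, |w x| < a → W =ᶠ[𝓝 x] w := by
    intro x hx
    have : {y | |w y| < a} ∈ 𝓝 x :=
      (isOpen_lt hw2.continuous.abs continuous_const).mem_nhds hx
    filter_upwards [this] with y hy
    exact Theta_eq ha (le_of_lt hy)
  have hgn : ∀ x, |w x| < a → gradient W x = gradient w x := by
    intro x hx
    rw [hgW]
    simp only
    rw [bmp_one ha hx.le, one_smul]
  have hHn : ∀ x, |w x| < a → fderiv ℝ (gradient W) x = fderiv ℝ (gradient w) x := by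
    intro x hx
    have : gradient W =ᶠ[𝓝 x] gradient w := by
      have h1 : {y | |w y| < a} ∈ 𝓝 x :=
        (isOpen_lt hw2.continuous.abs continuous_const).mem_nhds hx
      filter_upwards [h1] with y hy using hgn y hy
    exact this.fderiv_eq
  have hWn : ∀ x, |w x| < a → W x = w x := fun x hx => (hnear x hx).self_of_nhds
  have hfar : ∀ x, 2 * a ≤ |w x| → gradient W x = 0 ∧ fderiv ℝ (gradient W) x = 0 := by
    intro x hx
    constructor
    · rw [hgW]; simp only; rw [bmp_zero ha hx, zero_smul]
    · rw [hHW, bmp_zero ha hx, deriv_bmp_zero ha hx, zero_smul, zero_smul]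
      ext v; simp
  -- bounds
  have hK₁0 : 0 ≤ K + M := by positivity
  have hHle : ∀ x, ‖fderiv ℝ (gradient W) x‖ ≤ K + M := by
    intro x
    rcases lt_or_ge (|w x|) (2 * a) with hx | hx
    · have hx' : |w x| < δ := hx.trans haδ
      rw [hHW]
      refine (norm_add_le _ _).trans ?_
      apply add_le_add
      · rw [norm_smul, Real.norm_eq_abs, abs_of_nonneg (bmp a ha).nonneg]
        calc _ ≤ 1 * K := mul_le_mul (bmp a ha).le_one (h.hess_le x hx') (norm_nonneg _)
              zero_le_one
          _ = K := one_mul _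
      · rw [ContinuousLinearMap.norm_smulRight_apply, norm_smul, h.norm_grad x hx', mul_one,
          ← norm_gradient, h.norm_grad x hx', mul_one, Real.norm_eq_abs]
        exact hM _
    · rw [(hfar x hx).2, norm_zero]; exact hK₁0
  have hgle : ∀ x, ‖gradient W x‖ ≤ 1 := by
    intro x
    rcases lt_or_ge (|w x|) (2 * a) with hx | hx
    · rw [hgW]; simp only
      rw [norm_smul, h.norm_grad x (hx.trans haδ), mul_one, Real.norm_eq_abs,
        abs_of_nonneg (bmp a ha).nonneg]
      exact (bmp a ha).le_one
    · rw [(hfar x hx).1, norm_zero]; norm_num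
  have hδ := h.pos
  have hK₂0 : 0 ≤ 2 * (N * K + δ * (N * K ^ 2 + 1 / 2) + 2 * N * K ^ 3 * δ ^ 2) := by positivity
  have hinn : ∀ x, |⟪x, gradient W x⟫|
      ≤ 2 * (N * K + δ * (N * K ^ 2 + 1 / 2) + 2 * N * K ^ 3 * δ ^ 2) := by
    intro x
    rcases lt_or_ge (|w x|) (2 * a) with hx | hx
    · rw [hgW]; simp only
      rw [real_inner_smul_right, abs_mul, abs_of_nonneg (bmp a ha).nonneg]
      have h1 := h.inner_le hC (hx.trans haδ)
      calc _ ≤ 1 * |⟪x, gradient w x⟫| :=
            mul_le_mul_of_nonneg_right (bmp a ha).le_one (abs_nonneg _)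
        _ ≤ _ := by rw [one_mul]; linarith
    · rw [(hfar x hx).1, inner_zero_right, abs_zero]; exact hK₂0
  have hbig : ∀ x, a ≤ |w x| → a ≤ |W x| := fun x hx => Theta_ge ha hx
  have hsmall : ∀ x, |W x| < a → |w x| < a := by
    intro x hx
    by_contra hcon
    push Not at hcon
    have := hbig x hcon
    linarith
  have q3 : 0 ≤ 2 * N * K ^ 3 := by positivity
  have q4 : ∀ x, |W x| ≤ 2 * a := fun x => Theta_le ha _
  refine ⟨ha, hWs, fun x => (q4 x).trans (by linarith),
    fun x => (hgle x).trans (by linarith), fun x => (hHle x).trans (by linarith),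
    fun x => (hinn x).trans (by linarith), fun x hx => ?_, fun x hx => ?_⟩
  · have hx' := hsmall x hx
    rw [H313.grad_eq_gradient, hgn x hx']
    exact h.norm_grad x (by linarith)
  · have hx' := hsmall x hx
    have h1 := h.expand hC (show |w x| < δ by linarith)
    rw [H313.grad_eq_gradient, hgn x hx', hHn x hx', hWn x hx']
    have e : tr (fderiv ℝ (gradient w) x) - 1 / 2 * ⟪x, gradient w x⟫
        + (tr ((fderiv ℝ (gradient w) x).comp (fderiv ℝ (gradient w) x)) + 1 / 2) * w x
        = lap w x - ⟪x, gradient w x⟫ / 2 + w x * (hessSq w x + 1 / 2) := by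
      unfold lap hessSq tr
      ring
    rw [e]
    refine h1.trans (mul_le_mul_of_nonneg_right (by linarith) (sq_nonneg _))

/-- in the small tube the truncation does nothing -/
lemma theta_small {a : ℝ} (ha : 0 < a) {s : ℝ} (hs : |Theta a ha s| < a) : |s| < a := by
  by_contra hcon
  push Not at hcon
  have := Theta_ge ha hcon
  linarith

end Vale.Agent.P218.H333
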