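import Vale.Agent.P218.H333.TruncC3

/-! Truncation of a signed distance function with polynomially bounded third derivatives. -/

open MeasureTheory Set Filter Topology Metric
open scoped ENNReal NNReal RealInnerProductSpace

set_option linter.unusedSectionVars false

namespace Vale.Agent.P218.H333

open Vale.Agent.P218.H63
open Vale.Agent.P218.H313 (grad tr jac TubeD PB contDiff_grad_one grad_mul norm_grad grad_unique
  inner_grad abs_tr_le)

variable {E : Type*} [NormedAddCommGroup E] [InnerProductSpace ℝ E] [FiniteDimensional ℝ E]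
variable {S : Set E} {w : E → ℝ} {δ C : ℝ} {q : ℕ}

/-- **Truncation**, with third derivatives. -/
theorem exists_tubeD3 (h : IsTubeShrinker S w δ C)
    (h3 : ∀ x, |w x| < δ → ‖fderiv ℝ (fderiv ℝ (gradient w)) x‖ ≤ C * (1 + ‖x‖) ^ q) :
    ∃ (W : E → ℝ) (c K : ℝ), TubeD W c K ∧ (∀ x, W x = 0 ↔ x ∈ S) ∧ c < δ ∧
      (∀ x, |w x| < c → W =ᶠ[𝓝 x] w) ∧ (∀ x, |W x| < c → |w x| < c) ∧
      (∀ x, |w x| < c → grad W x = gradient w x) ∧
      (∀ x, |w x| < c → fderiv ℝ (grad W) x = fderiv ℝ (gradient w) x) ∧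
      ContDiff ℝ 3 W ∧ PB (fderiv ℝ (fderiv ℝ (grad W))) := by
  set K := max C 0 with hK
  have hCK : C ≤ K := le_max_left _ _
  have hK0 : 0 ≤ K := le_max_right _ _
  have hδ := h.pos
  set α : ℝ := δ / 4 with hαd
  have hα : 0 < α := by positivity
  have hαδ : 2 * α < δ := by rw [hαd]; linarith
  obtain ⟨M, hM0, hM1, hM2⟩ := exists_bmp_bounds hα
  have ht := tubeD_theta (h.mono hCK) hK0 hα hαδ hM0 hM1
  have hw3 : ContDiff ℝ 3 w := h.smooth
  have hnear : ∀ x, |w x| < α → (fun x => Theta α hα (w x)) =ᶠ[𝓝 x] w := by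
    intro x hx
    have : {y | |w y| < α} ∈ 𝓝 x :=
      (isOpen_lt hw3.continuous.abs continuous_const).mem_nhds hx
    filter_upwards [this] with y hy using Theta_eq hα (le_of_lt hy)
  refine ⟨fun x => Theta α hα (w x), α, _, ht, fun x => ?_, by linarith, hnear,
    fun x hx => theta_small hα hx, fun x hx => ?_, fun x hx => ?_,
    (contDiff_Theta3 hα).comp hw3, ?_⟩
  · rw [h.mem_iff]
    constructor
    · intro h0
      simp only at h0
      have h1 : |w x| < α := theta_small hα (by rw [h0, abs_zero]; exact hα)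
      rwa [Theta_eq hα h1.le] at h0
    · intro h0
      simp only
      rw [Theta_eq hα (by rw [h0, abs_zero]; exact hα.le), h0]
  · exact (grad_congr (hnear x hx)).eq_of_nhds
  · exact (grad_congr (hnear x hx)).fderiv_eq
  · refine ⟨K + M * K + (M * (2 * K) + M), q, by positivity, fun x => ?_⟩
    have hx1 : 1 ≤ 1 + ‖x‖ := by have := norm_nonneg x; linarith
    have hp1 : 1 ≤ (1 + ‖x‖) ^ q := one_le_pow₀ hx1
    rcases lt_or_ge (|w x|) δ with hx | hx
    · have h4 := norm_third_theta_le hw3 hα hM1 hM2 x (h.norm_grad x hx)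
        ((h.hess_le x hx).trans hCK) (h3 x hx)
      refine h4.trans ?_
      have h5 : C * (1 + ‖x‖) ^ q ≤ K * (1 + ‖x‖) ^ q := by gcongr
      have h6 : M * K + (M * (2 * K) + M) ≤ (M * K + (M * (2 * K) + M)) * (1 + ‖x‖) ^ q :=
        le_mul_of_one_le_right (by positivity) hp1
      linarith
    · have hfar : grad (fun x => Theta α hα (w x)) =ᶠ[𝓝 x] fun _ => 0 := by
        have : {y | 2 * α < |w y|} ∈ 𝓝 x :=
          (isOpen_lt continuous_const hw3.continuous.abs).mem_nhds (by
            change 2 * α < |w x|; linarith)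
        filter_upwards [this] with y hy
        have h1 : grad (fun x => Theta α hα (w x)) y = bmp α hα (w y) • gradient w y :=
          gradient_comp (hw3.differentiable (by norm_num) y) (hasDerivAt_Theta hα _)
        rw [h1, bmp_zero hα (le_of_lt hy), zero_smul]
      have h5 : fderiv ℝ (grad fun x => Theta α hα (w x)) =ᶠ[𝓝 x] fun _ => 0 := by
        filter_upwards [hfar.eventuallyEq_nhds] with y hy
        rw [hy.fderiv_eq]; simp
      have h6 : fderiv ℝ (fderiv ℝ (grad fun x => Theta α hα (w x))) x = 0 := by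
        rw [h5.fderiv_eq]; simp
      rw [h6]
      refine le_trans (le_of_eq ContinuousLinearMap.opNorm_zero) (by positivity)

end Vale.Agent.P218.H333
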